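import Mathlib

/-!
Internal working notions for the tiling construction.
-/

namespace Vale.Agent.P043

/-- Working form of `A ⊕ F = G` for a finite tile `F`. -/
def TilesF {G : Type} [AddCommGroup G] (A : Set G) (F : Finset G) : Prop :=
  ∀ g : G, ∃! f : G, f ∈ F ∧ g - f ∈ A

/-- `A` is invariant under `D • G`. -/
def PerBy {G : Type} [AddCommGroup G] (D : ℕ) (A : Set G) : Prop :=
  ∀ a ∈ A, ∀ u : G, a + D • u ∈ A

/-- A finite system of finite tiles in `G` with a common tiling but no periodic common tiling. -/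
def AperSystem (G : Type) [AddCommGroup G] : Prop :=
  ∃ (M : ℕ) (F : Fin M → Finset G), (∃ A : Set G, ∀ k, TilesF A (F k)) ∧
    ∀ A : Set G, (∀ k, TilesF A (F k)) → ∀ D : ℕ, 0 < D → ¬ PerBy D A

/-- The working group `ℤ^3`. -/
abbrev G3 : Type := ℤ × ℤ × ℤ

/-- vertical vector -/
def vz (c : ℤ) : G3 := (0, 0, c)

section Fib
variable {V : Type} [AddCommGroup V]

/-- `val` is equivariant for the vertical shifts `emb h` and has vertical period `P`. -/
def Equivar (P : ℤ) (emb : V → ℤ) (val : G3 → V) : Prop :=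
  (∀ g h, val (g + vz (emb h)) = val g + h) ∧ ∀ g, val (g + vz P) = val g

/-- The constraint attached to `τ`. -/
def Cons (τ : V → G3) (val : G3 → V) : Prop :=
  ∀ g, ∃! h : V, val (g - τ h) = h

end Fib

end Vale.Agent.P043
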