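import Mathlib

namespace Vale.Agent.P043

/-- The Sudoku line rule for `q = 11` on `22` columns. -/
def Good (g : Fin 22 → ZMod 11) : Prop :=
  ∃ a b : ZMod 11, ¬ (a = 0 ∧ b = 0) ∧
    (∀ n : Fin 22, a * ((n : ℕ) : ZMod 11) + b ≠ 0 → g n = a * ((n : ℕ) : ZMod 11) + b) ∧
    (a ≠ 0 → ∀ n0 n1 : Fin 22, (n1 : ℕ) = n0 + 11 → a * ((n0 : ℕ) : ZMod 11) + b = 0 →
      ∃ c : ZMod 11, (c ≠ 0 → g n0 = c) ∧ (c + a ≠ 0 → g n1 = c + a))

/-- last nonzero digit in base `11` -/
noncomputable def lastDigit (m : ℤ) : ZMod 11 :=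
  if m = 0 then 1 else ((m / 11 ^ padicValInt 11 m : ℤ) : ZMod 11)

theorem lastDigit_of_ne (m : ℤ) (hm : (m : ZMod 11) ≠ 0) : lastDigit m = (m : ZMod 11) := by
  have h0 : m ≠ 0 := by rintro rfl; simp at hm
  have h1 : padicValInt 11 m = 0 := padicValInt.eq_zero_of_not_dvd fun h =>
    hm ((ZMod.intCast_zmod_eq_zero_iff_dvd m 11).mpr h)
  simp [lastDigit, h0, h1]

namespace SudokuAux

instance fact11 : Fact (Nat.Prime 11) := ⟨by norm_num⟩

lemma lastDigit_mul (m : ℤ) : lastDigit (11 * m) = lastDigit m := by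
  by_cases h0 : m = 0
  · simp [h0]
  · have h1 : padicValInt 11 (11 * m) = padicValInt 11 m + 1 := by
      have h2 : padicValInt 11 ((11 : ℕ) : ℤ) = 1 := padicValInt.self (by norm_num)
      have h3 := padicValInt.mul (p := 11) (a := ((11 : ℕ) : ℤ)) (by norm_num) h0
      rw [h2] at h3
      rw [add_comm]
      exact_mod_cast h3
    have h4 : (11 : ℤ) * m ≠ 0 := mul_ne_zero (by norm_num) h0
    rw [lastDigit, lastDigit, if_neg h0, if_neg h4, h1, pow_succ', Int.mul_ediv_mul_of_pos _ _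
      (by norm_num)]

lemma eleven : (11 : ZMod 11) = 0 := by decide

end SudokuAux

open SudokuAux

theorem good_lastDigit (i k : ℤ) : Good (fun n => lastDigit (i + ((n : ℕ) : ℤ) * k)) := by
  induction h : i.natAbs + k.natAbs using Nat.strong_induction_on generalizing i k with
  | _ N ih =>
    by_cases h0 : i = 0 ∧ k = 0
    · obtain ⟨rfl, rfl⟩ := h0
      exact ⟨0, 1, by simp, fun n _ => by simp [lastDigit], fun h => absurd rfl h⟩
    by_cases h1 : (k : ZMod 11) = 0 ∧ (i : ZMod 11) = 0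
    · obtain ⟨k', rfl⟩ := (ZMod.intCast_zmod_eq_zero_iff_dvd k 11).mp h1.1
      obtain ⟨i', rfl⟩ := (ZMod.intCast_zmod_eq_zero_iff_dvd i 11).mp h1.2
      have := ih (i'.natAbs + k'.natAbs) (by push_cast at h h0; omega) i' k' rfl
      have e : (fun n : Fin 22 => lastDigit (((11 : ℕ) : ℤ) * i' + ((n : ℕ) : ℤ) * (((11 : ℕ) : ℤ) * k')))
          = fun n : Fin 22 => lastDigit (i' + ((n : ℕ) : ℤ) * k') := by
        ext n
        rw [← lastDigit_mul (i' + _)]
        congr 1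
        push_cast
        ring
      rw [e]
      exact this
    · have e : ∀ n : ℕ, ((i + (n : ℤ) * k : ℤ) : ZMod 11) = (k : ZMod 11) * (n : ZMod 11) + i := by
        intro n; push_cast; ring
      refine ⟨k, i, h1, fun n hn => ?_, fun _ n0 n1 hn hz => ?_⟩
      · rw [← e] at hn ⊢
        exact lastDigit_of_ne _ hn
      · rw [← e] at hz
        obtain ⟨c, hc⟩ := (ZMod.intCast_zmod_eq_zero_iff_dvd _ 11).mp hz
        refine ⟨c, fun h => ?_, fun h => ?_⟩
        · change lastDigit _ = _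
          rw [hc]
          exact (lastDigit_mul c).trans (lastDigit_of_ne c h)
        · change lastDigit _ = _
          have : i + ((n1 : ℕ) : ℤ) * k = 11 * (c + k) := by
            rw [hn]; push_cast at hc ⊢; linear_combination hc
          rw [this, lastDigit_mul, lastDigit_of_ne _ (by push_cast; exact h)]
          push_cast; rfl

namespace SudokuAux

def Rule (F : Fin 22 → ℤ → ZMod 11) : Prop :=
  ∀ i k : ℤ, Good (fun n => F n (i + ((n : ℕ) : ℤ) * k))

def Std (F : Fin 22 → ℤ → ZMod 11) (B : ZMod 11) : Prop :=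
  ∀ n (m : ℤ), (m : ZMod 11) ≠ 0 → F n m = B * m

lemma exists_int (x : ZMod 11) : ∃ m : ℤ, (m : ZMod 11) = x := ZMod.intCast_surjective x

lemma shear {F : Fin 22 → ℤ → ZMod 11} (hr : Rule F) {A C B : ZMod 11}
    (h : ∀ (n : Fin 22) (m : ℤ), (m : ZMod 11) + (A * ((n : ℕ) : ZMod 11) + C) ≠ 0 →
      F n m = B * (m + (A * ((n : ℕ) : ZMod 11) + C))) {D : ℕ}
    (hper : ∀ n m, F n (m + D) = F n m) :
    ∃ F' : Fin 22 → ℤ → ZMod 11, Rule F' ∧ Std F' B ∧ ∀ n m, F' n (m + D) = F' n m := by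
  obtain ⟨a, rfl⟩ := exists_int A
  obtain ⟨c, rfl⟩ := exists_int C
  refine ⟨fun n m => F n (m - a * ((n : ℕ) : ℤ) - c), fun i k => ?_, fun n m hm => ?_,
    fun n m => ?_⟩
  · have := hr (i - c) (k - a)
    have e : (fun n : Fin 22 => F n (i - c + ((n : ℕ) : ℤ) * (k - a)))
        = fun n : Fin 22 => F n (i + ((n : ℕ) : ℤ) * k - a * ((n : ℕ) : ℤ) - c) := by
      ext n; congr 1; ring
    rwa [e] at this
  · have e : ((m - a * ((n : ℕ) : ℤ) - c : ℤ) : ZMod 11)
        + ((a : ZMod 11) * ((n : ℕ) : ZMod 11) + c) = m := by push_cast; ring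
    have := h n (m - a * ((n : ℕ) : ℤ) - c) (by rw [e]; exact hm)
    rwa [e] at this
  · have := hper n (m - a * ((n : ℕ) : ℤ) - c)
    simp only
    rw [← this]
    congr 1; ring

lemma avoid (l : List (ZMod 11)) (hl : l.length < 11) : ∃ m : ℤ, (m : ZMod 11) ∉ l := by
  obtain ⟨x, -, hx⟩ := Finset.exists_mem_notMem_of_card_lt_card (s := l.toFinset)
    (t := (Finset.univ : Finset (ZMod 11)))
    (by rw [Finset.card_univ, ZMod.card]; exact lt_of_le_of_lt (List.toFinset_card_le l) hl)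
  obtain ⟨m, rfl⟩ := exists_int x
  exact ⟨m, by simpa using hx⟩

lemma two_col (h0 h1 : ℤ → ZMod 11) (h : ∀ m0 m1 : ℤ, (m0 : ZMod 11) ≠ m1 →
    h0 m0 = h1 m1 ∨ h0 m0 = -m1 ∨ h1 m1 = -m0) :
    ∃ δ : ZMod 11, ∀ m : ℤ, (m : ZMod 11) + δ ≠ 0 → h0 m = δ ∧ h1 m = δ := by
  have hS : ∀ m : ℤ, (m : ZMod 11) ∉ [0, 1, 2, -h0 0, -h0 1, -h0 2] →
      (h0 0 = h1 m ∨ h1 m = 0) ∧ (h0 1 = h1 m ∨ h1 m = -1) ∧ (h0 2 = h1 m ∨ h1 m = -2) := by
    intro m hm
    simp only [List.mem_cons, List.not_mem_nil, or_false, not_or] at hm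
    obtain ⟨a0, a1, a2, b0, b1, b2⟩ := hm
    refine ⟨?_, ?_, ?_⟩
    · rcases h 0 m (by simpa using Ne.symm a0) with q | q | q
      · exact Or.inl q
      · exact absurd (by rw [q]; ring) b0
      · exact Or.inr (by simpa using q)
    · rcases h 1 m (by simpa using Ne.symm a1) with q | q | q
      · exact Or.inl q
      · exact absurd (by rw [q]; ring) b1
      · exact Or.inr (by simpa using q)
    · rcases h 2 m (by simpa using Ne.symm a2) with q | q | q
      · exact Or.inl q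
      · exact absurd (by rw [q]; ring) b2
      · exact Or.inr (by simpa using q)
  have key : ∀ a b c x y : ZMod 11, (a = x ∨ x = 0) ∧ (b = x ∨ x = -1) ∧ (c = x ∨ x = -2) →
      (a = y ∨ y = 0) ∧ (b = y ∨ y = -1) ∧ (c = y ∨ y = -2) → x = y := by
    intro a b c x y ⟨p1, p2, p3⟩ ⟨q1, q2, q3⟩
    have n1 : (0 : ZMod 11) ≠ -1 := by decide
    have n2 : (0 : ZMod 11) ≠ -2 := by decide
    have n3 : (-1 : ZMod 11) ≠ -2 := by decide
    rcases p1 with p1 | p1 <;> rcases p2 with p2 | p2 <;> rcases p3 with p3 | p3 <;>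
      rcases q1 with q1 | q1 <;> rcases q2 with q2 | q2 <;> rcases q3 with q3 | q3 <;>
      first
        | exact p1.symm.trans q1
        | exact p2.symm.trans q2
        | exact p3.symm.trans q3
        | exact absurd (p1.symm.trans p2) n1
        | exact absurd (p1.symm.trans p3) n2
        | exact absurd (p2.symm.trans p3) n3
        | exact absurd (q1.symm.trans q2) n1
        | exact absurd (q1.symm.trans q3) n2
        | exact absurd (q2.symm.trans q3) n3
  obtain ⟨s, hs⟩ := avoid [0, 1, 2, -h0 0, -h0 1, -h0 2] (by simp)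
  have c0 : ∀ m : ℤ, (m : ZMod 11) + h1 s ≠ 0 → h0 m = h1 s := by
    intro m hm
    obtain ⟨t, ht⟩ := avoid ((m : ZMod 11) :: -h0 m :: [0, 1, 2, -h0 0, -h0 1, -h0 2]) (by simp)
    rw [List.mem_cons, List.mem_cons, not_or, not_or] at ht
    have e := key _ _ _ _ _ (hS t ht.2.2) (hS s hs)
    rcases h m t (Ne.symm ht.1) with q | q | q
    · exact q.trans e
    · exact absurd (by rw [q]; ring) ht.2.1
    · exact absurd (by rw [← e, q]; ring) hm
  refine ⟨h1 s, fun m hm => ⟨c0 m hm, ?_⟩⟩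
  obtain ⟨t, ht⟩ := avoid [(m : ZMod 11), -h1 s, -h1 m] (by simp)
  simp only [List.mem_cons, List.not_mem_nil, or_false, not_or] at ht
  have e := c0 t (fun q => ht.2.1 (by linear_combination q))
  rcases h t m ht.1 with q | q | q
  · exact q.symm.trans e
  · exact absurd (by rw [← e, q]; ring) hm
  · exact absurd (by rw [q]; ring) ht.2.2

lemma fin1 : ∀ a e β : ZMod 11, β ≠ 0 → ¬ (a = 0 ∧ e = 0) → (a * 1 + e ≠ 0 → β * 1 = a * 1 + e) →
    (a * 2 + e ≠ 0 → β * 2 = a * 2 + e) → (a * 3 + e ≠ 0 → β * 3 = a * 3 + e) →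
    a = β ∧ e = 0 := by decide +kernel

lemma fin2 : ∀ n ε : ZMod 11, n ≠ 0 → n ≠ 1 → ε ≠ 0 → ∃ u0 u1 : ZMod 11, u0 ≠ 0 ∧ u1 ≠ 0 ∧
    u0 + n * (u1 - u0) + ε ≠ 0 ∧ ∀ a b : ZMod 11, ¬ (a = 0 ∧ b = 0) → (b ≠ 0 → u0 = b) →
      (a + b ≠ 0 → u1 = a + b) → ¬ (a * n + b ≠ 0 → u0 + n * (u1 - u0) + ε = a * n + b) := by
  decide +kernel

lemma col_pair {F : Fin 22 → ℤ → ZMod 11} (hr : Rule F) {B : ZMod 11} (hB : B ≠ 0)
    (hs : Std F B) (n0 n1 : Fin 22) (hn : (n1 : ℕ) = n0 + 11) :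
    ∃ δ : ZMod 11, ∀ m : ℤ, (m : ZMod 11) + δ ≠ 0 →
      F n0 (11 * m) = B * (m + δ) ∧ F n1 (11 * m) = B * (m + δ) := by
  obtain ⟨δ, hδ⟩ := two_col (fun m => B⁻¹ * F n0 (11 * m) - m) (fun m => B⁻¹ * F n1 (11 * m) - m)
    (by
      intro m0 m1 hm
      obtain ⟨a, b, hab, g1, g2⟩ := hr (11 * m0 - ((n0 : ℕ) : ℤ) * (m1 - m0)) (m1 - m0)
      have hk : ((m1 : ZMod 11) - m0) ≠ 0 := sub_ne_zero.mpr (Ne.symm hm)
      have hj : ∀ j : ℕ, j ≤ 3 → ((j : ℕ) : ZMod 11) ≠ 0 →
          a * (j : ZMod 11) + (a * ((n0 : ℕ) : ZMod 11) + b) ≠ 0 →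
          B * ((m1 : ZMod 11) - m0) * (j : ZMod 11)
            = a * (j : ZMod 11) + (a * ((n0 : ℕ) : ZMod 11) + b) := by
        intro j hj hj0 hne
        have e1 : a * ((((n0 : ℕ) + j : ℕ)) : ZMod 11) + b
            = a * (j : ZMod 11) + (a * ((n0 : ℕ) : ZMod 11) + b) := by push_cast; ring
        have q := g1 ⟨n0 + j, by omega⟩ (by rw [e1]; exact hne)
        simp only at q
        have e2 : ((11 * m0 - ((n0 : ℕ) : ℤ) * (m1 - m0) + (((n0 : ℕ) + j : ℕ) : ℤ) * (m1 - m0) : ℤ)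
            : ZMod 11) = ((m1 : ZMod 11) - m0) * (j : ZMod 11) := by
          push_cast; linear_combination (m0 : ZMod 11) * eleven
        rw [hs _ _ (by rw [e2]; exact mul_ne_zero hk hj0), e2, e1] at q
        rw [← q]; ring
      obtain ⟨ha, he⟩ := fin1 a (a * ((n0 : ℕ) : ZMod 11) + b) (B * ((m1 : ZMod 11) - m0))
        (mul_ne_zero hB hk) (fun q => hab ⟨q.1, by simpa [q.1] using q.2⟩)
        (by simpa using hj 1 (by norm_num) (by decide))
        (by simpa using hj 2 (by norm_num) (by decide))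
        (by simpa using hj 3 (by norm_num) (by decide))
      obtain ⟨c, c0, c1⟩ := g2 (ha ▸ mul_ne_zero hB hk) n0 n1 hn he
      simp only at c0 c1
      have e0 : 11 * m0 - ((n0 : ℕ) : ℤ) * (m1 - m0) + ((n0 : ℕ) : ℤ) * (m1 - m0) = 11 * m0 := by
        ring
      have e1 : 11 * m0 - ((n0 : ℕ) : ℤ) * (m1 - m0) + ((n1 : ℕ) : ℤ) * (m1 - m0) = 11 * m1 := by
        rw [hn]; push_cast; ring
      rw [e0] at c0
      rw [e1] at c1
      by_cases z0 : c = 0
      · right; right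
        rw [c1 (by rw [z0, zero_add, ha]; exact mul_ne_zero hB hk), z0, ha]
        field_simp
        ring
      · by_cases z1 : c + a = 0
        · right; left
          have : c = -(B * ((m1 : ZMod 11) - m0)) := by rw [← ha]; linear_combination z1
          rw [c0 z0, this]
          field_simp
          ring
        · left
          rw [c0 z0, c1 z1, ha]
          field_simp
          ring)
  refine ⟨δ, fun m hm => ?_⟩
  obtain ⟨q0, q1⟩ := hδ m hm
  constructor
  · rw [← q0]; field_simp; ring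
  · rw [← q1]; field_simp; ring

lemma rule_mul {F : Fin 22 → ℤ → ZMod 11} (hr : Rule F) : Rule fun n m => F n (11 * m) := by
  intro i k
  have := hr (11 * i) (11 * k)
  have e : (fun n : Fin 22 => F n (11 * i + ((n : ℕ) : ℤ) * (11 * k)))
      = fun n : Fin 22 => F n (11 * (i + ((n : ℕ) : ℤ) * k)) := by
    ext n; congr 1; ring
  rwa [e] at this

lemma affine {G : Fin 22 → ℤ → ZMod 11} (hr : Rule G) {B : ZMod 11} (hB : B ≠ 0)
    (δ : Fin 22 → ZMod 11) (h : ∀ n (m : ℤ), (m : ZMod 11) + δ n ≠ 0 → G n m = B * (m + δ n))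
    (n : Fin 22) (h0 : ((n : ℕ) : ZMod 11) ≠ 0) (h1 : ((n : ℕ) : ZMod 11) ≠ 1) :
    δ n = (δ 1 - δ 0) * ((n : ℕ) : ZMod 11) + δ 0 := by
  by_contra hne
  obtain ⟨u0, u1, p0, p1, p2, p3⟩ := fin2 _ _ h0 h1 (sub_ne_zero.mpr hne)
  obtain ⟨i, hi⟩ := exists_int (u0 - δ 0)
  obtain ⟨k, hk⟩ := exists_int (u1 - u0 - (δ 1 - δ 0))
  obtain ⟨a, b, hab, g, -⟩ := hr i k
  have e0 : ((i + (((0 : Fin 22) : ℕ) : ℤ) * k : ℤ) : ZMod 11) + δ 0 = u0 := by
    simp [hi]
  have e1 : ((i + (((1 : Fin 22) : ℕ) : ℤ) * k : ℤ) : ZMod 11) + δ 1 = u1 := by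
    simp [hi, hk]; ring
  have e2 : ((i + ((n : ℕ) : ℤ) * k : ℤ) : ZMod 11) + δ n = u0 + ((n : ℕ) : ZMod 11) * (u1 - u0)
      + (δ n - ((δ 1 - δ 0) * ((n : ℕ) : ZMod 11) + δ 0)) := by
    push_cast; rw [hi, hk]; ring
  have g0 := g 0
  have g1 := g 1
  have gn := g n
  simp only at g0 g1 gn
  rw [h _ _ (by rw [e0]; exact p0), e0] at g0
  rw [h _ _ (by rw [e1]; exact p1), e1] at g1
  rw [h _ _ (by rw [e2]; exact p2), e2] at gn
  have hBi : B⁻¹ ≠ 0 := inv_ne_zero hB
  refine p3 (B⁻¹ * a) (B⁻¹ * b) (fun q => hab ⟨(mul_eq_zero.mp q.1).resolve_left hBi,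
    (mul_eq_zero.mp q.2).resolve_left hBi⟩) (fun q => ?_) (fun q => ?_) (fun q => ?_)
  · have := g0 (by simpa using right_ne_zero_of_mul q)
    simp only [Fin.val_zero, Nat.cast_zero, mul_zero, zero_add] at this
    rw [← this]; field_simp
  · rw [← mul_add] at q ⊢
    have := g1 (by simpa using right_ne_zero_of_mul q)
    simp only [Fin.val_one, Nat.cast_one, mul_one] at this
    rw [← this]; field_simp
  · rw [mul_assoc, ← mul_add] at q ⊢
    rw [← gn (right_ne_zero_of_mul q)]; field_simp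

lemma step {F : Fin 22 → ℤ → ZMod 11} (hr : Rule F) {B : ZMod 11} (hB : B ≠ 0) (hs : Std F B) :
    ∃ A C : ZMod 11, ∀ (n : Fin 22) (m : ℤ), (m : ZMod 11) + (A * ((n : ℕ) : ZMod 11) + C) ≠ 0 →
      F n (11 * m) = B * (m + (A * ((n : ℕ) : ZMod 11) + C)) := by
  choose d hd using fun r : Fin 11 => col_pair hr hB hs ⟨r, by omega⟩ ⟨r + 11, by omega⟩ rfl
  let δ : Fin 22 → ZMod 11 := fun n => d ⟨n % 11, Nat.mod_lt _ (by norm_num)⟩
  have h : ∀ n (m : ℤ), (m : ZMod 11) + δ n ≠ 0 → F n (11 * m) = B * (m + δ n) := by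
    intro n m hm
    have := hd _ m hm
    by_cases hn : (n : ℕ) < 11
    · have e : n = ⟨n % 11, by omega⟩ := Fin.ext (by simp only; omega)
      rw [e]; simpa [δ] using this.1
    · have e : n = ⟨n % 11 + 11, by omega⟩ := Fin.ext (by simp only; omega)
      rw [e]; simpa [δ] using this.2
  refine ⟨δ 1 - δ 0, δ 0, fun n m => ?_⟩
  have e : δ n = (δ 1 - δ 0) * ((n : ℕ) : ZMod 11) + δ 0 := by
    by_cases h0 : ((n : ℕ) : ZMod 11) = 0
    · have : (n : ℕ) % 11 = 0 := Nat.mod_eq_zero_of_dvd ((ZMod.natCast_eq_zero_iff _ _).mp h0)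
      simp [δ, h0, this]
    · by_cases h1 : ((n : ℕ) : ZMod 11) = 1
      · have : (n : ℕ) % 11 = 1 :=
          (ZMod.natCast_eq_natCast_iff' (n : ℕ) 1 11).mp (by simpa using h1)
        simp [δ, h1, this]
      · exact affine (rule_mul hr) hB δ h n h0 h1
  rw [← e]
  exact h n m

lemma descent {B : ZMod 11} (hB : B ≠ 0) (D : ℕ) : 0 < D → ∀ F : Fin 22 → ℤ → ZMod 11, Rule F →
    Std F B → (∀ n m, F n (m + D) = F n m) → False := by
  induction D using Nat.strong_induction_on with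
  | _ D ih =>
    intro hD F hr hs hper
    obtain ⟨m, hm⟩ := avoid [0, -(D : ZMod 11)] (by simp)
    simp only [List.mem_cons, List.not_mem_nil, or_false, not_or] at hm
    have e := hper 0 m
    rw [hs _ _ hm.1, hs _ _ (by push_cast; exact fun q => hm.2 (by linear_combination q))] at e
    have hz : (D : ZMod 11) = 0 := by
      have := mul_left_cancel₀ hB e
      push_cast at this
      linear_combination this
    obtain ⟨D', rfl⟩ := (ZMod.natCast_eq_zero_iff _ _).mp hz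
    obtain ⟨A, C, h⟩ := step hr hB hs
    obtain ⟨F', r1, r2, r3⟩ := shear (rule_mul hr) h (D := D') (fun n m => by
      rw [← hper n (11 * m)]; congr 1; push_cast; ring)
    exact ih D' (by omega) (by omega) F' r1 r2 r3

lemma two_val (T : ZMod 11 → ZMod 11) (v : ZMod 11) (h : ∀ i, T i ≠ 0 → v = T i)
    (hs : ∑ i, T i = 0) (i j : ZMod 11) : T i = T j := by
  have e : ∑ i, T i = ((Finset.univ.filter fun i => T i ≠ 0).card : ZMod 11) * v := by
    rw [← Finset.sum_filter_ne_zero, Finset.sum_congr rfl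
      fun i hi => (h i (Finset.mem_filter.mp hi).2).symm, Finset.sum_const, nsmul_eq_mul]
  rw [hs] at e
  rcases mul_eq_zero.mp e.symm with q | q
  · have q1 := (ZMod.natCast_eq_zero_iff _ _).mp q
    have q2 := Finset.card_filter_le (Finset.univ : Finset (ZMod 11)) fun i => T i ≠ 0
    rw [Finset.card_univ, ZMod.card] at q2
    have q3 : (Finset.univ.filter fun i => T i ≠ 0).card = 0 ∨
        (Finset.univ.filter fun i => T i ≠ 0).card = 11 := by omega
    rcases q3 with q3 | q3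
    · have := Finset.filter_eq_empty_iff.mp (Finset.card_eq_zero.mp q3)
      rw [not_not.mp (this (Finset.mem_univ i)), not_not.mp (this (Finset.mem_univ j))]
    · have := (Finset.card_eq_iff_eq_univ _).mp (q3.trans (ZMod.card 11).symm)
      have a : ∀ i, T i ≠ 0 := fun i =>
        (Finset.mem_filter.mp (this.symm ▸ Finset.mem_univ i :
          i ∈ Finset.univ.filter fun i => T i ≠ 0)).2
      rw [← h i (a i), ← h j (a j)]
  · have a : ∀ i, T i = 0 := fun i => by
      by_contra hi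
      exact hi ((h i hi).symm.trans q)
    rw [a i, a j]

end SudokuAux

/-- A solution of the Sudoku with non-constant base clocks has no vertical period. -/
theorem sudoku_aperiodic (F : Fin 22 → ℤ → ZMod 11)
    (hrule : ∀ i k : ℤ, Good (fun n => F n (i + ((n : ℕ) : ℤ) * k)))
    (φ ψ : ZMod 11 → ZMod 11) (hφ : Function.Injective φ) (hψ : Function.Injective ψ)
    (hbase : ∀ (n : Fin 22) (i k : ℤ),
      φ (i : ZMod 11) + ((n : ℕ) : ZMod 11) * ψ (k : ZMod 11) ≠ 0 →
      F n (i + ((n : ℕ) : ℤ) * k) = φ (i : ZMod 11) + ((n : ℕ) : ZMod 11) * ψ (k : ZMod 11))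
    (D : ℕ) (hD : 0 < D) (hper : ∀ n m, F n (m + D) = F n m) : False := by
  have hsum : ∑ i : ZMod 11, i = 0 := by decide
  have hc : ∀ m i j : ZMod 11, φ i + ψ (m - i) = φ j + ψ (m - j) := by
    intro m
    obtain ⟨m, rfl⟩ := exists_int m
    apply two_val (fun i => φ i + ψ (m - i)) (F 1 m)
    · intro i hi
      obtain ⟨i, rfl⟩ := exists_int i
      have := hbase 1 i (m - i) (by simpa using hi)
      simpa using this
    · rw [Finset.sum_add_distrib,
        Function.Bijective.sum_comp (Finite.injective_iff_bijective.mp hφ) fun x => x,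
        Function.Bijective.sum_comp (e := fun i : ZMod 11 => ψ (m - i))
          (Finite.injective_iff_bijective.mp (hψ.comp sub_right_injective)) fun x => x, hsum,
        add_zero]
  have hstep : ∀ i, φ (i + 1) = φ i + (ψ 1 - ψ 0) := by
    intro i
    have := hc (i + 1) i (i + 1)
    simp only [add_sub_cancel_left, sub_self] at this
    linear_combination -this
  have hB : ψ 1 - ψ 0 ≠ 0 := sub_ne_zero.mpr fun q => one_ne_zero (hψ q)
  generalize ψ 1 - ψ 0 = B at hstep hB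
  have hlin : ∀ i : ZMod 11, φ i = B * i + φ 0 := by
    intro i
    obtain ⟨n, rfl⟩ := ZMod.natCast_zmod_surjective i
    induction n with
    | zero => simp
    | succ n ih => push_cast; rw [hstep, ih]; ring
  obtain ⟨F', r1, r2, r3⟩ := shear (F := F) hrule (A := B⁻¹ * ψ 0) (C := B⁻¹ * φ 0) (B := B)
    (fun n m hm => by
      have e : φ (m : ZMod 11) + ((n : ℕ) : ZMod 11) * ψ ((0 : ℤ) : ZMod 11)
          = B * (m + (B⁻¹ * ψ 0 * ((n : ℕ) : ZMod 11) + B⁻¹ * φ 0)) := by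
        rw [hlin, Int.cast_zero]; field_simp; ring
      have := hbase n m 0 (by rw [e]; exact mul_ne_zero hB hm)
      rwa [e, mul_zero, add_zero] at this) hper
  exact descent hB D hD F' r1 r2 r3

end Vale.Agent.P043
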