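import Mathlib
import Vale.Agent.P043.Basic
import Vale.Agent.P043.Sudoku

/-!
The core construction: coordinates, parameters, literals and the list of rules.
-/

namespace Vale.Agent.P043

/-- labels of the hybrid coordinates: `none` is the enabling label -/
abbrev Lam : Type := Option (Fin 22 × ZMod 11)

/-- the alternating bits -/
inductive Bit (L : ℕ) : Type
  | tau : Bit L
  | rho : Bit L
  | mk (l : Fin (L + 1)) : Bit L
  deriving DecidableEq, Fintype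

/-- the coordinates -/
inductive Ix (L : ℕ) : Type
  | two : Ix L
  | aux (β : Bit L) : Ix L
  | qq : Ix L
  | sq (γ : Bool) (μ : ZMod 11) : Ix L
  | idx (lam : Lam) : Ix L
  | sr (lam : Lam) (μ : Fin (L + 1)) : Ix L
  | hyb (lam : Lam) : Ix L
  | yy (n : Fin 22) (s : ZMod 11) : Ix L
  deriving DecidableEq, Fintype

/-- value modulus of a coordinate -/
def mm {L : ℕ} (pr : Ix L → ℕ) : Ix L → ℕ
  | .two => 4 ^ (L + 3)
  | .qq => 11
  | ι => pr ι

/-- vertical modulus of a coordinate -/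
def NN {L : ℕ} (pr : Ix L → ℕ) : Ix L → ℕ
  | .two => 4 ^ (L + 3)
  | .qq => 11
  | .idx lam => pr (.idx lam) ^ 2
  | ι => pr ι

/-- weight of a coordinate in the vertical embedding; `NN = mm * ww` -/
def ww {L : ℕ} (pr : Ix L → ℕ) : Ix L → ℕ
  | .idx lam => pr (.idx lam)
  | _ => 1

/-- numerical parameters of the construction -/
structure Params where
  L : ℕ
  pr : Ix L → ℕ
  prime : ∀ ι, (pr ι).Prime
  odd : ∀ ι, ι ≠ .two → pr ι ≠ 2
  r_le : ∀ lam, pr (.idx lam) ≤ L + 1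
  L_ge : 11 ≤ L + 1
  E : Ix L → ℤ
  P : ℤ
  E_self : ∀ ι, (NN pr ι : ℤ) ∣ E ι - 1
  E_other : ∀ ι κ, ι ≠ κ → (NN pr κ : ℤ) ∣ E ι
  P_dvd : ∀ ι, P ∣ (NN pr ι : ℤ) * E ι
  dvd_P : ∀ ι, (NN pr ι : ℤ) ∣ P

namespace Params

variable (p : Params)

/-- the value group -/
abbrev V : Type := ∀ ι : Ix p.L, ZMod (mm p.pr ι)

theorem one_lt_mm (ι : Ix p.L) : 1 < mm p.pr ι := by
  cases ι <;> simp only [mm] <;>
    first
      | exact Nat.one_lt_pow (by omega) (by norm_num)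
      | exact (p.prime _).one_lt
      | norm_num

instance neZero_mm (ι : Ix p.L) : NeZero (mm p.pr ι) := ⟨by have := p.one_lt_mm ι; omega⟩

/-- the unit vertical shift of a coordinate -/
def ee (ι : Ix p.L) : ℤ := (ww p.pr ι : ℤ) * p.E ι

/-- the vertical embedding -/
def emb (h : p.V) : ℤ := ∑ ι, ((h ι).val : ℤ) * p.ee ι

/-- the power of four -/
def K : ℤ := 4 ^ (p.L + 3)

/-- the index prime of a label -/
def r (lam : Lam) : ℤ := (p.pr (.idx lam) : ℤ)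

end Params

/-- direction of a label -/
def dirn : Lam → ℤ
  | none => 0
  | some (n, _) => ((n : ℕ) : ℤ)

/-- side of a label -/
def side : Lam → Bool
  | none => true
  | some _ => false

/-- marker pattern of a number -/
def code {L : ℕ} (μ : ℕ) (l : Fin (L + 1)) : Bool := decide ((l : ℕ) = μ)

/-- digit position of a bit -/
def expo {L : ℕ} : Bit L → ℕ
  | .tau => 0
  | .rho => 1
  | .mk l => (l : ℕ) + 2

/-- site of the even branch -/
def kap1 (D : ZMod 4) : ZMod 4 := if D = 0 ∨ D = 2 then 0 else 2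
/-- target of the even branch -/
def sig1 (D : ZMod 4) : ZMod 4 := if D = 0 ∨ D = 1 then 0 else 2
/-- site of the odd branch -/
def kap3 (D : ZMod 4) : ZMod 4 := if D = 0 ∨ D = 2 then 3 else 1
/-- target of the odd branch -/
def sig3 (D : ZMod 4) : ZMod 4 := if D = 0 ∨ D = 1 then 1 else 3
/-- parity label -/
def par (D : ZMod 4) : Bool := decide (D = 1 ∨ D = 2)

namespace Params

variable (p : Params)

/-- periods of a coordinate apart from its own prime -/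
def Inv0 : Ix p.L → G3 → Prop
  | .two, v => p.K ∣ v.1 ∧ p.K ∣ v.2.1 ∧ p.K ∣ v.2.2
  | .aux .tau, v => (4 : ℤ) ∣ v.2.1
  | .aux .rho, v => p.K ∣ v.2.1
  | .aux (.mk l), v => (4 : ℤ) ^ ((l : ℕ) + 1) ∣ v.1
  | .qq, v => p.K ∣ v.1 ∧ (11 : ℤ) ∣ v.1 ∧ p.K ∣ v.2.1
  | .sq false _, v => (11 : ℤ) ∣ v.1
  | .sq true _, v => (11 : ℤ) ∣ v.2.1
  | .idx _, v => p.K ∣ v.1 ∧ p.K ∣ v.2.1
  | .sr lam _, v => p.r lam ^ 2 ∣ v.2.1 ∧ p.r lam ∣ v.2.2
  | .hyb lam, v => v.1 + dirn lam * v.2.1 = 0 ∧ p.K ∣ v.2.1 ∧ p.r lam ^ 2 ∣ v.2.1 ∧ p.r lam ∣ v.2.2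
  | .yy n _, v => v.1 + ((n : ℕ) : ℤ) * v.2.1 = 0

/-- periods of a coordinate -/
def Inv (ι : Ix p.L) (v : G3) : Prop :=
  p.Inv0 ι v ∧ (NN p.pr ι : ℤ) ∣ v.2.1 ∧ (NN p.pr ι : ℤ) ∣ v.2.2

/-- shift of the Boolean literal `ι = ε` in direction `n` -/
def bsh (n : ℤ) (ι : Ix p.L) (ε : Bool) : G3 :=
  (-(n * (2 * p.E ι)), 2 * p.E ι, if ε then 2 * p.E ι else 0)

/-- the step along which a bit alternates -/
def T : Bit p.L → G3
  | .tau => (0, p.E .two, 0)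
  | .rho => (0, 4 * p.E .two, 0)
  | .mk l => (4 ^ (l : ℕ) * p.E .two, 0, 0)

/-- the shift flipping `rho` -/
def tt : G3 := (0, 8 * p.E .two, 0)

/-- label of the even branch -/
def phi1 (β : Bit p.L) (b : Bool) : G3 :=
  if b then (0, 2 * p.E (.aux β), p.E (.aux β)) else 0

/-- label of the odd branch -/
def phi3 (β : Bit p.L) (b : Bool) : G3 :=
  if b then (0, p.E (.aux β), p.E (.aux β)) else (0, p.E (.aux β), 0)

/-- base four digit of the two-adic coordinate -/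
def dig (β : Bit p.L) (v : ZMod (mm p.pr .two)) : ZMod 4 := ((v.val / 4 ^ expo β : ℕ) : ZMod 4)

variable {p}

/-- literal: coordinate `ι` agrees at `g - t` and `g` -/
def Lt (val : G3 → p.V) (ι : Ix p.L) (t : G3) (g : G3) : Prop := val (g - t) ι = val g ι

/-- Boolean literal -/
def Bl (val : G3 → p.V) (n : ℤ) (ι : Ix p.L) (ε : Bool) (g : G3) : Prop :=
  Lt val ι (p.bsh n ι ε) g

/-- digit at the site `g - k • T` -/
def dg (val : G3 → p.V) (β : Bit p.L) (g : G3) (k : ZMod 4) : ZMod 4 :=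
  p.dig β (val (g - (k.val : ℤ) • p.T β) .two)

/-- all periods hold -/
def Periods (val : G3 → p.V) : Prop := ∀ ι v, p.Inv ι v → ∀ g, val (g - v) ι = val g ι

/-- the two-adic rules -/
structure Special (val : G3 → p.V) : Prop where
  s1 : ∀ β g, ∃! D : ZMod 4, dg val β g (kap1 D) = sig1 D
  s2 : ∀ β g, ∃! D : ZMod 4, dg val β g D = 2 * D
  s3 : ∀ β g (D D' : ZMod 4), dg val β g (kap1 D) = sig1 D → dg val β g (kap3 D') = sig3 D' →
    val (g - ((kap1 D).val : ℤ) • p.T β - p.phi1 β (par D)) (.aux β) =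
      val (g - ((kap3 D').val : ℤ) • p.T β - p.phi3 β (par D')) (.aux β)

/-- the gates -/
structure Gates (val : G3 → p.V) : Prop where
  q1 : ∀ g, Bl val 0 (.aux .rho) true g ∨ Lt val .qq (1, 0, 0) g
  q2 : ∀ g, Bl val 0 (.aux .rho) true g ∨ Lt val .qq (0, p.E .qq, 0) g
  q3 : ∀ g, Bl val 0 (.aux .rho) false g ∨ Bl val 0 (.aux .tau) true g ∨
    Lt val .qq (p.E .qq, 0, p.E .qq) g
  q4 : ∀ g, Bl val 0 (.aux .rho) false g ∨ Bl val 0 (.aux .tau) false g ∨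
    Lt val .qq (0, p.E .qq, p.E .qq) g
  q5 : ∀ (γ : Bool) (μ : ZMod 11) g, Bl val 0 (.aux .tau) (!γ) g ∨
    (∃ l, Bl val 0 (.aux (.mk l)) (!code μ.val l) g) ∨ Bl val 0 (.sq γ μ) false g ∨
    Lt val .qq p.tt g
  q6 : ∀ (γ : Bool) g, ∃ μ : ZMod 11, Bl val 0 (.sq γ μ) true g
  r1 : ∀ lam g, Bl val 0 (.aux .rho) true g ∨ Lt val (.idx lam) (1, 0, 0) g
  r2 : ∀ lam g, Bl val 0 (.aux .rho) true g ∨ Lt val (.idx lam) (0, p.E (.idx lam), 0) g
  r3 : ∀ lam g, Bl val 0 (.aux .rho) false g ∨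
    Lt val (.idx lam) (0, p.E (.idx lam), p.E (.idx lam)) g
  r4 : ∀ lam (μ : Fin (p.L + 1)) g, (∃ l, Bl val 0 (.aux (.mk l)) (!code (μ : ℕ) l) g) ∨
    Bl val 0 (.sr lam μ) false g ∨ Lt val (.idx lam) p.tt g
  r5 : ∀ lam g, ∃ μ : Fin (p.L + 1), (μ : ℕ) < p.pr (.idx lam) ∧ Bl val 0 (.sr lam μ) true g
  h1 : ∀ lam g, Bl val (dirn lam) (.aux .tau) (!side lam) g ∨
    Bl val (dirn lam) (.sr lam 0) false g ∨ Bl val (dirn lam) (.hyb lam) true g
  h2 : ∀ lam g, Bl val (dirn lam) (.aux .tau) (!side lam) g ∨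
    Bl val (dirn lam) (.sr lam 0) true g ∨ Bl val (dirn lam) (.hyb lam) false g
  h3 : ∀ lam g, Bl val (dirn lam) (.aux .tau) (!side lam) g ∨ Lt val (.hyb lam) (1, 0, 0) g
  h4 : ∀ (n : Fin 22) (s : ZMod 11) g, Bl val ((n : ℕ) : ℤ) (.yy n s) false g ∨
    Lt val (.hyb (some (n, s))) (-(((n : ℕ) : ℤ) * (2 * p.E .two)), 2 * p.E .two, 0) g
  y1 : ∀ (n : Fin 22) g, ∃ s : ZMod 11, Bl val ((n : ℕ) : ℤ) (.yy n s) true g
  y2 : ∀ (n : Fin 22) (s s' : ZMod 11), s ≠ s' → ∀ g,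
    Bl val ((n : ℕ) : ℤ) (.yy n s) false g ∨ Bl val ((n : ℕ) : ℤ) (.yy n s') false g
  y3 : ∀ (n : Fin 22) (c c' : ZMod 11), c + ((n : ℕ) : ZMod 11) * c' ≠ 0 → ∀ g,
    Bl val ((n : ℕ) : ℤ) (.sq false c) false g ∨ Bl val ((n : ℕ) : ℤ) (.sq true c') false g ∨
    Bl val ((n : ℕ) : ℤ) (.yy n (c + ((n : ℕ) : ZMod 11) * c')) true g
  sud : ∀ a : Fin 22 → ZMod 11, ¬ Good a → ∀ g,
    Lt val (.hyb none) (0, 0, p.E (.idx none)) g ∨
    ∃ n, Lt val (.hyb (some (n, a n))) (0, 0, p.E (.idx (some (n, a n)))) g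

/-- A property is expressible relative to the periods if it is a finite family of constraints. -/
def Expr (R : (G3 → p.V) → Prop) : Prop :=
  ∃ (J : Type) (_ : Finite J) (τ : J → p.V → G3), ∀ val : G3 → p.V,
    Equivar p.P p.emb val → Periods val → (R val ↔ ∀ j, Cons (τ j) val)

end Params

end Vale.Agent.P043
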