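import Mathlib
import Vale.Agent.P043.Core

/-!
Basic facts on the parameters and on equivariant colourings.
-/

namespace Vale.Agent.P043

theorem vz_add (a b : ℤ) : vz (a + b) = vz a + vz b := by simp [vz]
theorem vz_neg (a : ℤ) : vz (-a) = -vz a := by simp [vz]
theorem vz_zero : vz 0 = 0 := rfl

/-- invariance under a step gives invariance under all integer multiples -/
theorem step_zsmul {G W : Type} [AddCommGroup G] [AddCommGroup W] (f : G → W) (v : G) (w : W)
    (S : G → Prop) (hS : ∀ g, S g ↔ S (g + v)) (h : ∀ g, S g → f (g + v) = f g + w)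
    (g : G) (hg : S g) (c : ℤ) : S (g + c • v) ∧ f (g + c • v) = f g + c • w := by
  induction c using Int.induction_on with
  | zero => simpa using hg
  | succ n ih =>
    have e : g + ((n : ℤ) + 1) • v = g + (n : ℤ) • v + v := by rw [add_smul, one_smul, add_assoc]
    rw [e]
    refine ⟨(hS _).1 ih.1, ?_⟩
    rw [h _ ih.1, ih.2, add_smul, one_smul, add_assoc]
  | pred n ih =>
    have e : g + (-(n : ℤ)) • v = g + (-(n : ℤ) - 1) • v + v := by
      rw [sub_smul, one_smul]; abel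
    have h1 : S (g + (-(n : ℤ) - 1) • v) := (hS _).2 (e ▸ ih.1)
    refine ⟨h1, ?_⟩
    have h2 := h _ h1
    rw [← e, ih.2] at h2
    rw [sub_smul (-(n : ℤ)) 1 w, one_smul, ← add_sub_assoc, h2]; abel

namespace Params

variable (p : Params)

theorem NN_eq (ι : Ix p.L) : NN p.pr ι = mm p.pr ι * ww p.pr ι := by
  cases ι <;> simp [NN, mm, ww, sq]

theorem NN_two : ((NN p.pr .two : ℕ) : ℤ) = p.K := by simp [NN, K]
theorem mm_two : ((mm p.pr .two : ℕ) : ℤ) = p.K := by simp [mm, K]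
theorem NN_qq : ((NN p.pr .qq : ℕ) : ℤ) = 11 := by simp [NN]
theorem mm_qq : mm p.pr .qq = 11 := rfl
theorem NN_idx (lam : Lam) : ((NN p.pr (.idx lam) : ℕ) : ℤ) = p.r lam ^ 2 := by simp [NN, r]
theorem mm_idx (lam : Lam) : ((mm p.pr (.idx lam) : ℕ) : ℤ) = p.r lam := by simp [mm, r]

theorem one_lt_r (lam : Lam) : 1 < p.r lam := by
  have := (p.prime (.idx lam)).one_lt
  simp only [r]; exact_mod_cast this

theorem mm_dvd_NN (ι : Ix p.L) : ((mm p.pr ι : ℕ) : ℤ) ∣ (NN p.pr ι : ℕ) := by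
  rw [NN_eq]; push_cast; exact dvd_mul_right _ _

theorem NN_dvd_E {ι κ : Ix p.L} (h : κ ≠ ι) : ((NN p.pr ι : ℕ) : ℤ) ∣ p.E κ := p.E_other κ ι h

theorem mm_dvd_E {ι κ : Ix p.L} (h : κ ≠ ι) : ((mm p.pr ι : ℕ) : ℤ) ∣ p.E κ :=
  (p.mm_dvd_NN ι).trans (p.NN_dvd_E h)

theorem K_dvd_E {κ : Ix p.L} (h : κ ≠ .two) : p.K ∣ p.E κ := p.NN_two ▸ p.NN_dvd_E h

theorem pow_dvd_K {e : ℕ} (he : e ≤ p.L + 3) : (4 : ℤ) ^ e ∣ p.K := pow_dvd_pow _ he

theorem four_dvd_K : (4 : ℤ) ∣ p.K := by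
  simpa using p.pow_dvd_K (e := 1) (by omega)

theorem mk_dvd_K (l : Fin (p.L + 1)) : (4 : ℤ) ^ ((l : ℕ) + 1) ∣ p.K :=
  p.pow_dvd_K (by omega)

theorem four_dvd_E {κ : Ix p.L} (h : κ ≠ .two) : (4 : ℤ) ∣ p.E κ :=
  p.four_dvd_K.trans (p.K_dvd_E h)

theorem mk_dvd_E {κ : Ix p.L} (h : κ ≠ .two) (l : Fin (p.L + 1)) :
    (4 : ℤ) ^ ((l : ℕ) + 1) ∣ p.E κ :=
  (p.mk_dvd_K l).trans (p.K_dvd_E h)

theorem q_dvd_E {κ : Ix p.L} (h : κ ≠ .qq) : (11 : ℤ) ∣ p.E κ := p.NN_qq ▸ p.NN_dvd_E h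

theorem r2_dvd_E {κ : Ix p.L} {lam : Lam} (h : κ ≠ .idx lam) : p.r lam ^ 2 ∣ p.E κ :=
  p.NN_idx lam ▸ p.NN_dvd_E h

theorem r_dvd_E {κ : Ix p.L} {lam : Lam} (h : κ ≠ .idx lam) : p.r lam ∣ p.E κ :=
  (dvd_pow_self _ (by norm_num)).trans (p.r2_dvd_E h)

theorem K_dvd_E_sub : p.K ∣ p.E .two - 1 := p.NN_two ▸ p.E_self .two

theorem q_dvd_E_sub : (11 : ℤ) ∣ p.E .qq - 1 := p.NN_qq ▸ p.E_self .qq

theorem r2_dvd_E_sub (lam : Lam) : p.r lam ^ 2 ∣ p.E (.idx lam) - 1 :=
  p.NN_idx lam ▸ p.E_self (.idx lam)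

theorem expo_le (β : Bit p.L) : expo β + 1 ≤ p.L + 3 := by
  cases β <;> simp only [expo] <;> omega

/-- the unit shift of a coordinate of weight one -/
theorem ee_eq {ι : Ix p.L} (h : ∀ lam, ι ≠ .idx lam) : p.ee ι = p.E ι := by
  cases ι <;> simp_all [ee, ww]

theorem ee_idx (lam : Lam) : p.ee (.idx lam) = p.r lam * p.E (.idx lam) := by simp [ee, ww, r]

theorem emb_hom (h h' : p.V) : p.P ∣ p.emb (h + h') - p.emb h - p.emb h' := by
  simp only [emb, ← Finset.sum_sub_distrib]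
  refine Finset.dvd_sum fun ι _ => ?_
  have h1 : ((mm p.pr ι : ℕ) : ℤ) ∣ (((h + h') ι).val : ℤ) - (h ι).val - (h' ι).val := by
    rw [← ZMod.intCast_zmod_eq_zero_iff_dvd]; push_cast; simp
  obtain ⟨c, hc⟩ := h1
  have e : (((h + h') ι).val : ℤ) * p.ee ι - ((h ι).val : ℤ) * p.ee ι - ((h' ι).val : ℤ) * p.ee ι
      = c * ((NN p.pr ι : ℤ) * p.E ι) := by
    rw [← sub_mul, ← sub_mul, hc, NN_eq, ee]; push_cast; ring
  rw [e]; exact (p.P_dvd ι).mul_left _

theorem emb_single (ι : Ix p.L) : p.emb (Pi.single ι 1) = p.ee ι := by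
  classical
  rw [emb, Finset.sum_eq_single ι]
  · have : Fact (1 < mm p.pr ι) := ⟨p.one_lt_mm ι⟩
    simp [ZMod.val_one]
  · intro κ _ hκ; simp [Pi.single_eq_of_ne hκ]
  · simp

variable {p}

theorem step_one {val : G3 → p.V} (he : Equivar p.P p.emb val) (ι : Ix p.L) (g : G3) :
    val (g + vz (p.ee ι)) ι = val g ι + 1 := by
  rw [← p.emb_single, he.1]; simp

theorem step_int {val : G3 → p.V} (he : Equivar p.P p.emb val) (ι : Ix p.L) (g : G3) (c : ℤ) :
    val (g + vz (c * p.ee ι)) ι = val g ι + c := by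
  have := (step_zsmul (fun g => val g ι) (vz (p.ee ι)) 1 (fun _ => True) (by simp)
    (fun g _ => step_one he ι g) g trivial c).2
  have e : c • vz (p.ee ι) = vz (c * p.ee ι) := by simp [vz]
  rw [e] at this; simpa using this

/-- vertical shifts by multiples of `E ι` translate a coordinate of weight one -/
theorem stepE {val : G3 → p.V} (he : Equivar p.P p.emb val) {ι : Ix p.L}
    (h : ∀ lam, ι ≠ .idx lam) (g : G3) (c : ℤ) :
    val (g + (0, 0, c * p.E ι)) ι = val g ι + c := by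
  have := step_int he ι g c
  rwa [p.ee_eq h] at this

theorem stepR {val : G3 → p.V} (he : Equivar p.P p.emb val) (lam : Lam) (g : G3) (c : ℤ) :
    val (g + (0, 0, c * (p.r lam * p.E (.idx lam)))) (.idx lam) = val g (.idx lam) + c := by
  have := step_int he (.idx lam) g c
  rwa [p.ee_idx] at this

theorem equivar_of {val : G3 → p.V}
    (h1 : ∀ ι g, val (g + vz (p.ee ι)) ι = val g ι + 1)
    (h2 : ∀ ι κ, κ ≠ ι → ∀ g, val (g + vz (p.ee κ)) ι = val g ι)
    (h3 : ∀ g, val (g + vz p.P) = val g) : Equivar p.P p.emb val := by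
  classical
  refine ⟨fun g h => ?_, h3⟩
  funext ι
  have key : ∀ (s : Finset (Ix p.L)) (g : G3),
      val (g + vz (∑ κ ∈ s, ((h κ).val : ℤ) * p.ee κ)) ι
        = val g ι + if ι ∈ s then h ι else 0 := by
    intro s
    induction s using Finset.induction_on with
    | empty => intro g; simp [vz_zero]
    | insert κ s hκ ih =>
      intro g
      rw [Finset.sum_insert hκ, add_comm (((h κ).val : ℤ) * p.ee κ), vz_add, ← add_assoc]
      have e : vz (((h κ).val : ℤ) * p.ee κ) = ((h κ).val : ℤ) • vz (p.ee κ) := by simp [vz]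
      rw [e]
      by_cases hk : κ = ι
      · subst hk
        have := (step_zsmul (fun g => val g κ) (vz (p.ee κ)) 1 (fun _ => True) (by simp)
          (fun g _ => h1 κ g) (g + vz (∑ κ ∈ s, ((h κ).val : ℤ) * p.ee κ)) trivial
          ((h κ).val : ℤ)).2
        rw [this, ih]; simp [hκ]
      · have := (step_zsmul (fun g => val g ι) (vz (p.ee κ)) 0 (fun _ => True) (by simp)
          (fun g _ => by simpa using h2 ι κ hk g) (g + vz (∑ κ ∈ s, ((h κ).val : ℤ) * p.ee κ))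
          trivial ((h κ).val : ℤ)).2
        rw [this, ih]
        have : ι ≠ κ := fun e => hk e.symm
        simp [this]
  have := key Finset.univ g
  simpa [emb] using this

theorem two_ne_zero' {ι : Ix p.L} (h : ι ≠ .two) : (2 : ZMod (mm p.pr ι)) ≠ 0 := by
  intro h2
  have h3 : mm p.pr ι ∣ 2 := (ZMod.natCast_eq_zero_iff 2 _).1 (by exact_mod_cast h2)
  have h4 : mm p.pr ι = 2 := by
    have := p.one_lt_mm ι
    have := Nat.le_of_dvd (by norm_num) h3
    omega
  have h5 := p.odd ι h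
  cases ι <;> simp_all [mm]

/-- the true literal as an equation -/
theorem bl_true_iff {val : G3 → p.V} (he : Equivar p.P p.emb val) {ι : Ix p.L}
    (h : ∀ lam, ι ≠ .idx lam) (n : ℤ) (g : G3) :
    Bl val n ι true g ↔ val (g - p.bsh n ι false) ι = val g ι + 2 := by
  have e : g - p.bsh n ι false = g - p.bsh n ι true + (0, 0, 2 * p.E ι) := by
    ext <;> simp [bsh]
  rw [e, stepE he h]
  simp only [Bl, Lt]
  constructor
  · intro h; rw [h]; simp
  · intro h; simpa using h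

/-- the two polarities of a Boolean literal exclude each other -/
theorem bl_excl {val : G3 → p.V} (he : Equivar p.P p.emb val) {ι : Ix p.L}
    (h : ∀ lam, ι ≠ .idx lam) (h2 : ι ≠ .two) (n : ℤ) (g : G3)
    (hf : Bl val n ι false g) (ht : Bl val n ι true g) : False := by
  rw [bl_true_iff he h] at ht
  simp only [Bl, Lt] at hf
  rw [hf] at ht
  exact two_ne_zero' h2 (by simpa using ht)

theorem Periods.add {val : G3 → p.V} (hp : Periods val) {ι : Ix p.L} {v : G3} (hv : p.Inv ι v)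
    (g : G3) : val (g + v) ι = val g ι := by
  have := hp ι v hv (g + v)
  simpa using this.symm

theorem Periods.lt_add {val : G3 → p.V} (hp : Periods val) {ι : Ix p.L} {v : G3}
    (hv : p.Inv ι v) (t g : G3) : Lt val ι t (g + v) ↔ Lt val ι t g := by
  have e : g + v - t = g - t + v := by abel
  simp only [Lt]
  rw [e, hp.add hv, hp.add hv]

theorem Periods.lt_sub {val : G3 → p.V} (hp : Periods val) {ι : Ix p.L} {v : G3}
    (hv : p.Inv ι v) (t g : G3) : Lt val ι t (g - v) ↔ Lt val ι t g := by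
  have := hp.lt_add hv t (g - v)
  simpa using this.symm

theorem Periods.bl_add {val : G3 → p.V} (hp : Periods val) {ι : Ix p.L} {v : G3}
    (hv : p.Inv ι v) (n : ℤ) (ε : Bool) (g : G3) : Bl val n ι ε (g + v) ↔ Bl val n ι ε g :=
  hp.lt_add hv _ _

theorem Periods.bl_sub {val : G3 → p.V} (hp : Periods val) {ι : Ix p.L} {v : G3}
    (hv : p.Inv ι v) (n : ℤ) (ε : Bool) (g : G3) : Bl val n ι ε (g - v) ↔ Bl val n ι ε g :=
  hp.lt_sub hv _ _

/-- the direction of a literal is irrelevant when the horizontal part is a period -/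
theorem Periods.bl_dir {val : G3 → p.V} (hp : Periods val) {ι : Ix p.L} {n : ℤ}
    (hv : p.Inv ι (-(n * (2 * p.E ι)), 0, 0)) (ε : Bool) (g : G3) :
    Bl val n ι ε g ↔ Bl val 0 ι ε g := by
  have e : g - p.bsh n ι ε = g - p.bsh 0 ι ε - (-(n * (2 * p.E ι)), 0, 0) := by
    ext <;> simp [bsh]
  simp only [Bl, Lt]
  rw [e, hp ι _ hv]

end Params

end Vale.Agent.P043
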