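import Mathlib

namespace Vale.Agent.P043

namespace ColAux

/-- The explicit colouring: bottom region `[0, N)`, middle region `[N, T)`, top region. -/
def col (M : ℕ) (N T : ℤ) (n : ℤ) : ZMod M :=
  if n < N then ((n / (M : ℤ) : ℤ) : ZMod M)
  else if n < T then (n : ZMod M)
  else if (n - T) % N = 0 then (((n - T) / N / (M : ℤ) : ℤ) : ZMod M)
  else (((n - T) / N : ℤ) : ZMod M)

lemma exists_res (M : ℕ) (hM : 0 < M) (i : ZMod M) :
    ∃ r : ℤ, 0 ≤ r ∧ r < M ∧ (r : ZMod M) = i := by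
  have : NeZero M := ⟨hM.ne'⟩
  exact ⟨i.val, by positivity, by exact_mod_cast ZMod.val_lt i, by simp⟩

lemma div_block {m a b : ℤ} (hb : 0 ≤ b) (hbm : b < m) : (a * m + b) / m = a := by
  rw [add_comm, Int.add_mul_ediv_right _ _ (by omega), Int.ediv_eq_zero_of_lt hb hbm, zero_add]

lemma mod_block {m a b : ℤ} (hb : 0 ≤ b) (hbm : b < m) : (a * m + b) % m = b := by
  rw [add_comm, Int.add_mul_emod_self_right, Int.emod_eq_of_lt hb hbm]

lemma pos_case (M : ℕ) (hM : 0 < M) {N T K : ℤ} (hN : N = (M : ℤ) * M) (hT : T + N * N = K)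
    (hK : K = 2 * (N * N + N + 3 * M + 2)) (i j : ZMod M) (h : ℤ) (h0 : 0 < h)
    (hh : 2 * h ≤ K + 2 * M + 2) :
    ∃ n : ℤ, 0 ≤ n ∧ n < K ∧ 0 ≤ n + h ∧ n + h < K ∧ col M N T n = i ∧ col M N T (n + h) = j := by
  have hM' : (0 : ℤ) < M := by exact_mod_cast hM
  have hNN : 0 ≤ N * N := mul_self_nonneg N
  have hN0 : 0 < N := by rw [hN]; positivity
  obtain ⟨a, ha0, ha, rfl⟩ := exists_res M hM i
  have haM : a * M + M ≤ N := by rw [hN]; nlinarith
  have haM0 : 0 ≤ a * M := by positivity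
  rcases lt_or_ge h N with hlt | hge
  · obtain ⟨b, hb0, hb, rfl⟩ := exists_res M hM j
    have h1 : 0 ≤ (a * M + b) * N := by positivity
    have h2 : (a * M + b) * N + N ≤ N * N := by nlinarith
    refine ⟨T + (a * M + b) * N, by omega, by omega, by omega, by omega, ?_, ?_⟩
    · have e : T + (a * M + b) * N - T = (a * M + b) * N + 0 := by ring
      rw [col, if_neg (by omega), if_neg (by omega), e, mod_block le_rfl hN0, if_pos rfl,
        div_block le_rfl hN0, div_block hb0 hb]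
    · have e : T + (a * M + b) * N + h - T = (a * M + b) * N + h := by ring
      rw [col, if_neg (by omega), if_neg (by omega), e, mod_block h0.le hlt, if_neg h0.ne',
        div_block h0.le hlt]
      simp
  · obtain ⟨r, hr0, hr, hrj⟩ := exists_res M hM (j - h)
    refine ⟨a * M + r, by omega, by omega, by omega, by omega, ?_, ?_⟩
    · rw [col, if_pos (by omega), div_block hr0 hr]
    · rw [col, if_neg (by omega), if_pos (by omega)]
      simp [hrj]

end ColAux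

open ColAux in
/-- One-dimensional colouring lemma. -/
theorem coloring1 (M : ℕ) (hM : 0 < M) : ∃ (K : ℕ) (c : ℤ → ZMod M), 4 * M + 4 ≤ K ∧
    (∀ (i j : ZMod M) (h : ℤ), h ≠ 0 → 2 * |h| ≤ K + 2 * M + 2 →
      ∃ n : ℤ, 0 ≤ n ∧ n < K ∧ 0 ≤ n + h ∧ n + h < K ∧ c n = i ∧ c (n + h) = j) ∧
    (∀ i : ZMod M, ∃ n : ℤ, K ≤ 2 * n ∧ 2 * n < K + 2 * M ∧ c n = i) := by
  obtain ⟨N, hN⟩ : ∃ N : ℤ, N = (M : ℤ) * M := ⟨_, rfl⟩
  obtain ⟨K, hK⟩ : ∃ K : ℕ, K = 2 * (M * M * (M * M) + M * M + 3 * M + 2) := ⟨_, rfl⟩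
  have hK' : (K : ℤ) = 2 * (N * N + N + 3 * M + 2) := by rw [hK, hN]; push_cast; ring
  have hT : (K - N * N) + N * N = (K : ℤ) := by ring
  refine ⟨K, col M N (K - N * N), by omega, fun i j h h0 hh => ?_, fun i => ?_⟩
  · rcases lt_or_gt_of_ne h0 with hneg | hpos
    · rw [abs_of_neg hneg] at hh
      obtain ⟨n, h1, h2, h3, h4, h5, h6⟩ := pos_case M hM hN hT hK' j i (-h) (by omega) hh
      refine ⟨n + -h, h3, h4, by omega, by omega, h6, ?_⟩
      rwa [neg_add_cancel_right]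
    · rw [abs_of_pos hpos] at hh
      exact pos_case M hM hN hT hK' i j h hpos hh
  · obtain ⟨r, hr0, hr, hri⟩ := exists_res M hM (i - ((N * N + N + 3 * M + 2 : ℤ) : ZMod M))
    have hNN : 0 ≤ N * N := mul_self_nonneg N
    have hN0 : 0 ≤ N := by rw [hN]; positivity
    refine ⟨(N * N + N + 3 * M + 2) + r, by omega, by omega, ?_⟩
    rw [col, if_neg (by omega), if_pos (by omega), Int.cast_add, hri]
    ring

/-- `d`-dimensional colouring lemma. -/
theorem coloringD (d M : ℕ) (hd : 0 < d) (hM : 0 < M) :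
    ∃ (K : ℕ) (c : (Fin d → ℤ) → ZMod M), 4 * M + 4 ≤ K ∧
    (∀ (i j : ZMod M) (h : Fin d → ℤ), h ≠ 0 → (∀ l, 2 * |h l| ≤ K + 2 * M + 2) →
      ∃ x : Fin d → ℤ, (∀ l, 0 ≤ x l ∧ x l < K ∧ 0 ≤ x l + h l ∧ x l + h l < K) ∧
        c x = i ∧ c (x + h) = j) ∧
    (∀ i : ZMod M, ∃ x : Fin d → ℤ, (∀ l, (K : ℤ) ≤ 2 * x l ∧ 2 * x l < K + 2 * M) ∧ c x = i) := by
  obtain ⟨K, c, hK, h1, h2⟩ := coloring1 M hM
  have hK' : 4 * (M : ℤ) + 4 ≤ K := by exact_mod_cast hK
  refine ⟨K, fun x => ∑ l, c (x l), hK, fun i j h h0 hh => ?_, fun i => ?_⟩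
  · obtain ⟨l₀, hl₀⟩ := Function.ne_iff.1 h0
    obtain ⟨n, a1, a2, a3, a4, a5, a6⟩ := h1
      (i - ∑ l ∈ Finset.univ.erase l₀, c (max 0 (-h l)))
      (j - ∑ l ∈ Finset.univ.erase l₀, c (max 0 (-h l) + h l)) (h l₀) hl₀ (hh l₀)
    refine ⟨fun l => if l = l₀ then n else max 0 (-h l), fun l => ?_, ?_, ?_⟩
    · by_cases hl : l = l₀
      · subst hl
        simp only [if_true]
        exact ⟨a1, a2, a3, a4⟩
      · simp only [if_neg hl]
        have := hh l
        rcases abs_cases (h l) with e | e <;> omega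
    · simp only
      rw [← Finset.add_sum_erase _ _ (Finset.mem_univ l₀), if_pos rfl, a5, sub_add_eq_add_sub,
        sub_eq_iff_eq_add, add_right_inj]
      exact Finset.sum_congr rfl fun l hl => by rw [if_neg (Finset.mem_erase.1 hl).1]
    · simp only [Pi.add_apply]
      rw [← Finset.add_sum_erase _ _ (Finset.mem_univ l₀), if_pos rfl, a6, sub_add_eq_add_sub,
        sub_eq_iff_eq_add, add_right_inj]
      exact Finset.sum_congr rfl fun l hl => by rw [if_neg (Finset.mem_erase.1 hl).1]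
  · obtain ⟨n₀, b1, b2, -⟩ := h2 0
    let l₀ : Fin d := ⟨0, hd⟩
    obtain ⟨n, a1, a2, a3⟩ := h2 (i - ∑ _l ∈ Finset.univ.erase l₀, c n₀)
    refine ⟨fun l => if l = l₀ then n else n₀, fun l => ?_, ?_⟩
    · by_cases hl : l = l₀
      · simp only [if_pos hl]
        exact ⟨a1, a2⟩
      · simp only [if_neg hl]
        exact ⟨b1, b2⟩
    · simp only
      rw [← Finset.add_sum_erase _ _ (Finset.mem_univ l₀), if_pos rfl, a3, sub_add_eq_add_sub,
        sub_eq_iff_eq_add, add_right_inj]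
      exact Finset.sum_congr rfl fun l hl => by rw [if_neg (Finset.mem_erase.1 hl).1]

end Vale.Agent.P043
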