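import Mathlib
import Vale.Agent.P043.Api

namespace Vale.Agent.P043

namespace CrtAux

/-- idempotents for a finite family of pairwise coprime moduli -/
theorem exists_idem {I : Type} [Fintype I] [DecidableEq I] (N : I → ℕ) (hpos : ∀ i, 0 < N i)
    (hco : ∀ i j, i ≠ j → Nat.Coprime (N i) (N j)) :
    ∃ (E : I → ℤ) (P : ℤ), (∀ i, (N i : ℤ) ∣ E i - 1) ∧ (∀ i j, i ≠ j → (N j : ℤ) ∣ E i) ∧
      (∀ i, P ∣ (N i : ℤ) * E i) ∧ ∀ i, (N i : ℤ) ∣ P := by
  let Q : I → ℕ := fun i => ∏ j ∈ Finset.univ.erase i, N j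
  have hQ : ∀ i, Nat.Coprime (Q i) (N i) := fun i =>
    Nat.Coprime.prod_left fun j hj => hco j i (Finset.ne_of_mem_erase hj)
  have hQE : ∀ i, (Q i : ℤ) ∣ ((Q i ^ Nat.totient (N i) : ℕ) : ℤ) := fun i => by
    exact_mod_cast dvd_pow_self (Q i) (Nat.totient_pos.2 (hpos i)).ne'
  refine ⟨fun i => ((Q i ^ Nat.totient (N i) : ℕ) : ℤ), ((∏ j, N j : ℕ) : ℤ), ?_, ?_, ?_, ?_⟩
  · intro i
    have h := (Nat.ModEq.pow_totient (hQ i)).symm
    have := (Nat.modEq_iff_dvd.1 h)
    simpa using this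
  · intro i j hij
    refine Dvd.dvd.trans ?_ (hQE i)
    exact_mod_cast Finset.dvd_prod_of_mem N (Finset.mem_erase.2 ⟨hij.symm, Finset.mem_univ _⟩)
  · intro i
    have e : (∏ j, N j) = N i * Q i := (Finset.mul_prod_erase _ _ (Finset.mem_univ i)).symm
    rw [e]
    push_cast
    refine mul_dvd_mul_left _ ?_
    have := hQE i
    push_cast at this
    exact this
  · intro i
    exact_mod_cast Finset.dvd_prod_of_mem N (Finset.mem_univ i)

/-- the index of the prime attached to a coordinate -/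
noncomputable def ix {L : ℕ} : Ix L → ℕ
  | .two => 0
  | .qq => 4
  | .idx lam => 5 + (Fintype.equivFin Lam lam : ℕ)
  | ι => 5 + Fintype.card Lam + (Fintype.equivFin (Ix L) ι : ℕ)

theorem ix_inj {L : ℕ} : Function.Injective (ix (L := L)) := by
  intro a b h
  have h1 : ∀ x y : Ix L, (Fintype.equivFin (Ix L) x : ℕ) = Fintype.equivFin (Ix L) y → x = y :=
    fun x y e => (Fintype.equivFin (Ix L)).injective (Fin.ext e)
  have h2 : ∀ x y : Lam, (Fintype.equivFin Lam x : ℕ) = Fintype.equivFin Lam y → x = y :=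
    fun x y e => (Fintype.equivFin Lam).injective (Fin.ext e)
  cases a <;> cases b <;> simp only [ix] at h <;>
    first
      | rfl
      | omega
      | exact h1 _ _ (by omega)
      | exact congrArg _ (h2 _ _ (by omega))

/-- the primes -/
noncomputable def pr {L : ℕ} (ι : Ix L) : ℕ := Nat.nth Nat.Prime (ix ι)

theorem pr_prime {L : ℕ} (ι : Ix L) : (pr ι).Prime := Nat.prime_nth_prime _

theorem pr_inj {L : ℕ} : Function.Injective (pr (L := L)) := fun _ _ h =>
  ix_inj ((Nat.nth_strictMono Nat.infinite_setOfPred_prime).injective h)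

theorem pr_two {L : ℕ} : pr (.two : Ix L) = 2 := Nat.nth_prime_zero_eq_two

theorem pr_qq {L : ℕ} : pr (.qq : Ix L) = 11 := Nat.nth_prime_four_eq_eleven

theorem NN_pow {L : ℕ} (ι : Ix L) : ∃ k, NN (pr (L := L)) ι = pr ι ^ k := by
  cases ι with
  | two => exact ⟨2 * (L + 3), by rw [pr_two, pow_mul]; rfl⟩
  | qq => exact ⟨1, by rw [pr_qq]; rfl⟩
  | idx lam => exact ⟨2, rfl⟩
  | aux β => exact ⟨1, by simp [NN]⟩
  | sq γ μ => exact ⟨1, by simp [NN]⟩
  | sr lam μ => exact ⟨1, by simp [NN]⟩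
  | hyb lam => exact ⟨1, by simp [NN]⟩
  | yy n s => exact ⟨1, by simp [NN]⟩

end CrtAux

open CrtAux in
theorem params_nonempty : Nonempty Params := by
  let L := Nat.nth Nat.Prime (5 + Fintype.card Lam)
  have hmono := (Nat.nth_strictMono Nat.infinite_setOfPred_prime).monotone
  obtain ⟨E, P, h1, h2, h3, h4⟩ := exists_idem (NN (pr (L := L)))
    (fun ι => by
      obtain ⟨k, hk⟩ := NN_pow ι
      rw [hk]; exact pow_pos (pr_prime ι).pos _)
    (fun ι κ h => by
      obtain ⟨k, hk⟩ := NN_pow ι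
      obtain ⟨k', hk'⟩ := NN_pow κ
      rw [hk, hk']
      exact Nat.Coprime.pow _ _
        ((Nat.coprime_primes (pr_prime ι) (pr_prime κ)).2 fun e => h (pr_inj e)))
  refine ⟨⟨L, pr, pr_prime, ?_, ?_, ?_, E, P, h1, h2, h3, h4⟩⟩
  · intro ι h e
    exact h (pr_inj (e.trans pr_two.symm))
  · intro lam
    have h : ix (.idx lam : Ix L) ≤ 5 + Fintype.card Lam := by
      have := (Fintype.equivFin Lam lam).is_lt
      simp only [ix]; omega
    exact (hmono h).trans (Nat.le_succ _)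
  · have h : 4 ≤ 5 + Fintype.card Lam := by omega
    have := hmono h
    rw [Nat.nth_prime_four_eq_eleven] at this
    exact this.trans (Nat.le_succ _)

end Vale.Agent.P043
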