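import Mathlib
import Vale.Agent.P043.Basic

namespace Vale.Agent.P043

theorem vz_add' (a b : ℤ) : vz (a + b) = vz a + vz b := by simp [vz]

theorem vz_sub' (a b : ℤ) : vz (a - b) = vz a - vz b := by simp [vz]

theorem Equivar.sub_emb {V : Type} [AddCommGroup V] {P : ℤ} {emb : V → ℤ} {val : G3 → V}
    (hval : Equivar P emb val) (g : G3) (h : V) : val (g - vz (emb h)) = val g - h := by
  have := hval.1 (g - vz (emb h)) h
  rw [sub_add_cancel] at this
  rw [this, add_sub_cancel_right]

theorem Equivar.sub_per {V : Type} [AddCommGroup V] {P : ℤ} {emb : V → ℤ} {val : G3 → V}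
    (hval : Equivar P emb val) (g : G3) : val (g - vz P) = val g := by
  have := hval.2 (g - vz P)
  rw [sub_add_cancel] at this
  exact this.symm

theorem Equivar.zero_iff {V : Type} [AddCommGroup V] {P : ℤ} {emb : V → ℤ} {val : G3 → V}
    (hval : Equivar P emb val) (g t : G3) (h : V) :
    val (g - (vz (emb h) + t)) = 0 ↔ val (g - t) = h := by
  rw [show g - (vz (emb h) + t) = g - t - vz (emb h) by abel, hval.sub_emb, sub_eq_zero]

theorem tilesF_image {V : Type} [Fintype V] {f : V → G3} (hf : Function.Injective f)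
    (A : Set G3) : TilesF A (Finset.univ.image f) ↔ ∀ g, ∃! h, g - f h ∈ A := by
  refine forall_congr' fun g => ⟨?_, ?_⟩
  · rintro ⟨_, ⟨h1, h2⟩, h3⟩
    obtain ⟨h, -, rfl⟩ := Finset.mem_image.1 h1
    exact ⟨h, h2, fun h' hh => hf (h3 _ ⟨Finset.mem_image_of_mem _ (Finset.mem_univ _), hh⟩)⟩
  · rintro ⟨h, h1, h2⟩
    refine ⟨f h, ⟨Finset.mem_image_of_mem _ (Finset.mem_univ _), h1⟩, ?_⟩
    rintro _ ⟨h3, h4⟩
    obtain ⟨h', -, rfl⟩ := Finset.mem_image.1 h3
    rw [h2 h' h4]

/-- Constraint systems on equivariant colourings are systems of tiles. -/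
theorem aperSystem_of_cons {V : Type} [AddCommGroup V] [Fintype V] (P : ℤ) (emb : V → ℤ)
    (hemb : ∀ h h', P ∣ emb (h + h') - emb h - emb h')
    {J : Type} [Finite J] (τ : J → V → G3)
    (hex : ∃ val : G3 → V, Equivar P emb val ∧ ∀ j, Cons (τ j) val)
    (hap : ∀ val : G3 → V, Equivar P emb val → (∀ j, Cons (τ j) val) →
      ∀ D : ℕ, 0 < D → ¬ ∀ g u : G3, val (g + D • u) = val g) :
    AperSystem G3 := by
  classical
  obtain ⟨val0, he0, hc0⟩ := hex
  let τ' : J ⊕ Bool → V → G3 := fun k h =>
    match k with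
    | Sum.inl j => τ j h
    | Sum.inr b => if b = true ∧ h = 0 then vz P else 0
  have hc' : ∀ k, Cons (τ' k) val0 := by
    rintro (j | b)
    · exact hc0 j
    · intro g
      have : ∀ h, val0 (g - τ' (Sum.inr b) h) = val0 g := fun h => by
        simp only [τ']
        split_ifs
        · exact he0.sub_per g
        · rw [sub_zero]
      simp only [this]
      exact existsUnique_eq'
  let f : J ⊕ Bool → V → G3 := fun k h => vz (emb h) + τ' k h
  have hf : ∀ k, Function.Injective (f k) := fun k h h' hh => by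
    have h0 : val0 (0 - vz (emb (val0 0))) = 0 := by rw [he0.sub_emb, sub_self]
    set g0 := 0 - vz (emb (val0 0))
    have h1 : val0 (f k h + g0 - f k h) = 0 := by rwa [add_sub_cancel_left]
    have h2 : val0 (f k h + g0 - f k h') = 0 := by rwa [← hh]
    exact (hc' k (f k h + g0)).unique ((he0.zero_iff _ _ _).1 h1) ((he0.zero_iff _ _ _).1 h2)
  let e := (Finite.equivFin (J ⊕ Bool)).symm
  refine ⟨_, fun i => Finset.univ.image (f (e i)), ⟨{g | val0 g = 0}, fun i => ?_⟩,
    fun A hA D hD hper => ?_⟩
  · refine (tilesF_image (hf _) _).2 fun g => ?_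
    simp only [Set.mem_ofPred_eq, f, he0.zero_iff]
    exact hc' _ g
  · have hA' : ∀ k g, ∃! h, g - f k h ∈ A := fun k => by
      have := hA (e.symm k)
      simp only [Equiv.apply_symm_apply] at this
      exact (tilesF_image (hf k) A).1 this
    have h0 : ∀ g, ∃! h, g - vz (emb h) ∈ A := fun g => by
      simpa [f, τ'] using hA' (Sum.inr false) g
    choose val hv1 hv2 using h0
    have hv : ∀ g h, g - vz (emb h) ∈ A ↔ val g = h := fun g h =>
      ⟨fun hh => (hv2 g h hh).symm, fun hh => hh ▸ hv1 g⟩
    have hP : ∀ a, a ∈ A ↔ a - vz P ∈ A := fun a => by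
      obtain ⟨h1, k1, k2⟩ := hA' (Sum.inr true) (a + vz (emb 0))
      have e0 : a + vz (emb 0) - f (Sum.inr true) 0 = a - vz P := by
        simp only [f, τ', and_self, if_true]; abel
      have e1 : ∀ h, h ≠ 0 → f (Sum.inr true) h = vz (emb h) := fun h hh => by
        simp [f, τ', hh]
      have e2 : a ∈ A ↔ val (a + vz (emb 0)) = 0 := by rw [← hv, add_sub_cancel_right]
      constructor
      · intro ha
        by_cases hh : h1 = 0
        · rw [← e0, ← hh]; exact hh ▸ k1
        · rw [e1 _ hh, hv, e2.1 ha] at k1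
          exact absurd k1.symm hh
      · intro ha
        by_contra hn
        have hne : val (a + vz (emb 0)) ≠ 0 := fun h => hn (e2.2 h)
        have k3 := k2 _ (show _ - f (Sum.inr true) (val (a + vz (emb 0))) ∈ A by
          rw [e1 _ hne]; exact hv1 _)
        have k4 := k2 0 (show _ - f (Sum.inr true) 0 ∈ A by rw [e0]; exact ha)
        exact hne (k3.trans k4.symm)
    have hPn : ∀ (n : ℤ) a, a ∈ A ↔ a - vz (P * n) ∈ A := fun n => by
      induction n using Int.induction_on with
      | zero => intro a; simp [vz, Prod.mk_zero_zero]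
      | succ n ih => intro a; rw [ih a, hP, mul_add, mul_one, vz_add', sub_sub]
      | pred n ih =>
        intro a
        rw [ih a, hP (a - vz (P * (-n - 1))), mul_sub, mul_one, vz_sub']
        exact Iff.of_eq (congrArg (· ∈ A) (by abel))
    have hE : Equivar P emb val := ⟨fun g h => by
      obtain ⟨n, hn⟩ := hemb (val g) h
      have := (hPn n _).1 (hv1 g)
      rw [← hn, vz_sub', vz_sub'] at this
      exact (hv _ _).1 (by
        rwa [show g + vz (emb h) - vz (emb (val g + h)) = g - vz (emb (val g)) -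
          (vz (emb (val g + h)) - vz (emb (val g)) - vz (emb h)) by abel]),
      fun g => (hv _ _).1 ((hP _).2 (by
        rw [show g + vz P - vz (emb (val g)) - vz P = g - vz (emb (val g)) by abel]
        exact hv1 g))⟩
    refine hap val hE (fun j g => ?_) D hD fun g u => (hv _ _).1 ?_
    · have := hA' (Sum.inl j) g
      simp only [← hv]
      simpa only [f, τ', add_comm (vz _), ← sub_sub] using this
    · rw [add_sub_right_comm]
      exact hper _ (hv1 g) u

/-- For equivariant `val` the constraint is an injectivity statement. -/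
theorem cons_iff_inj {V : Type} [AddCommGroup V] [Finite V] {P : ℤ} {emb : V → ℤ}
    {val : G3 → V} (hval : Equivar P emb val) (τ : V → G3) :
    Cons τ val ↔ ∀ g, Function.Injective (fun h : V => h - val (g - τ h)) := by
  constructor
  · intro hc g h1 h2 hh
    simp only at hh
    refine (hc (g + vz (emb (h1 - val (g - τ h1))))).unique ?_ ?_
    · rw [add_sub_right_comm, hval.1]; abel
    · rw [add_sub_right_comm, hval.1, hh]; abel
  · intro hi g
    have := (Finite.injective_iff_bijective.1 (hi g)).existsUnique 0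
    simpa only [sub_eq_zero, eq_comm] using this

theorem exists_cycle (X : Type) [Finite X] [Nonempty X] : ∃ σ : X → X,
    ∀ p : X → Prop, ∀ x0, p x0 → (∀ x, p (σ x) → p x) → ∀ x, p x := by
  have : NeZero (Nat.card X) := ⟨Nat.card_pos.ne'⟩
  obtain ⟨e⟩ : Nonempty (X ≃ ZMod (Nat.card X)) := Finite.card_eq.1 (by simp)
  refine ⟨fun x => e.symm (e x + 1), fun p x0 h0 hs x => ?_⟩
  have h1 : ∀ k : ℕ, p (e.symm (e x0 - k)) := fun k => by
    induction k with
    | zero => simpa using h0
    | succ k ih =>
      refine hs _ ?_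
      beta_reduce
      rwa [Equiv.apply_symm_apply, Nat.cast_succ, ← sub_sub, sub_add_cancel]
  simpa using h1 (e x0 - e x).val

/-- Generic gate: a disjunction of literals on distinct coordinates is one constraint. -/
theorem gate_exists {I : Type} {W : I → Type} [∀ ι, AddCommGroup (W ι)] [Finite (∀ ι, W ι)]
    {X : Type} [Finite X] [Nonempty X] (c : X → I) (hc : Function.Injective c) (t : X → G3) :
    ∃ τ : (∀ ι, W ι) → G3, ∀ (P : ℤ) (emb : (∀ ι, W ι) → ℤ) (val : G3 → ∀ ι, W ι),
      Equivar P emb val →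
      (∀ x y, x ≠ y → ∀ g, val (g - t y) (c x) = val g (c x)) →
      (Cons τ val ↔ ∀ g, ∃ x, val (g - t x) (c x) = val g (c x)) := by
  classical
  have _ := hc
  have := Fintype.ofFinite X
  obtain ⟨σ, hσ⟩ := exists_cycle X
  let s : (∀ ι, W ι) → X → G3 := fun h x => if h (c (σ x)) ≠ 0 then t x else 0
  refine ⟨fun h => ∑ x, s h x, fun P emb val hE hinv => ?_⟩
  have key : ∀ (r : X → G3), (∀ y, r y = t y ∨ r y = 0) → ∀ x g,
      val (g - ∑ y, r y) (c x) = val (g - r x) (c x) := fun r hr x g => by
    have h1 : ∀ S : Finset X, x ∉ S → ∀ g, val (g - ∑ y ∈ S, r y) (c x) = val g (c x) := by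
      intro S
      induction S using Finset.induction_on with
      | empty => intro _ g; simp
      | insert y S hy ih =>
        intro hx g
        rw [Finset.sum_insert hy, ← sub_sub, ih fun h => hx (Finset.mem_insert_of_mem h)]
        rcases hr y with h | h
        · rw [h]; exact hinv x y (fun h => hx (h ▸ Finset.mem_insert_self _ _)) g
        · rw [h, sub_zero]
    rw [← Finset.add_sum_erase _ _ (Finset.mem_univ x), ← sub_sub,
      h1 _ (Finset.notMem_erase _ _)]
  have hs : ∀ h y, s h y = t y ∨ s h y = 0 := fun h y => by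
    simp only [s]; split_ifs <;> simp
  rw [cons_iff_inj hE]
  refine forall_congr' fun g => ⟨fun hi => ?_, ?_⟩
  · by_contra hn
    push Not at hn
    have h1 : ∀ x, (val (g - ∑ y, t y) - val g) (c x) ≠ 0 := fun x => by
      rw [Pi.sub_apply, key t (fun y => Or.inl rfl)]
      exact sub_ne_zero.2 (hn x)
    have h2 : ∑ x, s (val (g - ∑ y, t y) - val g) x = ∑ y, t y :=
      Finset.sum_congr rfl fun x _ => if_pos (h1 _)
    have h3 : ∑ x, s 0 x = 0 := Finset.sum_eq_zero fun x _ => if_neg (by simp)
    have h4 : val (g - ∑ y, t y) - val g = 0 := hi (by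
      simp only [h2, h3, sub_zero]; abel)
    obtain ⟨x⟩ := ‹Nonempty X›
    exact h1 x (by rw [h4]; rfl)
  · rintro ⟨x0, h0⟩ h h' hh
    have h1 : ∀ x, h (c x) - val (g - s h x) (c x) = h' (c x) - val (g - s h' x) (c x) :=
      fun x => by
        have := congrFun hh (c x)
        simpa only [Pi.sub_apply, key _ (hs _)] using this
    have h2 : ∀ h, val (g - s h x0) (c x0) = val g (c x0) := fun h => by
      rcases hs h x0 with e | e
      · rw [e, h0]
      · rw [e, sub_zero]
    have h3 : ∀ x, h (c (σ x)) = h' (c (σ x)) → s h x = s h' x := fun x e => by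
      simp only [s, e]
    have h4 : ∀ x, h (c x) = h' (c x) := hσ _ x0 (by
      have := h1 x0
      rwa [h2, h2, sub_left_inj] at this) fun x e => by
        have := h1 x
        rwa [h3 x e, sub_left_inj] at this
    have h5 : ∑ x, s h x = ∑ x, s h' x := Finset.sum_congr rfl fun x _ => h3 x (h4 _)
    simp only [h5] at hh
    exact sub_left_inj.1 hh

end Vale.Agent.P043
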