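import Mathlib
import Vale.Agent.P043.Api
import Vale.Agent.P043.Layer2

namespace Vale.Agent.P043
namespace Params

namespace Enc

variable {p : Params}

theorem expr_iff {R R' : (G3 → p.V) → Prop} (h : Expr R) (e : ∀ val, R' val ↔ R val) :
    Expr R' := by
  obtain ⟨J, hJ, τ, h⟩ := h
  exact ⟨J, hJ, τ, fun val he hp => (e val).trans (h val he hp)⟩

theorem expr_and {R R' : (G3 → p.V) → Prop} (h : Expr R) (h' : Expr R') :
    Expr fun val => R val ∧ R' val := by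
  obtain ⟨J, hJ, τ, h⟩ := h
  obtain ⟨J', hJ', τ', h'⟩ := h'
  refine ⟨J ⊕ J', inferInstance, Sum.elim τ τ', fun val he hp => ?_⟩
  rw [Sum.forall]
  exact and_congr (h val he hp) (h' val he hp)

theorem expr_all {A : Type} [Finite A] {R : A → (G3 → p.V) → Prop} (h : ∀ a, Expr (R a)) :
    Expr fun val => ∀ a, R a val := by
  choose J hJ τ h using h
  refine ⟨Σ a, J a, inferInstance, fun j => τ j.1 j.2, fun val he hp => ?_⟩
  rw [Sigma.forall]
  exact forall_congr' fun a => h a val he hp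

theorem expr_imp {c : Prop} {R : (G3 → p.V) → Prop} (h : c → Expr R) :
    Expr fun val => c → R val := by
  by_cases hc : c
  · exact expr_iff (h hc) fun val => ⟨fun h => h hc, fun h _ => h⟩
  · exact ⟨Empty, inferInstance, fun j => j.elim, fun val _ _ =>
      ⟨fun _ j => j.elim, fun _ h => absurd h hc⟩⟩

/-- a compatible family of literals -/
def Fam {X : Type} (c : X → Ix p.L) (t : X → G3) : Prop :=
  ∀ x y, x ≠ y → c x ≠ c y ∧ p.Inv (c x) (t y)

theorem expr_gate {X : Type} [Finite X] [Nonempty X] {c : X → Ix p.L} {t : X → G3}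
    (h : Fam c t) : Expr fun val : G3 → p.V => ∀ g, ∃ x, Lt val (c x) (t x) g := by
  obtain ⟨τ, hτ⟩ := gate_exists (W := fun ι => ZMod (mm p.pr ι)) c
    (fun x y hxy => by by_contra hne; exact (h x y hne).1 hxy) t
  refine ⟨Unit, inferInstance, fun _ => τ, fun val he hp => ?_⟩
  rw [forall_const, hτ p.P p.emb val he fun x y hxy => hp _ _ (h x y hxy).2]
  exact Iff.rfl

theorem fam_one (ι : Ix p.L) (t : G3) : Fam (p := p) (fun _ : Unit => ι) fun _ => t :=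
  fun _ _ h => absurd rfl h

theorem fam_sum {X Y : Type} {c : X → Ix p.L} {t : X → G3} {c' : Y → Ix p.L} {t' : Y → G3}
    (h : Fam c t) (h' : Fam c' t')
    (hc : ∀ x y, c x ≠ c' y ∧ p.Inv (c x) (t' y) ∧ p.Inv (c' y) (t x)) :
    Fam (Sum.elim c c') (Sum.elim t t') := by
  rintro (x | x) (y | y) hne
  · exact h x y fun e => hne (congrArg _ e)
  · exact ⟨(hc x y).1, (hc x y).2.1⟩
  · exact ⟨(hc y x).1.symm, (hc y x).2.2⟩
  · exact h' x y fun e => hne (congrArg _ e)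

/-- pairwise compatibility of two literals -/
def Cp (ι : Ix p.L) (t : G3) (κ : Ix p.L) (u : G3) : Prop := ι ≠ κ ∧ p.Inv ι u ∧ p.Inv κ t

theorem gate2 {ι κ : Ix p.L} {t u : G3} (h : Cp ι t κ u) :
    Expr fun val : G3 → p.V => ∀ g, Lt val ι t g ∨ Lt val κ u g :=
  expr_iff (expr_gate (fam_sum (fam_one ι t) (fam_one κ u) fun _ _ => h)) fun val =>
    forall_congr' fun g => by simp only [Sum.exists, Sum.elim_inl, Sum.elim_inr, exists_const]

theorem gate3 {ι κ ν : Ix p.L} {t u w : G3} (h1 : Cp ι t κ u) (h2 : Cp ι t ν w)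
    (h3 : Cp κ u ν w) :
    Expr fun val : G3 → p.V => ∀ g, Lt val ι t g ∨ Lt val κ u g ∨ Lt val ν w g :=
  expr_iff (expr_gate (fam_sum (fam_one ι t) (fam_sum (fam_one κ u) (fam_one ν w) fun _ _ => h3)
    (by rintro _ (_ | _); exacts [h1, h2]))) fun val =>
    forall_congr' fun g => by simp only [Sum.exists, Sum.elim_inl, Sum.elim_inr, exists_const]

/-- coordinates carrying Boolean literals -/
def BC (κ : Ix p.L) : Prop := κ ≠ .two ∧ κ ≠ .qq ∧ ∀ lam, κ ≠ .idx lam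

/-- direction condition of a coordinate -/
def DC (ι : Ix p.L) (n : ℤ) : Prop :=
  (∀ lam, ι = .hyb lam → dirn lam = n) ∧ ∀ (m : Fin 22) s, ι = .yy m s → ((m : ℕ) : ℤ) = n

theorem inv_bsh {ι κ : Ix p.L} {n : ℤ} (hne : κ ≠ ι) (hb : BC κ) (hd : DC ι n) (ε : Bool) :
    p.Inv ι (p.bsh n κ ε) := by
  obtain ⟨h2, hq, hi⟩ := hb
  have k1 : ∀ d : ℤ, d ∣ p.E κ → d ∣ (p.bsh n κ ε).1 := fun d h =>
    dvd_neg.2 ((h.mul_left _).mul_left _)
  have k2 : ∀ d : ℤ, d ∣ p.E κ → d ∣ (p.bsh n κ ε).2.1 := fun d h => h.mul_left _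
  have k3 : ∀ d : ℤ, d ∣ p.E κ → d ∣ (p.bsh n κ ε).2.2 := fun d h => by
    cases ε
    · exact dvd_zero _
    · exact h.mul_left _
  have k4 : (p.bsh n κ ε).1 + n * (p.bsh n κ ε).2.1 = 0 := neg_add_cancel _
  refine ⟨?_, k2 _ (p.NN_dvd_E hne), k3 _ (p.NN_dvd_E hne)⟩
  have hK := p.K_dvd_E h2
  rcases ι with _ | (_ | _ | l) | _ | ⟨_ | _, μ⟩ | lam | ⟨lam, μ⟩ | lam | ⟨m, s⟩
  · exact ⟨k1 _ hK, k2 _ hK, k3 _ hK⟩
  · exact k2 _ (p.four_dvd_E h2)
  · exact k2 _ hK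
  · exact k1 _ (p.mk_dvd_E h2 l)
  · exact ⟨k1 _ hK, k1 _ (p.q_dvd_E hq), k2 _ hK⟩
  · exact k1 _ (p.q_dvd_E hq)
  · exact k2 _ (p.q_dvd_E hq)
  · exact ⟨k1 _ hK, k2 _ hK⟩
  · exact ⟨k2 _ (p.r2_dvd_E (hi lam)), k3 _ (p.r_dvd_E (hi lam))⟩
  · exact ⟨by rw [hd.1 lam rfl]; exact k4, k2 _ hK, k2 _ (p.r2_dvd_E (hi lam)),
      k3 _ (p.r_dvd_E (hi lam))⟩
  · show _ = _
    rw [hd.2 m s rfl]; exact k4

theorem bc_aux (β : Bit p.L) : BC (.aux β) := ⟨nofun, nofun, nofun⟩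
theorem bc_sq (γ : Bool) (μ : ZMod 11) : BC (p := p) (.sq γ μ) := ⟨nofun, nofun, nofun⟩
theorem bc_sr (lam : Lam) (μ : Fin (p.L + 1)) : BC (.sr lam μ) := ⟨nofun, nofun, nofun⟩
theorem bc_hyb (lam : Lam) : BC (p := p) (.hyb lam) := ⟨nofun, nofun, nofun⟩
theorem bc_yy (m : Fin 22) (s : ZMod 11) : BC (p := p) (.yy m s) := ⟨nofun, nofun, nofun⟩

theorem dc_aux (β : Bit p.L) (n : ℤ) : DC (.aux β) n := ⟨nofun, nofun⟩
theorem dc_qq (n : ℤ) : DC (p := p) .qq n := ⟨nofun, nofun⟩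
theorem dc_sq (γ : Bool) (μ : ZMod 11) (n : ℤ) : DC (p := p) (.sq γ μ) n := ⟨nofun, nofun⟩
theorem dc_idx (lam : Lam) (n : ℤ) : DC (p := p) (.idx lam) n := ⟨nofun, nofun⟩
theorem dc_sr (lam : Lam) (μ : Fin (p.L + 1)) (n : ℤ) : DC (.sr lam μ) n := ⟨nofun, nofun⟩
theorem dc_hyb (lam : Lam) : DC (p := p) (.hyb lam) (dirn lam) :=
  ⟨fun _ h => by cases h; rfl, nofun⟩
theorem dc_yy (m : Fin 22) (s : ZMod 11) : DC (p := p) (.yy m s) ((m : ℕ) : ℤ) :=
  ⟨nofun, fun _ _ h => by cases h; rfl⟩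

theorem cp_bb {ι κ : Ix p.L} {n : ℤ} (hne : ι ≠ κ) (hb : BC ι) (hb' : BC κ) (hd : DC ι n)
    (hd' : DC κ n) (ε ε' : Bool) : Cp ι (p.bsh n ι ε) κ (p.bsh n κ ε') :=
  ⟨hne, inv_bsh hne.symm hb' hd ε', inv_bsh hne hb hd' ε⟩

theorem cp_bl {ι κ : Ix p.L} {n : ℤ} {u : G3} (hne : ι ≠ κ) (hb : BC ι) (hd' : DC κ n)
    (hu : p.Inv ι u) (ε : Bool) : Cp ι (p.bsh n ι ε) κ u :=
  ⟨hne, hu, inv_bsh hne hb hd' ε⟩

theorem fam_b {X : Type} {c : X → Ix p.L} {n : ℤ} (hc : Function.Injective c)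
    (hb : ∀ x, BC (c x)) (hd : ∀ x, DC (c x) n) (ε : X → Bool) :
    Fam c fun x => p.bsh n (c x) (ε x) :=
  fun x y h => ⟨hc.ne h, inv_bsh (hc.ne h).symm (hb y) (hd x) _⟩

theorem fam_mk (ε : Fin (p.L + 1) → Bool) :
    Fam (fun l => Ix.aux (.mk l)) fun l => p.bsh 0 (.aux (.mk l)) (ε l) :=
  fam_b (fun _ _ h => by cases h; rfl) (fun _ => bc_aux _) (fun _ => dc_aux _ _) ε

theorem rho_e1 : p.Inv (.aux .rho) (1, 0, 0) := ⟨dvd_zero _, dvd_zero _, dvd_zero _⟩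
theorem tau_e1 : p.Inv (.aux .tau) (1, 0, 0) := ⟨dvd_zero _, dvd_zero _, dvd_zero _⟩

theorem rho_E {κ : Ix p.L} (h : κ ≠ .two) (h' : κ ≠ .aux .rho) {a b c : ℤ} (hb : p.E κ ∣ b)
    (hc : p.E κ ∣ c) : p.Inv (.aux .rho) (a, b, c) :=
  ⟨(p.K_dvd_E h).trans hb, (p.NN_dvd_E h').trans hb, (p.NN_dvd_E h').trans hc⟩

theorem tau_E {κ : Ix p.L} (h : κ ≠ .two) (h' : κ ≠ .aux .tau) {a b c : ℤ} (hb : p.E κ ∣ b)
    (hc : p.E κ ∣ c) : p.Inv (.aux .tau) (a, b, c) :=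
  ⟨(p.four_dvd_E h).trans hb, (p.NN_dvd_E h').trans hb, (p.NN_dvd_E h').trans hc⟩

theorem tau_tt : p.Inv (.aux .tau) p.tt :=
  ⟨Dvd.dvd.mul_right (by norm_num) _, (p.NN_dvd_E (κ := .two) (by nofun)).mul_left _, dvd_zero _⟩

theorem mk_tt (l : Fin (p.L + 1)) : p.Inv (.aux (.mk l)) p.tt :=
  ⟨dvd_zero _, (p.NN_dvd_E (κ := .two) (by nofun)).mul_left _, dvd_zero _⟩

theorem sq_tt (γ : Bool) (μ : ZMod 11) : p.Inv (.sq γ μ) p.tt := by
  refine ⟨?_, (p.NN_dvd_E (κ := .two) (by nofun)).mul_left _, dvd_zero _⟩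
  cases γ
  · exact dvd_zero _
  · exact (p.q_dvd_E (κ := .two) (by nofun)).mul_left _

theorem sr_tt (lam : Lam) (μ : Fin (p.L + 1)) : p.Inv (.sr lam μ) p.tt :=
  ⟨⟨(p.r2_dvd_E (κ := .two) (by nofun)).mul_left _, dvd_zero _⟩, (p.NN_dvd_E (κ := .two) (by nofun)).mul_left _, dvd_zero _⟩

theorem hyb_idx {lam lam' : Lam} (h : lam' ≠ lam) : p.Inv (.hyb lam) (0, 0, p.E (.idx lam')) :=
  ⟨⟨by simp, dvd_zero _, dvd_zero _, p.r_dvd_E fun e => h (by cases e; rfl)⟩, dvd_zero _,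
    p.NN_dvd_E (by nofun)⟩

theorem e_q5 (γ : Bool) (μ : ZMod 11) : Expr fun val : G3 → p.V => ∀ g,
    Bl val 0 (.aux .tau) (!γ) g ∨ (∃ l, Bl val 0 (.aux (.mk l)) (!code μ.val l) g) ∨
      Bl val 0 (.sq γ μ) false g ∨ Lt val .qq p.tt g := by
  refine expr_iff (expr_gate (fam_sum (fam_one (.aux .tau) (p.bsh 0 (.aux .tau) (!γ)))
    (fam_sum (fam_mk fun l => !code μ.val l)
      (fam_sum (fam_one (.sq γ μ) (p.bsh 0 (.sq γ μ) false)) (fam_one .qq p.tt) ?_) ?_) ?_))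
    fun val => forall_congr' fun g => ?_
  · exact fun _ _ => cp_bl (by nofun) (bc_sq _ _) (dc_qq _) (sq_tt _ _) _
  · rintro l (_ | _)
    · exact cp_bb (by nofun) (bc_aux _) (bc_sq _ _) (dc_aux _ _) (dc_sq _ _ _) _ _
    · exact cp_bl (by nofun) (bc_aux _) (dc_qq _) (mk_tt _) _
  · rintro _ (l | _ | _)
    · exact cp_bb (by nofun) (bc_aux _) (bc_aux _) (dc_aux _ _) (dc_aux _ _) _ _
    · exact cp_bb (by nofun) (bc_aux _) (bc_sq _ _) (dc_aux _ _) (dc_sq _ _ _) _ _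
    · exact cp_bl (by nofun) (bc_aux _) (dc_qq _) tau_tt _
  · simp only [Sum.exists, Sum.elim_inl, Sum.elim_inr, exists_const, Bl]

theorem e_r4 (lam : Lam) (μ : Fin (p.L + 1)) : Expr fun val : G3 → p.V => ∀ g,
    (∃ l, Bl val 0 (.aux (.mk l)) (!code (μ : ℕ) l) g) ∨
      Bl val 0 (.sr lam μ) false g ∨ Lt val (.idx lam) p.tt g := by
  refine expr_iff (expr_gate (fam_sum (fam_mk fun l => !code (μ : ℕ) l)
      (fam_sum (fam_one (.sr lam μ) (p.bsh 0 (.sr lam μ) false)) (fam_one (.idx lam) p.tt) ?_) ?_))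
    fun val => forall_congr' fun g => ?_
  · exact fun _ _ => cp_bl (by nofun) (bc_sr _ _) (dc_idx _ _) (sr_tt _ _) _
  · rintro l (_ | _)
    · exact cp_bb (by nofun) (bc_aux _) (bc_sr _ _) (dc_aux _ _) (dc_sr _ _ _) _ _
    · exact cp_bl (by nofun) (bc_aux _) (dc_idx _ _) (mk_tt _) _
  · simp only [Sum.exists, Sum.elim_inl, Sum.elim_inr, exists_const, Bl]

theorem e_r5 (lam : Lam) : Expr fun val : G3 → p.V => ∀ g,
    ∃ μ : Fin (p.L + 1), (μ : ℕ) < p.pr (.idx lam) ∧ Bl val 0 (.sr lam μ) true g := by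
  have : Nonempty {μ : Fin (p.L + 1) // (μ : ℕ) < p.pr (.idx lam)} :=
    ⟨⟨0, (p.prime _).pos⟩⟩
  refine expr_iff (expr_gate (fam_b (n := 0)
    (c := fun μ : {μ : Fin (p.L + 1) // (μ : ℕ) < p.pr (.idx lam)} => Ix.sr lam μ.1)
    (fun _ _ h => Subtype.ext (Ix.sr.inj h).2) (fun _ => bc_sr _ _) (fun _ => dc_sr _ _ _)
    fun _ => true)) fun val => forall_congr' fun g => ?_
  simp only [Subtype.exists, exists_prop, Bl]

theorem e_sud (a : Fin 22 → ZMod 11) : Expr fun val : G3 → p.V => ∀ g,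
    Lt val (.hyb none) (0, 0, p.E (.idx none)) g ∨
    ∃ n, Lt val (.hyb (some (n, a n))) (0, 0, p.E (.idx (some (n, a n)))) g := by
  refine expr_iff (expr_gate (fam_sum (fam_one (.hyb none) (0, 0, p.E (.idx none)))
    (c' := fun n : Fin 22 => .hyb (some (n, a n)))
    (t' := fun n => (0, 0, p.E (.idx (some (n, a n))))) ?_ ?_))
    fun val => forall_congr' fun g => ?_
  · exact fun x y h => ⟨fun e => h (by cases e; rfl), hyb_idx fun e => h (by cases e; rfl)⟩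
  · exact fun _ _ => ⟨(by nofun), hyb_idx (by nofun), hyb_idx (by nofun)⟩
  · simp only [Sum.exists, Sum.elim_inl, Sum.elim_inr, exists_const]

end Enc

open Enc

/-- the periods are a finite family of constraints -/
theorem expr_periods (p : Params) : ∃ (J : Type) (_ : Finite J) (τ : J → p.V → G3),
    ∀ val : G3 → p.V, Equivar p.P p.emb val → (Periods val ↔ ∀ j, Cons (τ j) val) := by
  have h1 : ∀ ι, ∃ S : Finset G3,
      Submodule.span ℤ (S : Set G3) = Submodule.span ℤ {v | p.Inv ι v} :=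
    fun ι => IsNoetherian.noetherian _
  choose S hS using h1
  have h2 : ∀ (ι : Ix p.L) (v : G3), ∃ τ : p.V → G3, ∀ val : G3 → p.V, Equivar p.P p.emb val →
      (Cons τ val ↔ ∀ g, val (g - v) ι = val g ι) := by
    intro ι v
    obtain ⟨τ, hτ⟩ := gate_exists (W := fun ι => ZMod (mm p.pr ι)) (fun _ : Unit => ι)
      (fun _ _ _ => rfl) fun _ => v
    refine ⟨τ, fun val he => ?_⟩
    rw [hτ p.P p.emb val he fun _ _ h => absurd rfl h]
    simp only [exists_const]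
  choose τ hτ using h2
  refine ⟨Σ ι, S ι, inferInstance, fun j => τ j.1 j.2.1, fun val he => ?_⟩
  have h3 : ∀ (ι : Ix p.L) (A : Set G3), (∀ v ∈ A, ∀ g, val (g - v) ι = val g ι) →
      ∀ v ∈ Submodule.span ℤ A, ∀ g, val (g - v) ι = val g ι := by
    intro ι A hA v hv
    induction hv using Submodule.span_induction with
    | mem v hv => exact hA v hv
    | zero => intro g; rw [sub_zero]
    | add u v _ _ hu hv => intro g; rw [← sub_sub, hv, hu]
    | smul c v _ hv =>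
      intro g
      have := (step_zsmul (fun g => val g ι) (-v) 0 (fun _ => True) (fun _ => Iff.rfl)
        (fun g _ => by rw [← sub_eq_add_neg, hv, add_zero]) g trivial c).2
      rwa [smul_neg, ← sub_eq_add_neg, smul_zero, add_zero] at this
  rw [Sigma.forall]
  refine forall_congr' fun ι => ⟨fun h v => (hτ ι v.1 val he).2 ?_, fun h v hv => ?_⟩
  · refine h3 ι {v | p.Inv ι v} h v.1 ?_
    rw [← hS]; exact Submodule.subset_span v.2
  · refine h3 ι (S ι) (fun w hw => (hτ ι w val he).1 (h ⟨w, hw⟩)) v ?_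
    rw [hS]; exact Submodule.subset_span hv

/-- the gates are a finite family of constraints -/
theorem expr_gates (p : Params) : Expr (p := p) Gates := by
  have q1 := gate2 (cp_bl (p := p) (n := 0) (by nofun) (bc_aux .rho) (dc_qq _) rho_e1 true)
  have q2 := gate2 (cp_bl (p := p) (n := 0) (by nofun) (bc_aux .rho) (dc_qq _)
    (rho_E (κ := .qq) (a := 0) (by nofun) (by nofun) dvd_rfl (dvd_zero _)) true)
  have rt := fun ε => cp_bb (p := p) (n := 0) (by nofun) (bc_aux .rho) (bc_aux .tau) (dc_aux _ _)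
    (dc_aux _ _) false ε
  have q3 := gate3 (rt true) (cp_bl (by nofun) (bc_aux .rho) (dc_qq _)
      (rho_E (κ := .qq) (a := p.E .qq) (by nofun) (by nofun) (dvd_zero _) dvd_rfl) false)
    (cp_bl (by nofun) (bc_aux .tau) (dc_qq _) (tau_E (κ := .qq) (by nofun) (by nofun) (dvd_zero _) dvd_rfl) true)
  have q4 := gate3 (rt false) (cp_bl (by nofun) (bc_aux .rho) (dc_qq _)
      (rho_E (κ := .qq) (a := 0) (by nofun) (by nofun) dvd_rfl dvd_rfl) false)
    (cp_bl (by nofun) (bc_aux .tau) (dc_qq _) (tau_E (κ := .qq) (by nofun) (by nofun) dvd_rfl dvd_rfl) false)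
  have q5 := expr_all fun γ => expr_all fun μ => e_q5 (p := p) γ μ
  have q6 := expr_all fun γ : Bool => expr_gate (fam_b (p := p) (n := 0)
    (c := fun μ : ZMod 11 => Ix.sq γ μ) (fun _ _ h => by cases h; rfl) (fun _ => bc_sq _ _)
    (fun _ => dc_sq _ _ _) fun _ => true)
  have r1 := expr_all fun lam =>
    gate2 (cp_bl (p := p) (n := 0) (by nofun) (bc_aux .rho) (dc_idx lam _) rho_e1 true)
  have r2 := expr_all fun lam =>
    gate2 (cp_bl (p := p) (n := 0) (by nofun) (bc_aux .rho) (dc_idx lam _)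
      (rho_E (κ := .idx lam) (a := 0) (by nofun) (by nofun) dvd_rfl (dvd_zero _)) true)
  have r3 := expr_all fun lam =>
    gate2 (cp_bl (p := p) (n := 0) (by nofun) (bc_aux .rho) (dc_idx lam _)
      (rho_E (κ := .idx lam) (a := 0) (by nofun) (by nofun) dvd_rfl dvd_rfl) false)
  have r4 := expr_all fun lam => expr_all fun μ => e_r4 (p := p) lam μ
  have r5 := expr_all fun lam => e_r5 (p := p) lam
  have h12 := fun ε ε' => expr_all fun lam => gate3
    (cp_bb (p := p) (n := dirn lam) (by nofun) (bc_aux .tau) (bc_sr lam 0) (dc_aux _ _) (dc_sr _ _ _)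
      (!side lam) ε)
    (cp_bb (by nofun) (bc_aux .tau) (bc_hyb lam) (dc_aux _ _) (dc_hyb _) (!side lam) ε')
    (cp_bb (by nofun) (bc_sr lam 0) (bc_hyb lam) (dc_sr _ _ _) (dc_hyb _) ε ε')
  have h3 := expr_all fun lam =>
    gate2 (cp_bl (p := p) (by nofun) (bc_aux .tau) (dc_hyb lam) tau_e1 (!side lam))
  have h4 := expr_all fun n : Fin 22 => expr_all fun s : ZMod 11 =>
    gate2 (cp_bl (p := p) (n := ((n : ℕ) : ℤ)) (by nofun) (bc_yy n s) (dc_hyb (some (n, s)))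
      (u := (-(((n : ℕ) : ℤ) * (2 * p.E .two)), 2 * p.E .two, 0))
      ⟨neg_add_cancel _, (p.NN_dvd_E (κ := .two) (by nofun)).mul_left _, dvd_zero _⟩ false)
  have y1 := expr_all fun n : Fin 22 => expr_gate (fam_b (p := p) (n := ((n : ℕ) : ℤ))
    (c := fun s : ZMod 11 => Ix.yy n s) (fun _ _ h => by cases h; rfl) (fun _ => bc_yy _ _)
    (fun _ => dc_yy _ _) fun _ => true)
  have y2 := expr_all fun n : Fin 22 => expr_all fun s : ZMod 11 => expr_all fun s' : ZMod 11 =>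
    expr_imp fun h : s ≠ s' => gate2 (cp_bb (p := p) (fun e => h (by cases e; rfl)) (bc_yy n s)
      (bc_yy n s') (dc_yy _ _) (dc_yy _ _) false false)
  have y3 := expr_all fun n : Fin 22 => expr_all fun c : ZMod 11 => expr_all fun c' : ZMod 11 =>
    expr_imp fun _ : c + ((n : ℕ) : ZMod 11) * c' ≠ 0 => gate3
      (cp_bb (p := p) (n := ((n : ℕ) : ℤ)) (by nofun) (bc_sq false c) (bc_sq true c') (dc_sq _ _ _)
        (dc_sq _ _ _) false false)
      (cp_bb (by nofun) (bc_sq false c) (bc_yy n (c + ((n : ℕ) : ZMod 11) * c')) (dc_sq _ _ _)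
        (dc_yy _ _) false true)
      (cp_bb (by nofun) (bc_sq true c') (bc_yy n (c + ((n : ℕ) : ZMod 11) * c')) (dc_sq _ _ _)
        (dc_yy _ _) false true)
  have sud := expr_all fun a : Fin 22 → ZMod 11 => expr_imp fun _ : ¬ Good a => e_sud (p := p) a
  refine expr_iff (expr_and q1 (expr_and q2 (expr_and q3 (expr_and q4 (expr_and q5 (expr_and q6
    (expr_and r1 (expr_and r2 (expr_and r3 (expr_and r4 (expr_and r5 (expr_and (h12 false true)
    (expr_and (h12 true false) (expr_and h3 (expr_and h4 (expr_and y1 (expr_and y2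
    (expr_and y3 sud)))))))))))))))))) fun val => ⟨fun h => ?_, fun h => ?_⟩
  · exact ⟨h.q1, h.q2, h.q3, h.q4, h.q5, h.q6, h.r1, h.r2, h.r3, h.r4, h.r5, h.h1, h.h2, h.h3,
      h.h4, h.y1, h.y2, h.y3, h.sud⟩
  · obtain ⟨q1, q2, q3, q4, q5, q6, r1, r2, r3, r4, r5, h1, h2, h3, h4, y1, y2, y3, sud⟩ := h
    exact ⟨q1, q2, q3, q4, q5, q6, r1, r2, r3, r4, r5, h1, h2, h3, h4, y1, y2, y3, sud⟩

end Params
end Vale.Agent.P043
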