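import Mathlib
import Vale.Agent.P043.Api
import Vale.Agent.P043.Layer2
import Vale.Agent.P043.Encode

namespace Vale.Agent.P043
namespace Params

namespace EncS

variable {p : Params}

theorem dig_int (β : Bit p.L) (m : ℤ) :
    p.dig β (m : ZMod (mm p.pr .two)) = ((m / 4 ^ expo β : ℤ) : ZMod 4) := by
  have h1 : (((m : ZMod (mm p.pr .two)).val : ℕ) : ℤ) = m % p.K := by
    rw [ZMod.val_intCast, mm_two]
  obtain ⟨c, hc⟩ := p.pow_dvd_K (p.expo_le β)
  have h2 : m % p.K = m + 4 ^ expo β * (4 * (-(c * (m / p.K)))) := by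
    rw [Int.emod_def]
    nth_rewrite 1 [hc]
    ring
  rw [dig, ← Int.cast_natCast, Int.natCast_div, h1, h2]
  push_cast
  rw [Int.add_mul_ediv_left _ _ (by positivity)]
  push_cast
  rw [show (4 : ZMod 4) = 0 from rfl, zero_mul, add_zero]

theorem dig_add (β : Bit p.L) (v : ZMod (mm p.pr .two)) (c : ℤ) :
    p.dig β (v + ((c * 4 ^ expo β : ℤ) : ZMod (mm p.pr .two))) = p.dig β v + (c : ZMod 4) := by
  obtain ⟨m, rfl⟩ := ZMod.intCast_surjective v
  rw [← Int.cast_add, dig_int, dig_int, Int.add_mul_ediv_right _ _ (by positivity), Int.cast_add]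

theorem fix_iff {V W : Type} (f : V → W) (F : W → V) :
    (∃! h, F (f h) = h) ↔ ∃! D, f (F D) = D := by
  constructor
  · rintro ⟨h, h1, h2⟩
    refine ⟨f h, congrArg f h1, fun D hD => ?_⟩
    rw [← h2 (F D) (congrArg F hD), hD]
  · rintro ⟨D, h1, h2⟩
    refine ⟨F D, congrArg F h1, fun h hh => ?_⟩
    rw [← h2 (f h) (congrArg f hh), hh]

/-- the vertical correction -/
def vt (β : Bit p.L) (c : ℤ) : G3 := (0, 0, c * 4 ^ expo β * p.E .two)

/-- the shift attached to a digit -/
def sh (kap sig : ZMod 4 → ZMod 4) (β : Bit p.L) (D : ZMod 4) : G3 :=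
  ((kap D).val : ℤ) • p.T β - vt β ((D.val : ℤ) - (sig D).val)

variable {val : G3 → p.V}

theorem dig_vt (he : Equivar p.P p.emb val) (β : Bit p.L) (g : G3) (c : ℤ) :
    p.dig β (val (g + vt β c) .two) = p.dig β (val g .two) + (c : ZMod 4) := by
  rw [vt, stepE he (by nofun), dig_add]

theorem dg_vt (he : Equivar p.P p.emb val) (β : Bit p.L) (g : G3) (c : ℤ) (k : ZMod 4) :
    dg val β (g + vt β c) k = dg val β g k + (c : ZMod 4) := by
  rw [dg, add_sub_right_comm, dig_vt he, dg]

theorem dig_sh (he : Equivar p.P p.emb val) (kap sig : ZMod 4 → ZMod 4) (β : Bit p.L) (g : G3)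
    (D : ZMod 4) :
    p.dig β (val (g - sh kap sig β D) .two) = D ↔ dg val β g (kap D) = sig D := by
  rw [sh, ← sub_add, dig_vt he, dg]
  push_cast
  rw [ZMod.natCast_zmod_val, ZMod.natCast_zmod_val]
  constructor <;> intro h <;> linear_combination h

theorem aux_vt (β : Bit p.L) (c : ℤ) : p.Inv (.aux β) (vt β c) := by
  refine ⟨?_, dvd_zero _, (p.NN_dvd_E (κ := .two) (by nofun)).mul_left _⟩
  cases β <;> exact dvd_zero _

theorem two_aux (β : Bit p.L) {b c : ℤ} (hb : p.E (.aux β) ∣ b) (hc : p.E (.aux β) ∣ c) :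
    p.Inv .two (0, b, c) :=
  ⟨⟨dvd_zero _, (p.K_dvd_E (by nofun)).trans hb, (p.K_dvd_E (by nofun)).trans hc⟩,
    (p.NN_dvd_E (by nofun)).trans hb, (p.NN_dvd_E (by nofun)).trans hc⟩

theorem two_phi1 (β : Bit p.L) (b : Bool) : p.Inv .two (p.phi1 β b) := by
  cases b
  · exact two_aux β (dvd_zero _) (dvd_zero _)
  · exact two_aux β (dvd_mul_left _ _) dvd_rfl

theorem two_phi3 (β : Bit p.L) (b : Bool) : p.Inv .two (p.phi3 β b) := by
  cases b
  · exact two_aux β dvd_rfl (dvd_zero _)
  · exact two_aux β dvd_rfl dvd_rfl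

theorem cons_sh (he : Equivar p.P p.emb val) (kap sig : ZMod 4 → ZMod 4) (β : Bit p.L) :
    Cons (fun h : p.V => sh kap sig β (p.dig β (h .two))) val ↔
      ∀ g, ∃! D, dg val β g (kap D) = sig D :=
  forall_congr' fun g =>
    (fix_iff (fun h : p.V => p.dig β (h .two)) fun D => val (g - sh kap sig β D)).trans
      (existsUnique_congr fun D => dig_sh he kap sig β g D)

theorem fin13 : ∀ a b : ZMod 4, (∃! D, (if kap1 D = 0 then a else b) = sig1 D) →
    ∃! D, (if kap3 D = 1 then a else b) = sig3 D := by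
  unfold ExistsUnique
  decide

theorem s1_odd {β : Bit p.L} (h : ∀ g, ∃! D : ZMod 4, dg val β g (kap1 D) = sig1 D) (g : G3) :
    ∃! D : ZMod 4, dg val β g (kap3 D) = sig3 D := by
  have e0 : dg val β (g - p.T β) 0 = dg val β g 1 := by
    simp only [dg]
    rw [show ((0 : ZMod 4).val : ℤ) = 0 from rfl, show ((1 : ZMod 4).val : ℤ) = 1 from rfl,
      zero_smul, one_smul, sub_zero]
  have e2 : dg val β (g - p.T β) 2 = dg val β g 3 := by
    simp only [dg]
    rw [show ((2 : ZMod 4).val : ℤ) = 2 from rfl, show ((3 : ZMod 4).val : ℤ) = 1 + 2 from rfl,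
      add_smul, one_smul, sub_sub]
  have h1 : ∀ D, dg val β (g - p.T β) (kap1 D) =
      if kap1 D = 0 then dg val β g 1 else dg val β g 3 := by
    intro D
    unfold kap1
    split_ifs with h1 h2 h3
    · exact e0
    · exact absurd rfl h2
    · exact absurd h3 (by decide)
    · exact e2
  have h3 : ∀ D, dg val β g (kap3 D) =
      if kap3 D = 1 then dg val β g 1 else dg val β g 3 := by
    intro D
    unfold kap3
    split_ifs with h1 h2 h3
    · exact absurd h2 (by decide)
    · rfl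
    · rfl
    · exact absurd rfl h3
  have := h (g - p.T β)
  simp only [h1] at this
  simp only [h3]
  exact fin13 _ _ this

/-- the shift of the third rule -/
def sh3 (β : Bit p.L) : Bool × ZMod 4 → G3
  | (true, D) => sh kap1 sig1 β D + p.phi1 β (par D)
  | (false, D) => sh kap3 sig3 β D + p.phi3 β (par D)

theorem aux_sh (hp : Periods val) (kap sig : ZMod 4 → ZMod 4) (β : Bit p.L) (g φ : G3)
    (D : ZMod 4) : val (g - (sh kap sig β D + φ)) (.aux β) =
      val (g - ((kap D).val : ℤ) • p.T β - φ) (.aux β) := by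
  rw [← hp.add (aux_vt β ((D.val : ℤ) - (sig D).val)) (g - ((kap D).val : ℤ) • p.T β - φ), sh]
  congr 1
  abel

theorem cons_sh3 (he : Equivar p.P p.emb val) (hp : Periods val) (β : Bit p.L)
    (h1 : ∀ g, ∃! D : ZMod 4, dg val β g (kap1 D) = sig1 D) :
    Cons (fun h : p.V => sh3 β (decide (h (.aux β) = 0), p.dig β (h .two))) val ↔
      ∀ g (D D' : ZMod 4), dg val β g (kap1 D) = sig1 D → dg val β g (kap3 D') = sig3 D' →
        val (g - ((kap1 D).val : ℤ) • p.T β - p.phi1 β (par D)) (.aux β) =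
          val (g - ((kap3 D').val : ℤ) • p.T β - p.phi3 β (par D')) (.aux β) := by
  have key : ∀ g (D D' : ZMod 4), dg val β g (kap1 D) = sig1 D → dg val β g (kap3 D') = sig3 D' →
      ((∃! h : p.V, val (g - sh3 β (decide (h (.aux β) = 0), p.dig β (h .two))) = h) ↔
        (val (g - ((kap1 D).val : ℤ) • p.T β - p.phi1 β (par D)) (.aux β) = 0 ↔
          val (g - ((kap3 D').val : ℤ) • p.T β - p.phi3 β (par D')) (.aux β) = 0)) := by
    intro g D D' hD hD'
    have a1 : ∀ E : ZMod 4, (decide (val (g - sh3 β (true, E)) (.aux β) = 0),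
        p.dig β (val (g - sh3 β (true, E)) .two)) = (true, E) ↔
        (E = D ∧ val (g - ((kap1 D).val : ℤ) • p.T β - p.phi1 β (par D)) (.aux β) = 0) := by
      intro E
      rw [Prod.mk.injEq, decide_eq_true_iff, sh3, aux_sh hp, ← sub_sub, hp _ _ (two_phi1 β _),
        dig_sh he, and_comm]
      constructor
      · rintro ⟨h, h'⟩
        obtain rfl := (h1 g).unique h hD
        exact ⟨rfl, h'⟩
      · rintro ⟨rfl, h'⟩; exact ⟨hD, h'⟩
    have a3 : ∀ E : ZMod 4, (decide (val (g - sh3 β (false, E)) (.aux β) = 0),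
        p.dig β (val (g - sh3 β (false, E)) .two)) = (false, E) ↔
        (E = D' ∧ val (g - ((kap3 D').val : ℤ) • p.T β - p.phi3 β (par D')) (.aux β) ≠ 0) := by
      intro E
      rw [Prod.mk.injEq, decide_eq_false_iff_not, sh3, aux_sh hp, ← sub_sub,
        hp _ _ (two_phi3 β _), dig_sh he, and_comm]
      constructor
      · rintro ⟨h, h'⟩
        obtain rfl := (s1_odd h1 g).unique h hD'
        exact ⟨rfl, h'⟩
      · rintro ⟨rfl, h'⟩; exact ⟨hD', h'⟩
    refine (fix_iff (fun h : p.V => (decide (h (.aux β) = 0), p.dig β (h .two)))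
      fun w => val (g - sh3 β w)).trans ⟨fun h => ⟨fun hx => ?_, fun hy => ?_⟩, fun h => ?_⟩
    · by_contra hy
      have := h.unique ((a1 D).2 ⟨rfl, hx⟩) ((a3 D').2 ⟨rfl, hy⟩)
      exact absurd (congrArg Prod.fst this) (by simp)
    · obtain ⟨⟨_ | _, E⟩, hE, -⟩ := h
      · exact absurd hy ((a3 E).1 hE).2
      · exact ((a1 E).1 hE).2
    · by_cases hx : val (g - ((kap1 D).val : ℤ) • p.T β - p.phi1 β (par D)) (.aux β) = 0
      · refine ⟨(true, D), (a1 D).2 ⟨rfl, hx⟩, ?_⟩
        rintro ⟨_ | _, E⟩ hE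
        · exact absurd (h.1 hx) ((a3 E).1 hE).2
        · rw [((a1 E).1 hE).1]
      · refine ⟨(false, D'), (a3 D').2 ⟨rfl, fun hy => hx (h.2 hy)⟩, ?_⟩
        rintro ⟨_ | _, E⟩ hE
        · rw [((a3 E).1 hE).1]
        · exact absurd ((a1 E).1 hE).2 hx
  constructor
  · intro hc g D D' hD hD'
    obtain ⟨c, hc'⟩ := ZMod.intCast_surjective
      (-val (g - ((kap1 D).val : ℤ) • p.T β - p.phi1 β (par D)) (.aux β))
    have e : ∀ k, dg val β (g + (0, 0, c * p.E (.aux β))) k = dg val β g k := by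
      intro k
      rw [dg, add_sub_right_comm, hp.add (two_aux β (dvd_zero _) (dvd_mul_left _ _)), dg]
    have e' : ∀ u φ : G3, val (g + (0, 0, c * p.E (.aux β)) - u - φ) (.aux β) =
        val (g - u - φ) (.aux β) + c := by
      intro u φ
      rw [add_sub_right_comm, add_sub_right_comm, stepE he (by nofun)]
    have := (key _ D D' (by rw [e, hD]) (by rw [e, hD'])).1 (hc (g + (0, 0, c * p.E (.aux β))))
    rw [e', e', hc'] at this
    exact (add_neg_eq_zero.1 (this.1 (add_neg_cancel _))).symm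
  · intro h g
    obtain ⟨D, hD, -⟩ := h1 g
    obtain ⟨D', hD', -⟩ := s1_odd h1 g
    rw [key g D D' hD hD', h g D D' hD hD']

/-- a function on four digits -/
def fn4 (a b c d : ZMod 4) (k : ZMod 4) : ZMod 4 :=
  if k = 0 then a else if k = 1 then b else if k = 2 then c else d

theorem fn4_eq (f : ZMod 4 → ZMod 4) : fn4 (f 0) (f 1) (f 2) (f 3) = f := by
  funext k
  have : k = 0 ∨ k = 1 ∨ k = 2 ∨ k = 3 := by revert k; decide
  rcases this with rfl | rfl | rfl | rfl <;> rfl

theorem fin_flip0 : ∀ a b c d : ZMod 4, (∃! D, fn4 a b c d (kap1 D) = sig1 D) →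
    (∃! D, fn4 a b c d (kap3 D) = sig3 D) → (∀ e, ∃! D, fn4 a b c d D + e = 2 * D) →
    ∃ (r : Bool) (k0 k2 : ZMod 4), ∀ D, ∃ D',
      fn4 a b c d (kap3 D') + (sig1 D - fn4 a b c d (kap1 D)) = sig3 D' ∧
      kap3 D' = (if kap1 D = 0 then k0 else k2) ∧
      par D' = xor (par D) (xor r (decide (kap1 D = 2))) := by
  unfold ExistsUnique
  decide +kernel

theorem fin_flip (f : ZMod 4 → ZMod 4) : (∃! D, f (kap1 D) = sig1 D) →
    (∃! D, f (kap3 D) = sig3 D) → (∀ e, ∃! D, f D + e = 2 * D) →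
    ∃ (r : Bool) (k0 k2 : ZMod 4), ∀ D, ∃ D',
      f (kap3 D') + (sig1 D - f (kap1 D)) = sig3 D' ∧
      kap3 D' = (if kap1 D = 0 then k0 else k2) ∧
      par D' = xor (par D) (xor r (decide (kap1 D = 2))) := by
  have := fin_flip0 (f 0) (f 1) (f 2) (f 3)
  rwa [fn4_eq] at this

theorem bl_of (he : Equivar p.P p.emb val) (β : Bit p.L) (u w : G3) (r : Bool)
    (h0 : val (u - p.phi1 β false) (.aux β) = val (w - p.phi3 β r) (.aux β))
    (h1 : val (u - p.phi1 β true) (.aux β) = val (w - p.phi3 β (!r)) (.aux β)) :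
    Bl val 0 (.aux β) r u := by
  have e1 : val (u - p.phi1 β true) (.aux β) =
      val (u - p.bsh 0 (.aux β) false) (.aux β) + ((-1 : ℤ) : ZMod _) := by
    rw [← stepE he (by nofun)]
    congr 1
    ext <;> simp [phi1, bsh, sub_eq_add_neg]
  have e3 : val (w - p.phi3 β true) (.aux β) =
      val (w - p.phi3 β false) (.aux β) + ((-1 : ℤ) : ZMod _) := by
    rw [← stepE he (by nofun)]
    congr 1
    ext <;> simp [phi3, sub_eq_add_neg]
  have e0 : u - p.phi1 β false = u := sub_zero u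
  rw [e0] at h0
  push_cast at e1 e3
  cases r
  · simp only [Bl, Lt, Bool.not_false] at h1 ⊢
    linear_combination h1 - e1 + e3 - h0
  · rw [bl_true_iff he (by nofun)]
    simp only [Bool.not_true] at h1
    linear_combination h1 - e1 - e3 - h0

end EncS

open Enc EncS

/-- the two-adic rules are a finite family of constraints -/
theorem expr_special (p : Params) : Expr (p := p) Special := by
  refine ⟨Bit p.L ⊕ Bit p.L ⊕ Bit p.L, inferInstance,
    Sum.elim (fun β h => sh kap1 sig1 β (p.dig β (h .two)))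
      (Sum.elim (fun β h => sh id (fun D => 2 * D) β (p.dig β (h .two)))
        fun β h => sh3 β (decide (h (.aux β) = 0), p.dig β (h .two))), fun val he hp => ?_⟩
  rw [Sum.forall, Sum.forall]
  constructor
  · exact fun h => ⟨fun β => (cons_sh he kap1 sig1 β).2 (h.s1 β),
      fun β => (cons_sh he id (fun D => 2 * D) β).2 (h.s2 β),
      fun β => (cons_sh3 he hp β (h.s1 β)).2 (h.s3 β)⟩
  · rintro ⟨h1, h2, h3⟩
    have s1 := fun β => (cons_sh he kap1 sig1 β).1 (h1 β)
    exact ⟨s1, fun β => (cons_sh he id (fun D => 2 * D) β).1 (h2 β),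
      fun β => (cons_sh3 he hp β (s1 β)).1 (h3 β)⟩

/-- the two-adic rules force every bit to alternate -/
theorem flip {p : Params} {val : G3 → p.V} (he : Equivar p.P p.emb val) (hp : Periods val)
    (hs : Special val) (β : Bit p.L) (g : G3) :
    (Bl val 0 (.aux β) false g ∧ Bl val 0 (.aux β) true (g - (2 : ℤ) • p.T β)) ∨
    (Bl val 0 (.aux β) true g ∧ Bl val 0 (.aux β) false (g - (2 : ℤ) • p.T β)) := by
  obtain ⟨r, k0, k2, h⟩ := fin_flip (dg val β g) (hs.s1 β g) (s1_odd (hs.s1 β) g) (by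
    intro e
    obtain ⟨c, rfl⟩ := ZMod.intCast_surjective e
    simpa only [dg_vt he] using hs.s2 β (g + vt β c))
  have key : ∀ D, val (g - ((kap1 D).val : ℤ) • p.T β - p.phi1 β (par D)) (.aux β) =
      val (g - (((if kap1 D = 0 then k0 else k2 : ZMod 4)).val : ℤ) • p.T β -
        p.phi3 β (xor (par D) (xor r (decide (kap1 D = 2))))) (.aux β) := by
    intro D
    obtain ⟨D', h1, h2, h3⟩ := h D
    obtain ⟨c, hc⟩ := ZMod.intCast_surjective (sig1 D - dg val β g (kap1 D))
    have := hs.s3 β (g + vt β c) D D' (by rw [dg_vt he, hc, add_sub_cancel])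
      (by rw [dg_vt he, hc, h1])
    rw [add_sub_right_comm, add_sub_right_comm _ (vt β c), hp.add (aux_vt β c),
      add_sub_right_comm, add_sub_right_comm _ (vt β c), hp.add (aux_vt β c), h2, h3] at this
    exact this
  have a0 := key 0
  have a2 := key 2
  have a3 := key 3
  have a1 := key 1
  rw [show kap1 0 = 0 by decide, show par 0 = false by decide] at a0
  rw [show kap1 2 = 0 by decide, show par 2 = true by decide] at a2
  rw [show kap1 3 = 2 by decide, show par 3 = false by decide] at a3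
  rw [show kap1 1 = 2 by decide, show par 1 = true by decide] at a1
  rw [show ((0 : ZMod 4).val : ℤ) = 0 from rfl, zero_smul, sub_zero,
    show decide ((0 : ZMod 4) = 2) = false by decide] at a0 a2
  rw [show ((2 : ZMod 4).val : ℤ) = 2 from rfl,
    show decide ((2 : ZMod 4) = 2) = true by decide] at a3 a1
  cases r
  · exact Or.inl ⟨bl_of he β _ _ false a0 a2, bl_of he β _ _ true a3 a1⟩
  · exact Or.inr ⟨bl_of he β _ _ true a0 a2, bl_of he β _ _ false a3 a1⟩

end Params
end Vale.Agent.P043
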