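import Mathlib
import Vale.Agent.P043.Basic
import Vale.Agent.P043.Coloring

namespace Vale.Agent.P043

/-- cast of an integer vector to a real vector -/
def cv {d : ℕ} (x : Fin d → ℤ) : Fin d → ℝ := fun l => (x l : ℝ)

/-- every unit cube overlaps a unit cube at some `a + t` -/
def CovC {d : ℕ} (A : Set (Fin d → ℝ)) (T : Finset (Fin d → ℤ)) : Prop :=
  ∀ x : Fin d → ℝ, ∃ a ∈ A, ∃ t ∈ T, ∀ l, |a l + (t l : ℝ) - x l| < 1

/-- unit cubes of different translates do not overlap -/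
def DisC {d : ℕ} (A : Set (Fin d → ℝ)) (T : Finset (Fin d → ℤ)) : Prop :=
  ∀ a ∈ A, ∀ b ∈ A, a ≠ b → ∀ t ∈ T, ∀ s ∈ T, ∃ l, 1 ≤ |a l + (t l : ℝ) - (b l + (s l : ℝ))|

theorem cv_add {d : ℕ} (x y : Fin d → ℤ) : cv (x + y) = cv x + cv y := by
  funext l
  simp [cv]

theorem cv_sub {d : ℕ} (x y : Fin d → ℤ) : cv (x - y) = cv x - cv y := by
  funext l
  simp [cv]

theorem rigid_round (δ : ℝ) :
    ∃ w : ℤ, |(w : ℝ) - δ| < 1 ∧ (δ ≠ 0 → w ≠ 0) ∧ ∀ n : ℤ, |δ| ≤ n → |w| ≤ n := by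
  rcases le_total 0 δ with h | h
  · have h1 := Int.le_ceil δ
    have h2 := Int.ceil_lt_add_one δ
    refine ⟨⌈δ⌉, abs_lt.2 ⟨by linarith, by linarith⟩, fun h0 hw => h0 ?_, fun n hn => ?_⟩
    · rw [hw] at h1
      exact le_antisymm (by simpa using h1) h
    · rw [abs_of_nonneg h] at hn
      rw [abs_of_nonneg (Int.ceil_nonneg h)]
      exact Int.ceil_le.2 hn
  · have h1 := Int.floor_le δ
    have h2 := Int.lt_floor_add_one δ
    refine ⟨⌊δ⌋, abs_lt.2 ⟨by linarith, by linarith⟩, fun h0 hw => h0 ?_, fun n hn => ?_⟩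
    · rw [hw] at h1
      exact le_antisymm h (by simpa using h1)
    · rw [abs_of_nonpos h] at hn
      rw [abs_of_nonpos (Int.floor_nonpos h), neg_le]
      exact Int.le_floor.2 (by push_cast; linarith)

section Core
variable {d : ℕ} {C : Type} {F : C → Finset (Fin d → ℤ)} {c : (Fin d → ℤ) → C} {K M : ℕ}
  {T : Finset (Fin d → ℤ)}

theorem rigid_tiles (hK : 0 < K)
    (hT : ∀ t, t ∈ T ↔ ∃ x : Fin d → ℤ, (∀ l, 0 ≤ x l ∧ x l < K) ∧ ∃ f ∈ F (c x), t = (K : ℤ) • f + x)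
    {A : Set (Fin d → ℤ)} (hA : ∀ k, TilesF A (F k)) :
    TilesF ((fun a => (K : ℤ) • a) '' A) T := by
  intro g
  have hK' : (0 : ℤ) < K := by exact_mod_cast hK
  obtain ⟨f, ⟨hf1, hf2⟩, hf3⟩ := hA (c fun l => g l % K) fun l => g l / K
  refine ⟨(K : ℤ) • f + fun l => g l % K, ⟨(hT _).2 ⟨_, fun l =>
    ⟨Int.emod_nonneg _ hK'.ne', Int.emod_lt_of_pos _ hK'⟩, f, hf1, rfl⟩, _, hf2, ?_⟩, ?_⟩
  · funext l
    have := Int.mul_ediv_add_emod (g l) K
    simp only [Pi.smul_apply, Pi.sub_apply, Pi.add_apply, smul_eq_mul]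
    linarith
  · rintro t ⟨ht, a, ha, hat⟩
    obtain ⟨x, hx, f', hf', rfl⟩ := (hT t).1 ht
    have key : ∀ l, g l / K = a l + f' l ∧ g l % K = x l := fun l => by
      have := congrFun hat l
      simp only [Pi.smul_apply, Pi.sub_apply, Pi.add_apply, smul_eq_mul] at this
      exact (Int.ediv_emod_unique hK').2 ⟨by linarith, (hx l).1, (hx l).2⟩
    have e1 : (fun l => g l % K) = x := funext fun l => (key l).2
    have e2 : (fun l => g l / K) - f' = a := funext fun l => by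
      simp [(key l).1]
    rw [e1] at hf3 ⊢
    rw [hf3 f' ⟨hf', e2 ▸ ha⟩]

/-- A translate of the piece of colour `k` has its base point at `h`. -/
def Piece (A : Set (Fin d → ℝ)) (F : C → Finset (Fin d → ℤ)) (K : ℕ) (h : Fin d → ℝ) (k : C) :
    Prop := ∃ a ∈ A, ∃ f ∈ F k, h = a + (K : ℝ) • cv f

theorem rigid_overlap (hK : 4 * M + 4 ≤ K)
    (hT : ∀ t, t ∈ T ↔ ∃ x : Fin d → ℤ, (∀ l, 0 ≤ x l ∧ x l < K) ∧ ∃ f ∈ F (c x), t = (K : ℤ) • f + x)
    (h1 : ∀ (i j : C) (h : Fin d → ℤ), h ≠ 0 → (∀ l, 2 * |h l| ≤ K + 2 * M + 2) →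
      ∃ x : Fin d → ℤ, (∀ l, 0 ≤ x l ∧ x l < K ∧ 0 ≤ x l + h l ∧ x l + h l < K) ∧
        c x = i ∧ c (x + h) = j)
    {A : Set (Fin d → ℝ)} (hD : DisC A T) {h h' : Fin d → ℝ} {k k' : C} (p : Piece A F K h k)
    (p' : Piece A F K h' k')
    (hb : ∀ l, ∃ n : ℤ, |h' l - h l| ≤ n ∧ 2 * n ≤ K + 2 * M + 2) : h' = h := by
  by_contra hne
  obtain ⟨l₀, hl₀⟩ := Function.ne_iff.1 hne
  choose w w1 w2 w3 using fun l => rigid_round (h' l - h l)
  obtain ⟨x, hx, c1, c2⟩ := h1 k' k w (Function.ne_iff.2 ⟨l₀, w2 l₀ (sub_ne_zero.2 hl₀)⟩) fun l => by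
    obtain ⟨n, n1, n2⟩ := hb l
    have := w3 l n n1
    linarith
  obtain ⟨a, ha, f, hf, rfl⟩ := p
  obtain ⟨a', ha', f', hf', rfl⟩ := p'
  by_cases haa : a = a'
  · subst haa
    obtain ⟨n, n1, n2⟩ := hb l₀
    simp only [Pi.add_apply, Pi.smul_apply, smul_eq_mul, cv, ne_eq, add_right_inj,
      add_sub_add_left_eq_sub] at hl₀ n1
    have a1 : f' l₀ - f l₀ ≠ 0 := fun e => hl₀ (by rw [sub_eq_zero.1 e])
    have a2 : (1 : ℤ) ≤ |f' l₀ - f l₀| := Int.one_le_abs a1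
    rw [← mul_sub, abs_mul, abs_of_nonneg (Nat.cast_nonneg (α := ℝ) K)] at n1
    have a3 : (K : ℤ) * |f' l₀ - f l₀| ≤ n := by exact_mod_cast n1
    have a4 : (4 * M + 4 : ℤ) ≤ K := by exact_mod_cast hK
    nlinarith
  · obtain ⟨l, hl⟩ := hD a ha a' ha' haa ((K : ℤ) • f + (x + w))
      ((hT _).2 ⟨x + w, fun l => ⟨(hx l).2.2.1, (hx l).2.2.2⟩, f, c2 ▸ hf, rfl⟩) ((K : ℤ) • f' + x)
      ((hT _).2 ⟨x, fun l => ⟨(hx l).1, (hx l).2.1⟩, f', c1 ▸ hf', rfl⟩)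
    have := w1 l
    simp only [Pi.add_apply, Pi.smul_apply, smul_eq_mul, cv] at hl this
    push_cast at hl
    rw [show a l + (K * (f l : ℝ) + (x l + w l)) - (a' l + (K * f' l + x l)) =
      w l - (a' l + K * f' l - (a l + K * f l)) by ring] at hl
    linarith

theorem rigid_core (hK : 4 * M + 4 ≤ K)
    (hT : ∀ t, t ∈ T ↔ ∃ x : Fin d → ℤ, (∀ l, 0 ≤ x l ∧ x l < K) ∧ ∃ f ∈ F (c x), t = (K : ℤ) • f + x)
    (h1 : ∀ (i j : C) (h : Fin d → ℤ), h ≠ 0 → (∀ l, 2 * |h l| ≤ K + 2 * M + 2) →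
      ∃ x : Fin d → ℤ, (∀ l, 0 ≤ x l ∧ x l < K ∧ 0 ≤ x l + h l ∧ x l + h l < K) ∧
        c x = i ∧ c (x + h) = j)
    (h2 : ∀ i : C, ∃ x : Fin d → ℤ, (∀ l, (K : ℤ) ≤ 2 * x l ∧ 2 * x l < K + 2 * M) ∧ c x = i)
    (k₀ : C) (hs : ∀ (i : Fin d) (s : ℤ), s = 1 ∨ s = -1 →
      ∃ k, ∀ f ∈ F k₀, f + Pi.single i s ∈ F k)
    {A : Set (Fin d → ℝ)} (hC : CovC A T) (hD : DisC A T) : ∃ h0 : Fin d → ℝ,
      (∀ a ∈ A, ∃ g : Fin d → ℤ, a = h0 + (K : ℝ) • cv g) ∧
      ∀ k, TilesF {g : Fin d → ℤ | h0 + (K : ℝ) • cv g ∈ A} (F k) := by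
  have hK4 : (4 * M + 4 : ℤ) ≤ K := by exact_mod_cast hK
  have hM0 : (0 : ℤ) ≤ M := Int.natCast_nonneg M
  have hKR : (0 : ℝ) < K := by
    have : 0 < K := by omega
    exact_mod_cast this
  have claim1 : ∀ h k k', Piece A F K h k → Piece A F K h k' := by
    intro h k k' p
    obtain ⟨x, hx, rfl⟩ := h2 k'
    obtain ⟨a, ha, t, ht, hat⟩ := hC (h + cv x)
    obtain ⟨x', hx', f, hf, rfl⟩ := (hT t).1 ht
    have p' : Piece A F K (a + (K : ℝ) • cv f) (c x') := ⟨a, ha, f, hf, rfl⟩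
    have hat' : ∀ l, |(a + (K : ℝ) • cv f) l - h l + ((x' l - x l : ℤ) : ℝ)| < 1 := fun l => by
      have := hat l
      simp only [Pi.add_apply, Pi.smul_apply, smul_eq_mul, cv] at this ⊢
      push_cast at this ⊢
      rwa [show a l + K * (f l : ℝ) - h l + (x' l - x l) = a l + (K * f l + x' l) - (h l + x l) by
        ring]
    have e := rigid_overlap hK hT h1 hD p p' fun l => ⟨|x' l - x l| + 1, by
      have a1 := hat' l
      have a2 := abs_sub ((a + (K : ℝ) • cv f) l - h l + ((x' l - x l : ℤ) : ℝ))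
        ((x' l - x l : ℤ) : ℝ)
      rw [add_sub_cancel_right] at a2
      rw [Int.cast_add, Int.cast_abs, Int.cast_one]
      linarith, by
      have a1 := hx l
      have a2 := hx' l
      rcases abs_cases (x' l - x l) with a3 | a3 <;> omega⟩
    have e2 : x' = x := funext fun l => by
      have a1 := hat' l
      rw [e, sub_self, zero_add, ← Int.cast_abs] at a1
      have a2 : |x' l - x l| < 1 := by exact_mod_cast a1
      exact sub_eq_zero.1 (Int.abs_lt_one_iff.1 a2)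
    rw [← e, ← e2]
    exact p'
  have step : ∀ (i : Fin d) (s : ℤ), s = 1 ∨ s = -1 → ∀ h, Piece A F K h k₀ →
      Piece A F K (h + (K : ℝ) • cv (Pi.single i s)) k₀ := by
    rintro i s hs' h ⟨a, ha, f, hf, rfl⟩
    obtain ⟨k, hk⟩ := hs i s hs'
    exact claim1 _ k _ ⟨a, ha, _, hk f hf, by rw [cv_add, smul_add, add_assoc]⟩
  have cv0 : cv (0 : Fin d → ℤ) = 0 := funext fun l => by simp [cv]
  have claim2 : ∀ g : Fin d → ℤ, ∀ h, Piece A F K h k₀ → Piece A F K (h + (K : ℝ) • cv g) k₀ := by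
    intro g
    rw [← Finset.univ_sum_single g]
    refine Finset.sum_induction _
      (fun g => ∀ h, Piece A F K h k₀ → Piece A F K (h + (K : ℝ) • cv g) k₀)
      (fun g g' a1 a2 h p => ?_) (fun h p => ?_) fun i _ => ?_
    · rw [cv_add, smul_add, ← add_assoc]
      exact a2 _ (a1 _ p)
    · rwa [cv0, smul_zero, add_zero]
    · induction g i using Int.induction_on with
      | zero => intro h p; rwa [Pi.single_zero, cv0, smul_zero, add_zero]
      | succ n ih =>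
        intro h p
        rw [Pi.single_add, cv_add, smul_add, ← add_assoc]
        exact step i 1 (Or.inl rfl) _ (ih h p)
      | pred n ih =>
        intro h p
        rw [sub_eq_add_neg, Pi.single_add, cv_add, smul_add, ← add_assoc]
        exact step i (-1) (Or.inr rfl) _ (ih h p)
  obtain ⟨a₀, ha₀, t₀, ht₀, -⟩ := hC 0
  obtain ⟨x₀, -, f₀, hf₀, -⟩ := (hT t₀).1 ht₀
  have p₀ : Piece A F K (a₀ + (K : ℝ) • cv f₀) k₀ := claim1 _ _ _ ⟨a₀, ha₀, f₀, hf₀, rfl⟩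
  set h0 := a₀ + (K : ℝ) • cv f₀ with hh0
  refine ⟨h0, fun a ha => ?_, fun k g => ?_⟩
  · have p : Piece A F K (a + (K : ℝ) • cv f₀) (c x₀) := ⟨a, ha, f₀, hf₀, rfl⟩
    set h' := a + (K : ℝ) • cv f₀ with hh'
    set g : Fin d → ℤ := fun l => round ((h' l - h0 l) / K) with hg
    have e := rigid_overlap hK hT h1 hD (claim2 g h0 p₀) p fun l => ⟨K / 2 + 1, by
      have a1 := abs_sub_round ((h' l - h0 l) / K)
      have a2 : h' l - (h0 + (K : ℝ) • cv g) l = K * ((h' l - h0 l) / K - g l) := by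
        simp only [Pi.add_apply, Pi.smul_apply, smul_eq_mul, cv]
        field_simp
        ring
      have a3 : (K : ℤ) ≤ 2 * ((K : ℤ) / 2 + 1) := by omega
      have a4 : (K : ℝ) ≤ 2 * (((K : ℤ) / 2 + 1 : ℤ) : ℝ) := by exact_mod_cast a3
      rw [a2, abs_mul, abs_of_pos hKR]
      have a5 := mul_le_mul_of_nonneg_left a1 hKR.le
      linarith, by omega⟩
    refine ⟨g - f₀, ?_⟩
    rw [cv_sub, smul_sub, ← add_sub_assoc, ← e, hh', add_sub_cancel_right]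
  · obtain ⟨a, ha, f, hf, e⟩ := claim1 _ _ k (claim2 g h0 p₀)
    have key : ∀ f : Fin d → ℤ, h0 + (K : ℝ) • cv (g - f) = h0 + (K : ℝ) • cv g - (K : ℝ) • cv f :=
      fun f => by rw [cv_sub, smul_sub, add_sub_assoc]
    have hfa : h0 + (K : ℝ) • cv (g - f) = a := by rw [key, e, add_sub_cancel_right]
    refine ⟨f, ⟨hf, ?_⟩, ?_⟩
    · rw [Set.mem_ofPred_eq, hfa]
      exact ha
    · rintro f' ⟨hf', ha'⟩
      by_contra hne
      obtain ⟨x, hx, hc⟩ := h2 k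
      have hx' : ∀ l, 0 ≤ x l ∧ x l < K := fun l => by
        have := hx l
        omega
      obtain ⟨l, hl⟩ := hD _ ha' a ha (fun e' => hne (by
          rw [← hfa, add_right_inj] at e'
          funext l
          have := congrFun e' l
          simp only [Pi.smul_apply, smul_eq_mul, cv, Pi.sub_apply] at this
          have := mul_left_cancel₀ hKR.ne' this
          have : g l - f' l = g l - f l := by exact_mod_cast this
          omega))
        ((K : ℤ) • f' + x) ((hT _).2 ⟨x, hx', f', hc ▸ hf', rfl⟩)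
        ((K : ℤ) • f + x) ((hT _).2 ⟨x, hx', f, hc ▸ hf, rfl⟩)
      rw [← hfa] at hl
      simp only [Pi.add_apply, Pi.smul_apply, smul_eq_mul, cv, Pi.sub_apply] at hl
      push_cast at hl
      rw [show h0 l + K * ((g l : ℝ) - f' l) + (K * f' l + x l) -
        (h0 l + K * (g l - f l) + (K * f l + x l)) = 0 by ring, abs_zero] at hl
      linarith

end Core

/-- Rigid encoding of a finite system of tiles into one tile. -/
theorem rigid (d : ℕ) (hd : 0 < d) (M : ℕ) (hM : 0 < M) (F : Fin M → Finset (Fin d → ℤ)) :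
    ∃ (K : ℕ) (T : Finset (Fin d → ℤ)), 0 < K ∧
      (∀ A : Set (Fin d → ℤ), (∀ k, TilesF A (F k)) → ∃ B : Set (Fin d → ℤ), TilesF B T) ∧
      ∀ A : Set (Fin d → ℝ), CovC A T → DisC A T → ∃ h0 : Fin d → ℝ,
        (∀ a ∈ A, ∃ g : Fin d → ℤ, a = h0 + (K : ℝ) • cv g) ∧
        ∀ k, TilesF {g : Fin d → ℤ | h0 + (K : ℝ) • cv g ∈ A} (F k) := by
  classical
  set k₀ : Fin M := ⟨0, hM⟩ with hk₀
  set F' : Fin M ⊕ (Fin d × Bool) → Finset (Fin d → ℤ) := Sum.elim F fun p =>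
    (F k₀).image fun f => f + Pi.single p.1 (if p.2 then 1 else -1) with hF'
  have : NeZero (M + 2 * d) := ⟨by omega⟩
  obtain ⟨e⟩ : Nonempty (ZMod (M + 2 * d) ≃ Fin M ⊕ (Fin d × Bool)) :=
    ⟨Fintype.equivOfCardEq (by simp [ZMod.card, mul_comm])⟩
  obtain ⟨K, c, hK, h1, h2⟩ := coloringD d (M + 2 * d) hd (by omega)
  set T : Finset (Fin d → ℤ) := (Fintype.piFinset fun _ => Finset.Ico (0 : ℤ) K).biUnion
    fun x => (F' (e (c x))).image fun f => (K : ℤ) • f + x with hTdef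
  have hT : ∀ t, t ∈ T ↔ ∃ x : Fin d → ℤ, (∀ l, 0 ≤ x l ∧ x l < K) ∧
      ∃ f ∈ F' (e (c x)), t = (K : ℤ) • f + x := fun t => by
    simp only [hTdef, Finset.mem_biUnion, Fintype.mem_piFinset, Finset.mem_Ico, Finset.mem_image,
      eq_comm]
  refine ⟨K, T, by omega, fun A hA => ⟨_, rigid_tiles (c := fun x => e (c x)) (A := A)
    (by omega) hT ?_⟩, fun A hC hD => ?_⟩
  · rintro (k | p)
    · exact hA k
    · intro g
      obtain ⟨f, ⟨a1, a2⟩, a3⟩ := hA k₀ (g - Pi.single p.1 (if p.2 then 1 else -1))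
      refine ⟨f + Pi.single p.1 (if p.2 then 1 else -1), ⟨Finset.mem_image_of_mem _ a1, ?_⟩, ?_⟩
      · rwa [add_comm, ← sub_sub]
      · rintro _ ⟨b1, b2⟩
        obtain ⟨f', b3, rfl⟩ := Finset.mem_image.1 b1
        rw [add_comm, ← sub_sub] at b2
        rw [a3 f' ⟨b3, b2⟩]
  · obtain ⟨h0, a1, a2⟩ := rigid_core (c := fun x => e (c x)) hK hT (fun i j h hh hb => by
        obtain ⟨x, x1, x2, x3⟩ := h1 (e.symm i) (e.symm j) h hh hb
        exact ⟨x, x1, by rw [x2, e.apply_symm_apply], by rw [x3, e.apply_symm_apply]⟩)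
      (fun i => by
        obtain ⟨x, x1, x2⟩ := h2 (e.symm i)
        exact ⟨x, x1, by rw [x2, e.apply_symm_apply]⟩) (Sum.inl k₀) (fun i s hs => by
        rcases hs with rfl | rfl
        · exact ⟨Sum.inr (i, true), fun f hf => Finset.mem_image_of_mem _ hf⟩
        · exact ⟨Sum.inr (i, false), fun f hf => Finset.mem_image_of_mem _ hf⟩) hC hD
    exact ⟨h0, a1, fun k => a2 (Sum.inl k)⟩

end Vale.Agent.P043
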