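import Mathlib
import Vale.Agent.P043.Defs
import Vale.Agent.P043.Basic
import Vale.Agent.P043.Rigid

open MeasureTheory

namespace Vale.Agent.P043

/-- union of the half-open unit cubes at the points of `T` -/
def cubes {d : ℕ} (T : Finset (Fin d → ℤ)) : Set (Fin d → ℝ) :=
  {x | (fun l => ⌊x l⌋) ∈ T}

namespace EuclidAux

lemma box_pos {d : ℕ} {a b : Fin d → ℝ} (h : ∀ l, a l < b l) :
    0 < volume (Set.pi Set.univ fun l => Set.Ioo (a l) (b l)) :=
  (isOpen_set_pi Set.finite_univ fun _ _ => isOpen_Ioo).measure_pos _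
    (Set.univ_pi_nonempty_iff.2 fun l => Set.nonempty_Ioo.2 (h l))

lemma mem_tr {d : ℕ} {T : Finset (Fin d → ℤ)} {a y : Fin d → ℝ} :
    y ∈ (fun x => x + a) '' cubes T ↔ (fun l => ⌊y l - a l⌋) ∈ T := by
  constructor
  · rintro ⟨x, hx, rfl⟩
    simpa [cubes] using hx
  · intro h
    exact ⟨y - a, h, by simp⟩

lemma mem_tr_of {d : ℕ} {T : Finset (Fin d → ℤ)} {a y : Fin d → ℝ} {t : Fin d → ℤ} (ht : t ∈ T)
    (h : ∀ l, a l + t l ≤ y l ∧ y l < a l + t l + 1) : y ∈ (fun x => x + a) '' cubes T := by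
  rw [mem_tr]
  have : (fun l => ⌊y l - a l⌋) = t := by
    funext l
    rw [Int.floor_eq_iff]
    constructor <;> linarith [h l]
  rwa [this]

lemma aper_of_retract {G G' : Type} [AddCommGroup G] [AddCommGroup G'] (ι : G →+ G') (π : G' →+ G)
    (hπ : ∀ g, π (ι g) = g) (h : AperSystem G) : AperSystem G' := by
  classical
  obtain ⟨M, F, ⟨A, hA⟩, hap⟩ := h
  have hinj : Function.Injective ι := Function.LeftInverse.injective hπ
  refine ⟨M, fun k => (F k).image ι, ⟨π ⁻¹' A, fun k g => ?_⟩, fun A' hA' D hD hper => ?_⟩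
  · obtain ⟨f, ⟨h1, h2⟩, hu⟩ := hA k (π g)
    refine ⟨ι f, ⟨Finset.mem_image_of_mem _ h1, by simpa [hπ] using h2⟩, ?_⟩
    rintro f' ⟨h3, h4⟩
    obtain ⟨f0, h5, rfl⟩ := Finset.mem_image.1 h3
    rw [hu f0 ⟨h5, by simpa [hπ] using h4⟩]
  · refine hap (ι ⁻¹' A') (fun k g => ?_) D hD fun a ha u => ?_
    · obtain ⟨f', ⟨h1, h2⟩, hu⟩ := hA' k (ι g)
      obtain ⟨f, h3, rfl⟩ := Finset.mem_image.1 h1
      refine ⟨f, ⟨h3, by simpa using h2⟩, ?_⟩
      rintro f0 ⟨h4, h5⟩
      exact hinj (hu (ι f0) ⟨Finset.mem_image_of_mem _ h4, by simpa using h5⟩)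
    · simpa using hper _ ha (ι u)

end EuclidAux

open EuclidAux

theorem cubes_bounded {d : ℕ} (T : Finset (Fin d → ℤ)) : Bornology.IsBounded (cubes T) := by
  obtain ⟨C, hC⟩ := isBounded_iff_forall_norm_le.1 (T.finite_toSet.image cv).isBounded
  refine isBounded_iff_forall_norm_le.2 ⟨C + 1, fun x hx => ?_⟩
  have h1 := hC _ ⟨_, hx, rfl⟩
  have h2 : ‖x - cv fun l => ⌊x l⌋‖ ≤ 1 := by
    refine (pi_norm_le_iff_of_nonneg zero_le_one).2 fun l => ?_
    have a1 := Int.floor_le (x l)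
    have a2 := Int.lt_floor_add_one (x l)
    simp only [Pi.sub_apply, cv, Real.norm_eq_abs, abs_le]
    constructor <;> linarith
  have h3 := norm_add_le (cv fun l => ⌊x l⌋) (x - cv fun l => ⌊x l⌋)
  rw [add_sub_cancel] at h3
  linarith

theorem cubes_measurable {d : ℕ} (T : Finset (Fin d → ℤ)) : MeasurableSet (cubes T) :=
  (measurable_pi_lambda _ fun l => Int.measurable_floor.comp (measurable_pi_apply l))
    T.measurableSet

theorem cubes_pos {d : ℕ} (T : Finset (Fin d → ℤ)) (hT : T.Nonempty) : 0 < volume (cubes T) := by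
  obtain ⟨t, ht⟩ := hT
  refine (box_pos (a := cv t) (b := fun l => cv t l + 1) fun l => by linarith).trans_le
    (measure_mono fun y hy => ?_)
  have h := mem_tr_of (a := 0) (y := y) ht fun l => by
    have := hy l trivial
    simp only [Pi.zero_apply, zero_add]
    exact ⟨this.1.le, this.2⟩
  simpa using h

theorem tilesR_of_tilesF {d : ℕ} (T : Finset (Fin d → ℤ)) (B : Set (Fin d → ℤ))
    (hB : TilesF B T) : TilesR (cv '' B) (cubes T) := by
  have key : ∀ (y : Fin d → ℝ) (b : Fin d → ℤ),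
      (fun l => ⌊y l - cv b l⌋) = (fun l => ⌊y l⌋) - b := by
    intro y b
    funext l
    simp [cv]
  constructor
  · have : (⋃ a ∈ cv '' B, (fun x => x + a) '' cubes T) = Set.univ := by
      refine Set.eq_univ_of_forall fun y => ?_
      obtain ⟨f, ⟨h1, h2⟩, -⟩ := hB fun l => ⌊y l⌋
      refine Set.mem_biUnion (Set.mem_image_of_mem cv h2) ?_
      rw [mem_tr, key]
      simpa using h1
    rw [this, Set.compl_univ, measure_empty]
  · rintro _ ⟨b1, h1, rfl⟩ _ ⟨b2, h2, rfl⟩ hne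
    have : (fun x => x + cv b1) '' cubes T ∩ (fun x => x + cv b2) '' cubes T = ∅ := by
      refine Set.eq_empty_of_forall_notMem fun y hy => hne ?_
      obtain ⟨h3, h4⟩ := hy
      rw [mem_tr, key] at h3 h4
      have := (hB fun l => ⌊y l⌋).unique ⟨h3, by simpa using h1⟩ ⟨h4, by simpa using h2⟩
      rw [sub_right_injective this]
    rw [this, measure_empty]

theorem disC_of_tilesR {d : ℕ} (T : Finset (Fin d → ℤ)) (A : Set (Fin d → ℝ))
    (hA : TilesR A (cubes T)) : DisC A T := by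
  intro a ha b hb hne t ht s hs
  by_contra hc
  push Not at hc
  refine (box_pos (a := fun l => max (a l + t l) (b l + s l))
    (b := fun l => min (a l + t l) (b l + s l) + 1) fun l => ?_).ne'
    (measure_mono_null (fun y hy => ?_) (hA.2 a ha b hb hne))
  · obtain ⟨h1, h2⟩ := abs_lt.1 (hc l)
    rcases le_total (a l + t l) (b l + s l) with h | h
    · rw [max_eq_right h, min_eq_left h]; linarith
    · rw [max_eq_left h, min_eq_right h]; linarith
  · have h : ∀ l, max (a l + t l) (b l + s l) < y l ∧ y l < min (a l + t l) (b l + s l) + 1 :=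
      fun l => hy l trivial
    exact ⟨mem_tr_of ht fun l => ⟨(le_max_left _ _).trans (h l).1.le,
        (h l).2.trans_le (by linarith [min_le_left (a l + t l) (b l + s l)])⟩,
      mem_tr_of hs fun l => ⟨(le_max_right _ _).trans (h l).1.le,
        (h l).2.trans_le (by linarith [min_le_right (a l + t l) (b l + s l)])⟩⟩

theorem covC_of_tilesR {d : ℕ} (T : Finset (Fin d → ℤ)) (hT : T.Nonempty) (A : Set (Fin d → ℝ))
    (hA : TilesR A (cubes T)) : CovC A T := by
  have _ := hT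
  intro x
  by_contra hc
  push Not at hc
  refine (box_pos (a := x) (b := fun l => x l + 1) fun l => by linarith).ne'
    (measure_mono_null (fun y hy => ?_) hA.1)
  intro hy'
  obtain ⟨a, ha, hya⟩ := Set.mem_iUnion₂.1 hy'
  obtain ⟨l, hl⟩ := hc a ha _ (mem_tr.1 hya)
  obtain ⟨h1, h2⟩ := hy l trivial
  have a1 := Int.floor_le (y l - a l)
  have a2 := Int.lt_floor_add_one (y l - a l)
  exact absurd hl (not_le.2 (abs_lt.2 ⟨by linarith, by linarith⟩))

theorem tiles_iff_tilesF {G : Type} [AddCommGroup G] (A : Set G) (F : Finset G) :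
    Tiles A (F : Set G) ↔ TilesF A F := by
  refine forall_congr' fun g => ⟨?_, ?_⟩
  · rintro ⟨⟨a, f⟩, ⟨h1, h2, h3⟩, hu⟩
    refine ⟨f, ⟨h2, by simpa [h3] using h1⟩, fun f' hf' => ?_⟩
    exact congrArg Prod.snd (hu (g - f', f') ⟨hf'.2, hf'.1, by simp⟩)
  · rintro ⟨f, ⟨h1, h2⟩, hu⟩
    refine ⟨(g - f, f), ⟨h2, h1, by simp⟩, ?_⟩
    rintro ⟨a, f'⟩ ⟨h3, h4, h5⟩
    have : f' = f := hu f' ⟨h4, by simpa [h5] using h3⟩
    subst this
    simp [h5]

theorem aperSystem_lift (h : AperSystem G3) (d : ℕ) (hd : 3 ≤ d) : AperSystem (Fin d → ℤ) := by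
  obtain ⟨n, rfl⟩ := Nat.exists_eq_add_of_le' hd
  refine aper_of_retract
    (AddMonoidHom.mk' (fun g l => if l.val = 0 then g.1 else if l.val = 1 then g.2.1 else
      if l.val = 2 then g.2.2 else 0) fun g g' => ?_)
    (AddMonoidHom.mk' (fun v => (v ⟨0, by omega⟩, v ⟨1, by omega⟩, v ⟨2, by omega⟩))
      fun _ _ => rfl) (fun g => by simp) h
  funext l
  simp only [Pi.add_apply, Prod.fst_add, Prod.snd_add]
  split_ifs <;> simp

/-- From an aperiodic system to an aperiodic single tile, in `ℤ^d` and in `ℝ^d`. -/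
theorem final_of_system (d : ℕ) (hd : 0 < d) (h : AperSystem (Fin d → ℤ)) :
    (∃ F : Finset (Fin d → ℤ), F.Nonempty ∧ (∃ A : Set (Fin d → ℤ), Tiles A (F : Set (Fin d → ℤ))) ∧
      ∀ A : Set (Fin d → ℤ), Tiles A (F : Set (Fin d → ℤ)) → ¬ Periodic A) ∧
    (∃ Ω : Set (Fin d → ℝ), Bornology.IsBounded Ω ∧ MeasurableSet Ω ∧ 0 < volume Ω ∧
      (∃ A : Set (Fin d → ℝ), TilesR A Ω) ∧ ∀ A : Set (Fin d → ℝ), TilesR A Ω → ¬ PeriodicR A) := by
  obtain ⟨M, F, ⟨A0, hA0⟩, hap⟩ := h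
  have hM : 0 < M := by
    by_contra hM
    have : M = 0 := by omega
    subst this
    exact hap Set.univ (fun k => k.elim0) 1 one_pos fun _ _ _ => trivial
  obtain ⟨K, T, hK, h1, h2⟩ := rigid d hd M hM F
  obtain ⟨B, hB⟩ := h1 A0 hA0
  have hT : T.Nonempty := let ⟨f, hf, _⟩ := hB 0; ⟨f, hf.1⟩
  have main : ∀ A : Set (Fin d → ℝ), TilesR A (cubes T) → ∀ D : ℕ, 0 < D →
      ¬ ∀ a ∈ A, ∀ u : Fin d → ℤ, a + (K : ℝ) • cv (D • u) ∈ A := by
    intro A hA D hD hper
    obtain ⟨h0, -, h4⟩ := h2 A (covC_of_tilesR T hT A hA) (disC_of_tilesR T A hA)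
    refine hap _ h4 D hD fun g hg u => ?_
    have := hper _ hg u
    have e : h0 + (K : ℝ) • cv (g + D • u) = h0 + (K : ℝ) • cv g + (K : ℝ) • cv (D • u) := by
      funext l
      simp [cv]
      ring
    simp only [Set.mem_ofPred_eq]
    rwa [e]
  refine ⟨⟨T, hT, ⟨B, (tiles_iff_tilesF B T).2 hB⟩, ?_⟩, cubes T, cubes_bounded T,
    cubes_measurable T, cubes_pos T hT, ⟨_, tilesR_of_tilesF T B hB⟩, ?_⟩
  · rintro A hA ⟨H, hH, hinv⟩
    refine main _ (tilesR_of_tilesF T A ((tiles_iff_tilesF A T).1 hA)) H.index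
      (Nat.pos_of_ne_zero hH.index_ne_zero) ?_
    rintro _ ⟨a, ha, rfl⟩ u
    refine ⟨a + H.index • (K • u), ?_, ?_⟩
    · rw [← hinv _ (H.nsmul_index_mem (K • u))]
      exact ⟨a, ha, rfl⟩
    · funext l
      simp [cv]
      ring
  · rintro A hA ⟨b, hinv⟩
    have hadd : ∀ v ∈ Submodule.span ℤ (Set.range b), ∀ a ∈ A, a + v ∈ A := by
      intro v hv a ha
      rw [← hinv v hv]
      exact ⟨a, ha, rfl⟩
    obtain ⟨h0, h3, -⟩ := h2 A (covC_of_tilesR T hT A hA) (disC_of_tilesR T A hA)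
    obtain ⟨a0, ha0, -⟩ := covC_of_tilesR T hT A hA 0
    have hβ : ∀ i, ∃ β : Fin d → ℤ, b i = (K : ℝ) • cv β := by
      intro i
      obtain ⟨g0, hg0⟩ := h3 a0 ha0
      obtain ⟨g1, hg1⟩ := h3 _ (hadd _ (Submodule.subset_span ⟨i, rfl⟩) a0 ha0)
      refine ⟨g1 - g0, ?_⟩
      funext l
      have e0 := congrFun hg0 l
      have e1 := congrFun hg1 l
      simp only [Pi.add_apply, Pi.smul_apply, cv, smul_eq_mul, Pi.sub_apply, Int.cast_sub] at e0 e1 ⊢
      linarith
    choose β hβ using hβ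
    set Bm : Matrix (Fin d) (Fin d) ℤ := Matrix.of β with hBm
    have hdet : Bm.det ≠ 0 := by
      intro h0
      have hu := (Pi.basisFun ℝ (Fin d)).isUnit_det b
      rw [Pi.basisFun_det_apply] at hu
      have e : Matrix.of (b : Fin d → Fin d → ℝ) = (K : ℝ) • Bm.map (Int.castRingHom ℝ) := by
        ext i l
        simp [hβ, cv, hBm]
      rw [e, Matrix.det_smul, ← RingHom.mapMatrix_apply, ← RingHom.map_det, h0] at hu
      simp at hu
    refine main A hA Bm.det.natAbs (Int.natAbs_pos.2 hdet) fun a ha u => hadd _ ?_ a ha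
    set c : Fin d → ℤ := Bm.det.sign • Matrix.vecMul u Bm.adjugate with hc
    have e1 : Matrix.vecMul c Bm = Bm.det.natAbs • u := by
      rw [hc, Matrix.smul_vecMul, Matrix.vecMul_vecMul, Matrix.adjugate_mul, Matrix.vecMul_smul,
        Matrix.vecMul_one, smul_smul, Int.sign_mul_self_eq_natAbs, natCast_zsmul]
    have e2 : (K : ℝ) • cv (Bm.det.natAbs • u) = ∑ i, c i • b i := by
      rw [← e1]
      funext l
      simp only [Pi.smul_apply, cv, Matrix.vecMul, dotProduct, smul_eq_mul, Finset.sum_apply, hβ,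
        zsmul_eq_mul, Pi.mul_apply, Pi.intCast_apply, hBm, Matrix.of_apply]
      push_cast
      rw [Finset.mul_sum]
      exact Finset.sum_congr rfl fun i _ => by ring
    rw [e2]
    exact Submodule.sum_mem _ fun i _ => Submodule.smul_mem _ _ (Submodule.subset_span ⟨i, rfl⟩)

end Vale.Agent.P043
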