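import Mathlib
import Vale.Agent.P043.Api

/-!
The intended colouring.
-/

namespace Vale.Agent.P043

/-- offset pattern `0,0,1,1` -/
def sfun (k : ZMod 4) : ℤ := if k = 0 ∨ k = 1 then 0 else 1

/-- bit pattern `0,1,1,0` -/
def role (k : ZMod 4) : Bool := decide (k = 1 ∨ k = 2)

/-- position of a site in the cycle of a bit -/
def pos {L : ℕ} : Bit L → G3 → ZMod 4
  | .tau, g => ((g.2.1 : ℤ) : ZMod 4)
  | .rho, g => ((g.2.1 / 4 : ℤ) : ZMod 4)
  | .mk l, g => ((g.1 / 4 ^ (l : ℕ) : ℤ) : ZMod 4)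

/-- intended value of a bit -/
def bitI {L : ℕ} (β : Bit L) (g : G3) : Bool := role (pos β g)

/-- the number written by the markers -/
def muI (L : ℕ) (g : G3) : ℤ :=
  ∑ l : Fin (L + 1), if bitI (.mk l : Bit L) g then ((l : ℕ) : ℤ) else 0

/-- intended value of the Sudoku Booleans -/
noncomputable def yI (n : Fin 22) (s : ZMod 11) (g : G3) : Bool :=
  decide (lastDigit (g.1 + ((n : ℕ) : ℤ) * g.2.1) = s)

namespace Params

variable (p : Params)

/-- intended value of the index selectors -/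
def srI (lam : Lam) (μ : Fin (p.L + 1)) (g : G3) : Bool :=
  decide (p.r lam ∣ ((μ : ℕ) : ℤ) - (g.2.2 / p.r lam - (g.2.2 - g.2.1) / p.r lam))

/-- intended Boolean of a coordinate -/
noncomputable def bI : Ix p.L → G3 → Bool
  | .aux β, g => bitI β g
  | .sq false μ, g => decide (((g.1 : ℤ) : ZMod 11) = μ)
  | .sq true μ, g => decide (((g.2.1 : ℤ) : ZMod 11) = μ)
  | .sr lam μ, g => p.srI lam μ g
  | .hyb none, g => bitI (.tau : Bit p.L) g && p.srI none 0 g
  | .hyb (some (n, s)), g =>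
      p.srI (some (n, s)) 0 g && (!bitI (.tau : Bit p.L) g || yI n s g)
  | .yy n s, g => yI n s g
  | _, _ => false

/-- intended integer value of a coordinate -/
noncomputable def iv : Ix p.L → G3 → ℤ
  | .two, g => g.2.2 - ∑ β : Bit p.L, 4 ^ expo β * sfun (pos β g)
  | .qq, g =>
      if bitI (.rho : Bit p.L) g then
        (if bitI (.tau : Bit p.L) g then g.2.2 - g.2.1 + muI p.L g else g.2.2 - g.1 + muI p.L g)
      else g.2.2
  | .idx lam, g =>
      if bitI (.rho : Bit p.L) g then (g.2.2 - g.2.1) / p.r lam + muI p.L g else g.2.2 / p.r lam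
  | ι, g => g.2.2 - if p.bI ι g then g.2.1 else 0

/-- the intended colouring -/
noncomputable def valI (g : G3) : p.V := fun ι => ((p.iv ι g : ℤ) : ZMod (mm p.pr ι))

/-- Boolean coordinates -/
def IsB {L : ℕ} (ι : Ix L) : Prop := ι ≠ .two ∧ ι ≠ .qq ∧ ∀ lam, ι ≠ .idx lam

end Params

end Vale.Agent.P043
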