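import Mathlib
import Vale.Agent.P043.IntDefs

namespace Vale.Agent.P043

theorem ediv_sub_mul (a b c : ℤ) (hb : b ≠ 0) : (a - b * c) / b = a / b - c := by
  have := Int.add_mul_ediv_left a (-c) hb
  rw [sub_eq_add_neg, sub_eq_add_neg, ← this]; congr 1; ring

theorem pos_tau {L : ℕ} (g v : G3) :
    pos (.tau : Bit L) (g - v) = pos (.tau : Bit L) g - (v.2.1 : ZMod 4) := by
  simp [pos]

theorem pos_rho {L : ℕ} (g v : G3) (c : ℤ) (h : v.2.1 = 4 * c) :
    pos (.rho : Bit L) (g - v) = pos (.rho : Bit L) g - (c : ZMod 4) := by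
  simp only [pos, Prod.snd_sub, Prod.fst_sub, h]
  rw [ediv_sub_mul _ _ _ (by norm_num)]; push_cast; rfl

theorem pos_mk {L : ℕ} (l : Fin (L + 1)) (g v : G3) (c : ℤ) (h : v.1 = 4 ^ (l : ℕ) * c) :
    pos (.mk l : Bit L) (g - v) = pos (.mk l : Bit L) g - (c : ZMod 4) := by
  simp only [pos, Prod.fst_sub, h]
  rw [ediv_sub_mul _ _ _ (by positivity)]; push_cast; rfl

theorem four_cast (c : ℤ) : ((4 * c : ℤ) : ZMod 4) = 0 :=
  (ZMod.intCast_zmod_eq_zero_iff_dvd _ 4).2 (by simp)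

theorem role_sub_two : ∀ k : ZMod 4, role (k - 2) = !role k := by decide

theorem yI_inv (n : Fin 22) (s : ZMod 11) (v : G3) (hv : v.1 + ((n : ℕ) : ℤ) * v.2.1 = 0)
    (g : G3) : yI n s (g - v) = yI n s g := by
  have e : (g - v).1 + ((n : ℕ) : ℤ) * (g - v).2.1 = g.1 + ((n : ℕ) : ℤ) * g.2.1 := by
    simp only [Prod.fst_sub, Prod.snd_sub]; linear_combination (-1 : ℤ) * hv
  simp only [yI, e]

namespace Params

variable (p : Params)

theorem E_cast (ι : Ix p.L) : ((p.E ι : ℤ) : ZMod (mm p.pr ι)) = 1 := by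
  have h := (p.mm_dvd_NN ι).trans (p.E_self ι)
  have := (ZMod.intCast_zmod_eq_zero_iff_dvd _ _).2 h
  push_cast at this
  exact sub_eq_zero.1 this

theorem E_cast_ne {ι κ : Ix p.L} (h : κ ≠ ι) : ((p.E κ : ℤ) : ZMod (mm p.pr ι)) = 0 :=
  (ZMod.intCast_zmod_eq_zero_iff_dvd _ _).2 (p.mm_dvd_E h)

theorem E_two_four : ((p.E .two : ℤ) : ZMod 4) = 1 := by
  have h := p.four_dvd_K.trans p.K_dvd_E_sub
  have := (ZMod.intCast_zmod_eq_zero_iff_dvd _ 4).2 h
  push_cast at this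
  exact sub_eq_zero.1 this

theorem r_ne (lam : Lam) : p.r lam ≠ 0 := by have := p.one_lt_r lam; omega

theorem pos_inv0 (β : Bit p.L) (v : G3) (hv : p.Inv0 (.aux β) v) (g : G3) :
    pos β (g - v) = pos β g := by
  cases β with
  | tau =>
    obtain ⟨c, hc⟩ := hv
    rw [pos_tau, hc, four_cast, sub_zero]
  | rho =>
    have h16 : (4 : ℤ) ^ 2 ∣ v.2.1 := (p.pow_dvd_K (by omega)).trans hv
    obtain ⟨c, hc⟩ := h16
    rw [pos_rho g v (4 * c) (by rw [hc]; ring), four_cast, sub_zero]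
  | mk l =>
    obtain ⟨c, hc⟩ := hv
    rw [pos_mk l g v (4 * c) (by rw [hc]; ring), four_cast, sub_zero]

theorem inv0_aux_of_K (β : Bit p.L) (v : G3) (h1 : p.K ∣ v.1) (h2 : p.K ∣ v.2.1) :
    p.Inv0 (.aux β) v := by
  cases β with
  | tau => exact p.four_dvd_K.trans h2
  | rho => exact h2
  | mk l => exact (p.mk_dvd_K l).trans h1

theorem pos_K (β : Bit p.L) (v : G3) (h1 : p.K ∣ v.1) (h2 : p.K ∣ v.2.1) (g : G3) :
    pos β (g - v) = pos β g := p.pos_inv0 β v (p.inv0_aux_of_K β v h1 h2) g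

theorem bitI_inv0 (β : Bit p.L) (v : G3) (hv : p.Inv0 (.aux β) v) (g : G3) :
    bitI β (g - v) = bitI β g := by
  simp only [bitI, p.pos_inv0 β v hv g]

theorem bitI_tau_inv (v : G3) (hv : (4 : ℤ) ∣ v.2.1) (g : G3) :
    bitI (.tau : Bit p.L) (g - v) = bitI (.tau : Bit p.L) g := p.bitI_inv0 .tau v hv g

theorem bitI_rho_inv (v : G3) (hv : p.K ∣ v.2.1) (g : G3) :
    bitI (.rho : Bit p.L) (g - v) = bitI (.rho : Bit p.L) g := p.bitI_inv0 .rho v hv g

theorem pos_T (β : Bit p.L) (g : G3) (k : ℤ) : pos β (g - k • p.T β) = pos β g - (k : ZMod 4) := by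
  cases β with
  | tau =>
    rw [pos_tau]; simp [T, p.E_two_four]
  | rho =>
    rw [pos_rho g _ (k * p.E .two) (by simp [T]; ring)]; simp [p.E_two_four]
  | mk l =>
    rw [pos_mk l g _ (k * p.E .two) (by simp [T]; ring)]; simp [p.E_two_four]

theorem srI_inv (lam : Lam) (μ : Fin (p.L + 1)) (v : G3) (h1 : p.r lam ^ 2 ∣ v.2.1)
    (h2 : p.r lam ∣ v.2.2) (g : G3) : p.srI lam μ (g - v) = p.srI lam μ g := by
  obtain ⟨a, ha⟩ := h1
  obtain ⟨b, hb⟩ := h2
  have e1 : (g - v).2.2 / p.r lam = g.2.2 / p.r lam - b := by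
    simp only [Prod.snd_sub, hb]; exact ediv_sub_mul _ _ _ (p.r_ne lam)
  have e2 : ((g - v).2.2 - (g - v).2.1) / p.r lam
      = (g.2.2 - g.2.1) / p.r lam - (b - p.r lam * a) := by
    rw [← ediv_sub_mul _ _ _ (p.r_ne lam)]
    simp only [Prod.snd_sub, Prod.fst_sub, ha, hb]; congr 1; ring
  simp only [srI, e1, e2]
  have e3 : ((μ : ℕ) : ℤ) - (g.2.2 / p.r lam - b - ((g.2.2 - g.2.1) / p.r lam - (b - p.r lam * a)))
      = (((μ : ℕ) : ℤ) - (g.2.2 / p.r lam - (g.2.2 - g.2.1) / p.r lam)) + p.r lam * a := by ring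
  rw [e3]
  exact decide_eq_decide.2 (dvd_add_left (dvd_mul_right _ _))

theorem bI_inv0 (ι : Ix p.L) (v : G3) (hv : p.Inv0 ι v) (g : G3) : p.bI ι (g - v) = p.bI ι g := by
  cases ι with
  | two => rfl
  | qq => rfl
  | idx lam => rfl
  | aux β => exact p.bitI_inv0 β v hv g
  | sq γ μ =>
    cases γ with
    | false =>
      have h : ((v.1 : ℤ) : ZMod 11) = 0 := (ZMod.intCast_zmod_eq_zero_iff_dvd _ 11).2 hv
      simp [bI, h]
    | true =>
      have h : ((v.2.1 : ℤ) : ZMod 11) = 0 := (ZMod.intCast_zmod_eq_zero_iff_dvd _ 11).2 hv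
      simp [bI, h]
  | sr lam μ => exact p.srI_inv lam μ v hv.1 hv.2 g
  | hyb lam =>
    obtain ⟨h1, h2, h3, h4⟩ := hv
    cases lam with
    | none =>
      simp only [bI, p.bitI_tau_inv v (p.four_dvd_K.trans h2), p.srI_inv _ _ v h3 h4]
    | some x =>
      obtain ⟨n, s⟩ := x
      simp only [bI, p.bitI_tau_inv v (p.four_dvd_K.trans h2), p.srI_inv _ _ v h3 h4,
        yI_inv n s v h1]
  | yy n s => exact yI_inv n s v hv g

theorem muI_inv' (v : G3) (hv : ∀ l : Fin (p.L + 1), (4 : ℤ) ^ ((l : ℕ) + 1) ∣ v.1) (g : G3) :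
    muI p.L (g - v) = muI p.L g := by
  simp only [muI]
  refine Finset.sum_congr rfl fun l _ => ?_
  rw [p.bitI_inv0 (.mk l) v (hv l) g]

theorem muI_inv (v : G3) (hv : p.K ∣ v.1) (g : G3) : muI p.L (g - v) = muI p.L g :=
  p.muI_inv' v (fun l => (p.mk_dvd_K l).trans hv) g

theorem bitI_flip (β : Bit p.L) (g : G3) : bitI β (g - (2 : ℤ) • p.T β) = !bitI β g := by
  simp only [bitI, p.pos_T]
  exact role_sub_two _

theorem muI_code (μ : ℕ) (hμ : μ < p.L + 1) (g : G3)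
    (h : ∀ l : Fin (p.L + 1), bitI (.mk l : Bit p.L) g = code μ l) : muI p.L g = μ := by
  simp only [muI, h, code]
  rw [Finset.sum_eq_single (⟨μ, hμ⟩ : Fin (p.L + 1))]
  · simp
  · intro l _ hl
    have : (l : ℕ) ≠ μ := fun e => hl (Fin.ext e)
    simp [this]
  · simp

theorem iv_isB {ι : Ix p.L} (hι : IsB ι) (g : G3) :
    p.iv ι g = g.2.2 - if p.bI ι g then g.2.1 else 0 := by
  obtain ⟨h1, h2, h3⟩ := hι
  cases ι with
  | two => exact absurd rfl h1
  | qq => exact absurd rfl h2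
  | idx lam => exact absurd rfl (h3 lam)
  | aux β => rfl
  | sq γ μ => rfl
  | sr lam μ => rfl
  | hyb lam => rfl
  | yy n s => rfl

theorem valI_isB {ι : Ix p.L} (hι : IsB ι) (g : G3) :
    p.valI g ι = (g.2.2 : ZMod (mm p.pr ι)) - if p.bI ι g then (g.2.1 : ZMod (mm p.pr ι)) else 0 := by
  simp only [valI, p.iv_isB hι]
  split_ifs <;> simp

theorem isB_or (ι : Ix p.L) : ι = .two ∨ ι = .qq ∨ (∃ lam, ι = .idx lam) ∨ IsB ι := by
  cases ι <;> simp [IsB]

theorem valI_idx_sub (lam : Lam) (v : G3) (h1 : p.K ∣ v.1) (h2 : p.K ∣ v.2.1) (a b : ℤ)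
    (ha : v.2.1 = p.r lam ^ 2 * a) (hb : v.2.2 = p.r lam * b) (g : G3) :
    p.valI (g - v) (.idx lam) = p.valI g (.idx lam) - (b : ZMod (mm p.pr (.idx lam))) := by
  have hr : ((p.r lam : ℤ) : ZMod (mm p.pr (.idx lam))) = 0 :=
    (ZMod.intCast_zmod_eq_zero_iff_dvd _ _).2 (by rw [p.mm_idx])
  have e1 : (g - v).2.2 / p.r lam = g.2.2 / p.r lam - b := by
    simp only [Prod.snd_sub, hb]; exact ediv_sub_mul _ _ _ (p.r_ne lam)
  have e2 : ((g - v).2.2 - (g - v).2.1) / p.r lam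
      = (g.2.2 - g.2.1) / p.r lam - (b - p.r lam * a) := by
    rw [← ediv_sub_mul _ _ _ (p.r_ne lam)]
    simp only [Prod.snd_sub, Prod.fst_sub, ha, hb]; congr 1; ring
  simp only [valI, iv, e1, e2, p.bitI_rho_inv v h2, p.muI_inv v h1]
  split_ifs
  · push_cast; rw [hr]; ring
  · push_cast; ring

theorem valI_periods : Periods p.valI := by
  intro ι v hv g
  obtain ⟨h0, h1, h2⟩ := hv
  have c1 : ((v.2.1 : ℤ) : ZMod (mm p.pr ι)) = 0 :=
    (ZMod.intCast_zmod_eq_zero_iff_dvd _ _).2 ((p.mm_dvd_NN ι).trans h1)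
  have c2 : ((v.2.2 : ℤ) : ZMod (mm p.pr ι)) = 0 :=
    (ZMod.intCast_zmod_eq_zero_iff_dvd _ _).2 ((p.mm_dvd_NN ι).trans h2)
  rcases p.isB_or ι with rfl | rfl | ⟨lam, rfl⟩ | hι
  · obtain ⟨k1, k2, _⟩ := h0
    simp only [valI, iv, p.pos_K _ v k1 k2, Prod.snd_sub]
    push_cast; rw [c2]; ring
  · obtain ⟨k1, k2, k3⟩ := h0
    have c0 : ((v.1 : ℤ) : ZMod (mm p.pr .qq)) = 0 :=
      (ZMod.intCast_zmod_eq_zero_iff_dvd _ _).2 k2
    simp only [valI, iv, p.bitI_rho_inv v k3, p.bitI_tau_inv v (p.four_dvd_K.trans k3),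
      p.muI_inv v k1, Prod.snd_sub, Prod.fst_sub]
    split_ifs <;> push_cast <;> simp only [c0, c1, c2, sub_zero]
  · obtain ⟨k1, k2⟩ := h0
    rw [p.NN_idx] at h1 h2
    obtain ⟨a, ha⟩ := h1
    obtain ⟨b, hb⟩ := h2
    have hr : ((p.r lam : ℤ) : ZMod (mm p.pr (.idx lam))) = 0 :=
      (ZMod.intCast_zmod_eq_zero_iff_dvd _ _).2 (by rw [p.mm_idx])
    rw [p.valI_idx_sub lam v k1 k2 a (p.r lam * b) ha (by rw [hb]; ring)]
    push_cast; rw [hr]; ring
  · rw [p.valI_isB hι, p.valI_isB hι, p.bI_inv0 ι v h0]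
    simp only [Prod.snd_sub, Prod.fst_sub]
    push_cast
    simp only [c1, c2, sub_zero]

theorem inv0_vz (ι : Ix p.L) (c : ℤ) (h1 : ι = .two → p.K ∣ c)
    (h2 : ∀ lam, (∀ μ, ι ≠ .sr lam μ) ∧ ι ≠ .hyb lam ∨ p.r lam ∣ c) : p.Inv0 ι (vz c) := by
  cases ι with
  | two => exact ⟨dvd_zero _, dvd_zero _, h1 rfl⟩
  | qq => exact ⟨dvd_zero _, dvd_zero _, dvd_zero _⟩
  | idx lam => exact ⟨dvd_zero _, dvd_zero _⟩
  | aux β => cases β <;> exact dvd_zero _
  | sq γ μ => cases γ <;> exact dvd_zero _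
  | sr lam μ =>
    refine ⟨dvd_zero _, ?_⟩
    rcases h2 lam with h | h
    · exact absurd rfl (h.1 μ)
    · exact h
  | hyb lam =>
    refine ⟨by simp [vz], dvd_zero _, dvd_zero _, ?_⟩
    rcases h2 lam with h | h
    · exact absurd rfl h.2
    · exact h
  | yy n s => simp [Inv0, vz]

theorem r_dvd_ee (lam : Lam) (κ : Ix p.L) : p.r lam ∣ p.ee κ := by
  by_cases h : κ = .idx lam
  · subst h; rw [p.ee_idx]; exact dvd_mul_right _ _
  · exact (p.r_dvd_E h).mul_left _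

theorem valI_equivar : Equivar p.P p.emb p.valI := by
  refine equivar_of ?_ ?_ ?_
  · intro ι g
    have e : g + vz (p.ee ι) = g - vz (-p.ee ι) := by rw [vz_neg, sub_neg_eq_add]
    rcases p.isB_or ι with rfl | rfl | ⟨lam, rfl⟩ | hι
    · rw [e]
      simp only [valI, iv, p.pos_K _ (vz (-p.ee .two)) (dvd_zero _) (dvd_zero _), Prod.snd_sub]
      rw [p.ee_eq (by simp)]
      simp only [vz]; push_cast; rw [p.E_cast]; ring
    · rw [e]
      simp only [valI, iv, p.bitI_rho_inv (vz (-p.ee .qq)) (dvd_zero _),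
        p.bitI_tau_inv (vz (-p.ee .qq)) (dvd_zero _),
        p.muI_inv (vz (-p.ee .qq)) (dvd_zero _), Prod.snd_sub, Prod.fst_sub]
      rw [p.ee_eq (by simp)]
      simp only [vz]
      split_ifs <;> push_cast <;> rw [p.E_cast] <;> ring
    · rw [e, p.valI_idx_sub lam _ (dvd_zero _) (dvd_zero _) 0 (-p.E (.idx lam)) (by simp [vz])
        (by simp [vz, p.ee_idx])]
      push_cast; rw [p.E_cast]; ring
    · rw [e, p.valI_isB hι, p.valI_isB hι, p.bI_inv0 ι _ (p.inv0_vz ι _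
        (fun h => absurd h hι.1) fun lam => Or.inr (p.r_dvd_ee lam ι).neg_right)]
      rw [p.ee_eq hι.2.2]
      simp only [vz, Prod.snd_sub, Prod.fst_sub, sub_zero]
      push_cast; rw [p.E_cast]; ring
  · intro ι κ hκ g
    refine p.valI_periods.add ⟨p.inv0_vz ι _ ?_ fun lam => Or.inr (p.r_dvd_ee lam κ),
      dvd_zero _, (p.NN_dvd_E hκ).mul_left _⟩ g
    rintro rfl
    exact (p.K_dvd_E hκ).mul_left _
  · intro g
    funext ι
    refine p.valI_periods.add ⟨p.inv0_vz ι _ (fun _ => p.NN_two ▸ p.dvd_P .two) fun lam =>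
      Or.inr ?_, dvd_zero _, p.dvd_P ι⟩ g
    exact (dvd_pow_self _ (by norm_num)).trans (p.NN_idx lam ▸ p.dvd_P (.idx lam))

/-- Boolean literals of the intended colouring read the intended Booleans. -/
theorem valI_bl {ι : Ix p.L} (hι : IsB ι) (n : ℤ) (ε : Bool) (h0 : p.Inv0 ι (p.bsh n ι ε))
    (g : G3) : Bl p.valI n ι ε g ↔ p.bI ι g = ε := by
  have h2 := two_ne_zero' (p := p) hι.1
  simp only [Bl, Lt]
  rw [p.valI_isB hι, p.valI_isB hι, p.bI_inv0 ι _ h0]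
  simp only [bsh, Prod.snd_sub, Prod.fst_sub]
  cases ε <;> cases p.bI ι g
  · simp
  · simp only [Bool.false_eq_true, if_false, if_true, sub_zero]
    push_cast; rw [p.E_cast]
    refine ⟨fun h => absurd ?_ h2, fun h => by simp at h⟩
    linear_combination h
  · simp only [Bool.false_eq_true, if_false, if_true, sub_zero]
    push_cast; rw [p.E_cast]
    refine ⟨fun h => absurd ?_ h2, fun h => by simp at h⟩
    linear_combination -h
  · simp only [if_true]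
    push_cast
    refine ⟨fun _ => trivial, fun _ => by ring⟩

end Params
end Vale.Agent.P043
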