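import Mathlib
import Vale.Agent.P043.IntA

namespace Vale.Agent.P043
namespace Params

variable (p : Params)

theorem dig_intCast (β : Bit p.L) (n : ℤ) :
    p.dig β ((n : ℤ) : ZMod (mm p.pr .two)) = ((n / 4 ^ expo β : ℤ) : ZMod 4) := by
  have h1 : ((((n : ZMod (mm p.pr .two)).val : ℕ) : ℤ)) = n % p.K := by
    rw [ZMod.val_intCast, p.mm_two]
  obtain ⟨c, hc⟩ := p.pow_dvd_K (p.expo_le β)
  have h2 : n % p.K = n + (4 * (-(c * (n / p.K)))) * 4 ^ expo β := by
    rw [Int.emod_def, hc]; ring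
  have h3 : ((((n : ZMod (mm p.pr .two)).val / 4 ^ expo β : ℕ) : ℤ))
      = n / 4 ^ expo β + 4 * (-(c * (n / p.K))) := by
    push_cast
    rw [h1, h2, Int.add_mul_ediv_right _ _ (by positivity)]
  have h4 : p.dig β ((n : ℤ) : ZMod (mm p.pr .two))
      = (((((n : ZMod (mm p.pr .two)).val / 4 ^ expo β : ℕ) : ℤ)) : ZMod 4) := by
    rw [dig, Int.cast_natCast]
  rw [h4, h3]
  have : (4 : ZMod 4) = 0 := rfl
  push_cast
  rw [this]; simp

theorem expo_inj {L : ℕ} {β β' : Bit L} (h : expo β = expo β') : β = β' := by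
  cases β <;> cases β' <;> simp only [expo] at h <;> first | rfl | omega | skip
  exact congrArg Bit.mk (Fin.ext (by omega))

theorem pos_self (β : Bit p.L) (g : G3) (k : ℤ) :
    pos β (g - k • p.T β) = pos β g - (k : ZMod 4) := by
  obtain ⟨c, hc⟩ := p.four_dvd_K.trans p.K_dvd_E_sub
  have hE : p.E .two = 1 + 4 * c := by linarith
  have h4 : (4 : ZMod 4) = 0 := rfl
  cases β with
  | tau =>
    simp only [pos, T, Prod.snd_sub, Prod.fst_sub, Prod.smul_mk, smul_eq_mul, hE]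
    push_cast; rw [h4]; ring
  | rho =>
    simp only [pos, T, Prod.snd_sub, Prod.fst_sub, Prod.smul_mk, smul_eq_mul]
    have e : g.2.1 - k * (4 * p.E .two) = g.2.1 + (-(k * p.E .two)) * 4 := by ring
    rw [e, Int.add_mul_ediv_right _ _ (by norm_num), hE]
    push_cast; rw [h4]; ring
  | mk l =>
    simp only [pos, T, Prod.fst_sub, Prod.smul_mk, smul_eq_mul]
    have e : g.1 - k * (4 ^ (l : ℕ) * p.E .two) = g.1 + (-(k * p.E .two)) * 4 ^ (l : ℕ) := by ring
    rw [e, Int.add_mul_ediv_right _ _ (by positivity), hE]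
    push_cast; rw [h4]; ring

theorem pos_lower (β β' : Bit p.L) (h : expo β' < expo β) (g : G3) (k : ℤ) :
    pos β' (g - k • p.T β) = pos β' g := by
  have h4 : (4 : ZMod 4) = 0 := rfl
  cases β with
  | tau => simp [expo] at h
  | rho =>
    cases β' with
    | tau =>
      simp only [pos, T, Prod.snd_sub, Prod.fst_sub, Prod.smul_mk, smul_eq_mul]
      push_cast; rw [h4]; ring
    | rho => simp [expo] at h
    | mk l => simp [expo] at h
  | mk l =>
    cases β' with
    | tau => simp [pos, T]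
    | rho => simp [pos, T]
    | mk l' =>
      simp only [expo] at h
      obtain ⟨m, hm⟩ : ∃ m, (l : ℕ) = l' + 1 + m := ⟨l - (l' + 1), by omega⟩
      simp only [pos, T, Prod.fst_sub, Prod.smul_mk, smul_eq_mul]
      have e : g.1 - k * (4 ^ (l : ℕ) * p.E .two)
          = g.1 + (4 * (-(k * 4 ^ m * p.E .two))) * 4 ^ (l' : ℕ) := by rw [hm]; ring
      rw [e, Int.add_mul_ediv_right _ _ (by positivity)]
      push_cast; rw [h4]; ring

theorem T_z (β : Bit p.L) : (p.T β).2.2 = 0 := by cases β <;> rfl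

theorem dg_valI (β : Bit p.L) (g : G3) : ∃ c : ZMod 4, ∀ k : ZMod 4,
    dg p.valI β g k = c - ((sfun (pos β g - k) : ℤ) : ZMod 4) := by
  classical
  refine ⟨(((g.2.2 - ∑ β' ∈ Finset.univ.filter (fun β' : Bit p.L => expo β' < expo β),
    4 ^ expo β' * sfun (pos β' g)) / 4 ^ expo β : ℤ) : ZMod 4), fun k => ?_⟩
  simp only [dg, valI, iv]
  rw [dig_intCast]
  set g' := g - (k.val : ℤ) • p.T β with hg'
  have hz : g'.2.2 = g.2.2 := by simp [hg', p.T_z]
  have hsplit := Finset.sum_filter_add_sum_filter_not Finset.univ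
    (fun β' : Bit p.L => expo β' < expo β) (fun β' => (4 : ℤ) ^ expo β' * sfun (pos β' g'))
  have hlow : ∑ β' ∈ Finset.univ.filter (fun β' : Bit p.L => expo β' < expo β),
      (4 : ℤ) ^ expo β' * sfun (pos β' g')
      = ∑ β' ∈ Finset.univ.filter (fun β' : Bit p.L => expo β' < expo β),
      (4 : ℤ) ^ expo β' * sfun (pos β' g) := by
    refine Finset.sum_congr rfl fun β' hβ' => ?_
    rw [hg', p.pos_lower β β' (Finset.mem_filter.1 hβ').2]
  have hmem : β ∈ Finset.univ.filter (fun β' : Bit p.L => ¬ expo β' < expo β) := by simp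
  have hhigh := Finset.add_sum_erase _ (fun β' => (4 : ℤ) ^ expo β' * sfun (pos β' g')) hmem
  obtain ⟨m, hm⟩ : (4 : ℤ) ^ (expo β + 1) ∣
      ∑ β' ∈ (Finset.univ.filter (fun β' : Bit p.L => ¬ expo β' < expo β)).erase β,
        (4 : ℤ) ^ expo β' * sfun (pos β' g') := by
    refine Finset.dvd_sum fun β' hβ' => ?_
    have h1 := (Finset.mem_erase.1 hβ').1
    have h2 := (Finset.mem_filter.1 (Finset.mem_erase.1 hβ').2).2
    have h3 : expo β' ≠ expo β := fun e => h1 (expo_inj e)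
    exact (pow_dvd_pow 4 (by omega)).mul_right _
  have hpos : pos β g' = pos β g - k := by
    rw [hg', p.pos_self]; simp
  have e : g'.2.2 - ∑ β' : Bit p.L, (4 : ℤ) ^ expo β' * sfun (pos β' g')
      = (g.2.2 - ∑ β' ∈ Finset.univ.filter (fun β' : Bit p.L => expo β' < expo β),
        (4 : ℤ) ^ expo β' * sfun (pos β' g))
        + (-(sfun (pos β g - k)) - 4 * m) * 4 ^ expo β := by
    rw [← hsplit, hlow, ← hhigh, hm, hz, hpos]; ring
  rw [e, Int.add_mul_ediv_right _ _ (by positivity)]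
  have h4 : (4 : ZMod 4) = 0 := rfl
  push_cast; rw [h4]; ring

theorem fin_s1 : ∀ c x : ZMod 4,
    ∃! D : ZMod 4, c - ((sfun (x - kap1 D) : ℤ) : ZMod 4) = sig1 D := by
  simp only [ExistsUnique]; decide

theorem fin_s2 : ∀ c x : ZMod 4,
    ∃! D : ZMod 4, c - ((sfun (x - D) : ℤ) : ZMod 4) = 2 * D := by
  simp only [ExistsUnique]; decide

theorem fin_s3 : ∀ c x D D' : ZMod 4, c - ((sfun (x - kap1 D) : ℤ) : ZMod 4) = sig1 D →
    c - ((sfun (x - kap3 D') : ℤ) : ZMod 4) = sig3 D' →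
    role (x - kap1 D) = role (x - kap3 D') ∧ xor (par D) (par D') = role (x - kap1 D) := by
  decide

theorem T_y (β : Bit p.L) : ((mm p.pr (.aux β) : ℕ) : ℤ) ∣ (p.T β).2.1 := by
  cases β
  · exact p.mm_dvd_E (by simp)
  · exact (p.mm_dvd_E (by simp)).mul_left _
  · simp [T]

theorem valI_aux (β : Bit p.L) (g : G3) (k : ZMod 4) (a b : ℤ) :
    p.valI (g - (k.val : ℤ) • p.T β - (0, a * p.E (.aux β), b * p.E (.aux β))) (.aux β)
      = ((g.2.2 - b - if role (pos β g - k) then g.2.1 - a else 0 : ℤ) :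
        ZMod (mm p.pr (.aux β))) := by
  have h0 : p.Inv0 (.aux β) (0, a * p.E (.aux β), b * p.E (.aux β)) := by
    cases β <;> simp [Inv0, Dvd.dvd.mul_left, p.four_dvd_E, p.K_dvd_E]
  have h1 := p.bI_inv0 _ _ h0 (g - (k.val : ℤ) • p.T β)
  have h2 : p.bI (.aux β) (g - (k.val : ℤ) • p.T β) = role (pos β g - k) := by
    simp only [bI, bitI]
    rw [p.pos_self]; simp
  have hE : ((p.E (.aux β) : ℤ) : ZMod (mm p.pr (.aux β))) = 1 := by
    have := (ZMod.intCast_zmod_eq_zero_iff_dvd _ _).2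
      ((p.mm_dvd_NN (.aux β)).trans (p.E_self (.aux β)))
    push_cast at this
    exact sub_eq_zero.1 this
  have hT : (((p.T β).2.1 : ℤ) : ZMod (mm p.pr (.aux β))) = 0 :=
    (ZMod.intCast_zmod_eq_zero_iff_dvd _ _).2 (p.T_y β)
  simp only [valI, iv]
  rw [h1, h2]
  split_ifs <;> simp [p.T_z, hE, hT]

theorem valI_special (p : Params) : Special p.valI := by
  refine ⟨fun β g => ?_, fun β g => ?_, fun β g D D' h1 h3 => ?_⟩
  · obtain ⟨c, hc⟩ := p.dg_valI β g
    simp only [hc]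
    exact fin_s1 c _
  · obtain ⟨c, hc⟩ := p.dg_valI β g
    simp only [hc]
    exact fin_s2 c _
  · obtain ⟨c, hc⟩ := p.dg_valI β g
    rw [hc] at h1 h3
    obtain ⟨k1, k2⟩ := fin_s3 c _ D D' h1 h3
    have e1 : ∀ b, p.phi1 β b = (0, (if b then 2 else 0) * p.E (.aux β),
        (if b then 1 else 0) * p.E (.aux β)) := fun b => by cases b <;> ext <;> simp [phi1]
    have e3 : ∀ b, p.phi3 β b = (0, 1 * p.E (.aux β),
        (if b then 1 else 0) * p.E (.aux β)) := fun b => by cases b <;> simp [phi3]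
    rw [e1, e3, valI_aux, valI_aux, ← k1, ← k2]
    cases par D <;> cases par D' <;> simp <;> ring

end Params
end Vale.Agent.P043
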