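import Mathlib
import Vale.Agent.P043.IntA

namespace Vale.Agent.P043
namespace Params

variable (p : Params)

theorem lt_of_dvd {ι : Ix p.L} {t g : G3}
    (h : ((mm p.pr ι : ℕ) : ℤ) ∣ p.iv ι g - p.iv ι (g - t)) : Lt p.valI ι t g :=
  (ZMod.intCast_eq_intCast_iff_dvd_sub _ _ _).2 h

theorem bitI_inv (β : Bit p.L) (v : G3) (hv : p.Inv0 (.aux β) v) (g : G3) :
    bitI β (g - v) = bitI β g := p.bI_inv0 (.aux β) v hv g

theorem bl_aux (β : Bit p.L) (n : ℤ) (ε : Bool) (g : G3) :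
    Bl p.valI n (.aux β) ε g ↔ bitI β g = ε := by
  refine p.valI_bl (by simp [IsB]) n ε ?_ g
  cases β <;> simp [Inv0, bsh, Dvd.dvd.mul_left, p.four_dvd_E, p.K_dvd_E]
  exact ((p.mk_dvd_E (by simp) _).mul_left _).mul_left _

theorem bl_sq (γ : Bool) (μ : ZMod 11) (n : ℤ) (ε : Bool) (g : G3) :
    Bl p.valI n (.sq γ μ) ε g ↔ p.bI (.sq γ μ) g = ε := by
  refine p.valI_bl (by simp [IsB]) n ε ?_ g
  cases γ
  · simp only [Inv0, bsh, dvd_neg]
    exact ((p.q_dvd_E (by simp)).mul_left _).mul_left _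
  · simp only [Inv0, bsh]
    exact (p.q_dvd_E (by simp)).mul_left _

theorem bl_sr (lam : Lam) (μ : Fin (p.L + 1)) (n : ℤ) (ε : Bool) (g : G3) :
    Bl p.valI n (.sr lam μ) ε g ↔ p.srI lam μ g = ε := by
  refine p.valI_bl (by simp [IsB]) n ε ?_ g
  cases ε <;> simp [Inv0, bsh, Dvd.dvd.mul_left, p.r2_dvd_E, p.r_dvd_E]

theorem bl_hyb (lam : Lam) (ε : Bool) (g : G3) :
    Bl p.valI (dirn lam) (.hyb lam) ε g ↔ p.bI (.hyb lam) g = ε := by
  refine p.valI_bl (by simp [IsB]) _ ε ?_ g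
  cases ε <;> simp [Inv0, bsh, Dvd.dvd.mul_left, p.r2_dvd_E, p.r_dvd_E, p.K_dvd_E]

theorem bl_yy (n : Fin 22) (s : ZMod 11) (ε : Bool) (g : G3) :
    Bl p.valI ((n : ℕ) : ℤ) (.yy n s) ε g ↔ yI n s g = ε := by
  refine p.valI_bl (by simp [IsB]) _ ε ?_ g
  simp [Inv0, bsh]

theorem rho_tt (g : G3) : bitI (.rho : Bit p.L) (g - p.tt) = !bitI (.rho : Bit p.L) g := by
  have e : p.tt = (2 : ℤ) • p.T .rho := by ext <;> simp [T, tt]; ring
  rw [e, p.bitI_flip]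

theorem tau_tt (g : G3) : bitI (.tau : Bit p.L) (g - p.tt) = bitI (.tau : Bit p.L) g := by
  refine p.bitI_inv _ _ ?_ g
  simp only [Inv0, tt]; exact Dvd.dvd.mul_right (by norm_num) _

theorem mu_tt (g : G3) : muI p.L (g - p.tt) = muI p.L g := p.muI_inv _ (by simp [tt]) g

theorem hyb_side (lam : Lam) (g : G3) (h : bitI (.tau : Bit p.L) g = side lam) :
    p.bI (.hyb lam) g = p.srI lam 0 g := by
  rcases lam with _ | ⟨n, s⟩ <;> simp [bI, h, side]

theorem lt_bool {ι : Ix p.L} (hι : IsB ι) {t g : G3} (hb : p.bI ι (g - t) = p.bI ι g)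
    (h1 : ((mm p.pr ι : ℕ) : ℤ) ∣ t.2.1) (h2 : ((mm p.pr ι : ℕ) : ℤ) ∣ t.2.2) :
    Lt p.valI ι t g := by
  apply p.lt_of_dvd
  have e : ∀ x, p.iv ι x = x.2.2 - if p.bI ι x then x.2.1 else 0 := by
    obtain ⟨a, b, c⟩ := hι
    intro x
    cases ι <;> first | rfl | simp_all
  rw [e, e, hb]
  split_ifs
  · have : g.2.2 - g.2.1 - ((g - t).2.2 - (g - t).2.1) = t.2.2 - t.2.1 := by simp; ring
    rw [this]; exact dvd_sub h2 h1
  · simpa using h2

theorem g_q1 (g : G3) : Bl p.valI 0 (.aux .rho) true g ∨ Lt p.valI .qq (1, 0, 0) g := by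
  rw [bl_aux]
  cases h : bitI (.rho : Bit p.L) g
  · right
    apply p.lt_of_dvd
    simp [iv, p.bitI_inv .rho (1, 0, 0) (by simp [Inv0]), h]
  · left; rfl

theorem g_q2 (g : G3) : Bl p.valI 0 (.aux .rho) true g ∨ Lt p.valI .qq (0, p.E .qq, 0) g := by
  rw [bl_aux]
  cases h : bitI (.rho : Bit p.L) g
  · right
    apply p.lt_of_dvd
    simp [iv, p.bitI_inv .rho (0, p.E .qq, 0) (by simp [Inv0, p.K_dvd_E]), h]
  · left; rfl

theorem g_q3 (g : G3) : Bl p.valI 0 (.aux .rho) false g ∨ Bl p.valI 0 (.aux .tau) true g ∨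
    Lt p.valI .qq (p.E .qq, 0, p.E .qq) g := by
  rw [bl_aux, bl_aux]
  cases h : bitI (.rho : Bit p.L) g
  · left; rfl
  · cases h' : bitI (.tau : Bit p.L) g
    · right; right
      apply p.lt_of_dvd
      simp [iv, p.bitI_inv .rho (p.E .qq, 0, p.E .qq) (by simp [Inv0]),
        p.bitI_inv .tau (p.E .qq, 0, p.E .qq) (by simp [Inv0]), h, h',
        p.muI_inv (p.E .qq, 0, p.E .qq) (p.K_dvd_E (by simp))]
    · right; left; rfl

theorem g_q4 (g : G3) : Bl p.valI 0 (.aux .rho) false g ∨ Bl p.valI 0 (.aux .tau) false g ∨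
    Lt p.valI .qq (0, p.E .qq, p.E .qq) g := by
  rw [bl_aux, bl_aux]
  cases h : bitI (.rho : Bit p.L) g
  · left; rfl
  · cases h' : bitI (.tau : Bit p.L) g
    · right; left; rfl
    · right; right
      apply p.lt_of_dvd
      simp [iv, p.bitI_inv .rho (0, p.E .qq, p.E .qq) (by simp [Inv0, p.K_dvd_E]),
        p.bitI_inv .tau (0, p.E .qq, p.E .qq) (by simp [Inv0, p.four_dvd_E]), h, h',
        p.muI_inv (0, p.E .qq, p.E .qq) (by simp)]

theorem mu_of_not (μ : ℕ) (hμ : μ < p.L + 1) (g : G3)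
    (h : ¬ ∃ l, Bl p.valI 0 (.aux (.mk l)) (!code μ l) g) : muI p.L g = μ := by
  refine p.muI_code μ hμ g fun l => ?_
  have : ¬ bitI (.mk l : Bit p.L) g = !code μ l := fun e => h ⟨l, (p.bl_aux _ _ _ _).2 e⟩
  revert this
  cases bitI (.mk l : Bit p.L) g <;> cases code μ l <;> simp

theorem g_q5 (γ : Bool) (μ : ZMod 11) (g : G3) : Bl p.valI 0 (.aux .tau) (!γ) g ∨
    (∃ l, Bl p.valI 0 (.aux (.mk l)) (!code μ.val l) g) ∨ Bl p.valI 0 (.sq γ μ) false g ∨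
    Lt p.valI .qq p.tt g := by
  rw [bl_aux, bl_sq]
  by_cases h1 : bitI (.tau : Bit p.L) g = !γ
  · exact Or.inl h1
  by_cases h2 : ∃ l, Bl p.valI 0 (.aux (.mk l)) (!code μ.val l) g
  · exact Or.inr (Or.inl h2)
  by_cases h3 : p.bI (.sq γ μ) g = false
  · exact Or.inr (Or.inr (Or.inl h3))
  right; right; right
  have hμ := p.mu_of_not μ.val (lt_of_lt_of_le (ZMod.val_lt μ) p.L_ge) g h2
  have hτ : bitI (.tau : Bit p.L) g = γ := by
    revert h1; cases bitI (.tau : Bit p.L) g <;> cases γ <;> simp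
  have hE : ((p.E .two : ℤ) : ZMod 11) = 0 :=
    (ZMod.intCast_zmod_eq_zero_iff_dvd _ 11).2 (p.q_dvd_E (by simp))
  show ((p.iv .qq (g - p.tt) : ℤ) : ZMod 11) = ((p.iv .qq g : ℤ) : ZMod 11)
  simp only [iv, p.rho_tt, p.tau_tt, p.mu_tt, hμ, hτ]
  cases γ <;> simp [bI] at h3 <;> cases bitI (.rho : Bit p.L) g <;> simp [tt, hE, h3]

theorem g_q6 (γ : Bool) (g : G3) : ∃ μ : ZMod 11, Bl p.valI 0 (.sq γ μ) true g := by
  cases γ
  · exact ⟨(g.1 : ZMod 11), (p.bl_sq _ _ _ _ _).2 (by simp [bI])⟩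
  · exact ⟨(g.2.1 : ZMod 11), (p.bl_sq _ _ _ _ _).2 (by simp [bI])⟩

theorem g_r1 (lam : Lam) (g : G3) :
    Bl p.valI 0 (.aux .rho) true g ∨ Lt p.valI (.idx lam) (1, 0, 0) g := by
  rw [bl_aux]
  cases h : bitI (.rho : Bit p.L) g
  · right
    apply p.lt_of_dvd
    simp [iv, p.bitI_inv .rho (1, 0, 0) (by simp [Inv0]), h]
  · left; rfl

theorem g_r2 (lam : Lam) (g : G3) :
    Bl p.valI 0 (.aux .rho) true g ∨ Lt p.valI (.idx lam) (0, p.E (.idx lam), 0) g := by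
  rw [bl_aux]
  cases h : bitI (.rho : Bit p.L) g
  · right
    apply p.lt_of_dvd
    simp [iv, p.bitI_inv .rho (0, p.E (.idx lam), 0) (by simp [Inv0, p.K_dvd_E]), h]
  · left; rfl

theorem g_r3 (lam : Lam) (g : G3) : Bl p.valI 0 (.aux .rho) false g ∨
    Lt p.valI (.idx lam) (0, p.E (.idx lam), p.E (.idx lam)) g := by
  rw [bl_aux]
  cases h : bitI (.rho : Bit p.L) g
  · left; rfl
  · right
    apply p.lt_of_dvd
    simp [iv, p.bitI_inv .rho (0, p.E (.idx lam), p.E (.idx lam)) (by simp [Inv0, p.K_dvd_E]), h,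
      p.muI_inv (0, p.E (.idx lam), p.E (.idx lam)) (by simp)]

theorem g_r4 (lam : Lam) (μ : Fin (p.L + 1)) (g : G3) :
    (∃ l, Bl p.valI 0 (.aux (.mk l)) (!code (μ : ℕ) l) g) ∨
    Bl p.valI 0 (.sr lam μ) false g ∨ Lt p.valI (.idx lam) p.tt g := by
  rw [bl_sr]
  by_cases h2 : ∃ l, Bl p.valI 0 (.aux (.mk l)) (!code (μ : ℕ) l) g
  · exact Or.inl h2
  by_cases h3 : p.srI lam μ g = false
  · exact Or.inr (Or.inl h3)
  right; right
  have hμ := p.mu_of_not μ μ.2 g h2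
  have hd : p.r lam ∣ ((μ : ℕ) : ℤ) - (g.2.2 / p.r lam - (g.2.2 - g.2.1) / p.r lam) := by
    simpa [srI] using h3
  have hr : p.r lam ≠ 0 := by have := p.one_lt_r lam; omega
  obtain ⟨c, hc⟩ := p.r2_dvd_E (κ := .two) (lam := lam) (by simp)
  apply p.lt_of_dvd
  rw [p.mm_idx]
  simp only [iv, p.rho_tt, p.mu_tt, hμ]
  cases bitI (.rho : Bit p.L) g
  · have e : (g - p.tt).2.2 - (g - p.tt).2.1 = g.2.2 - g.2.1 + (8 * c * p.r lam) * p.r lam := by
      simp [tt, hc]; ring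
    simp only [Bool.false_eq_true, if_false, Bool.not_false, if_true]
    rw [e, Int.add_mul_ediv_right _ _ hr]
    have e2 : g.2.2 / p.r lam - ((g.2.2 - g.2.1) / p.r lam + 8 * c * p.r lam + ((μ : ℕ) : ℤ))
        = -(((μ : ℕ) : ℤ) - (g.2.2 / p.r lam - (g.2.2 - g.2.1) / p.r lam))
          - p.r lam * (8 * c) := by ring
    rw [e2]
    exact dvd_sub (dvd_neg.2 hd) (dvd_mul_right _ _)
  · simp only [Bool.not_true, Bool.false_eq_true, if_false, if_true]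
    have e : (g - p.tt).2.2 = g.2.2 := by simp [tt]
    rw [e]
    have e2 : (g.2.2 - g.2.1) / p.r lam + ((μ : ℕ) : ℤ) - g.2.2 / p.r lam
        = ((μ : ℕ) : ℤ) - (g.2.2 / p.r lam - (g.2.2 - g.2.1) / p.r lam) := by ring
    rw [e2]; exact hd

theorem g_r5 (lam : Lam) (g : G3) :
    ∃ μ : Fin (p.L + 1), (μ : ℕ) < p.pr (.idx lam) ∧ Bl p.valI 0 (.sr lam μ) true g := by
  have hr : 0 < p.r lam := by have := p.one_lt_r lam; omega
  set x := g.2.2 / p.r lam - (g.2.2 - g.2.1) / p.r lam with hx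
  have h0 : 0 ≤ x % p.r lam := Int.emod_nonneg _ hr.ne'
  have h1 : x % p.r lam < p.r lam := Int.emod_lt_of_pos _ hr
  have h2 : (x % p.r lam).toNat < p.pr (.idx lam) := by
    have : p.r lam = (p.pr (.idx lam) : ℤ) := rfl
    omega
  refine ⟨⟨(x % p.r lam).toNat, lt_of_lt_of_le h2 (p.r_le lam)⟩, h2, ?_⟩
  rw [bl_sr]
  simp only [srI, decide_eq_true_eq, ← hx]
  rw [Int.toNat_of_nonneg h0, Int.emod_def]
  exact ⟨-(x / p.r lam), by ring⟩

theorem g_h1 (lam : Lam) (g : G3) : Bl p.valI (dirn lam) (.aux .tau) (!side lam) g ∨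
    Bl p.valI (dirn lam) (.sr lam 0) false g ∨ Bl p.valI (dirn lam) (.hyb lam) true g := by
  rw [bl_aux, bl_sr, bl_hyb]
  by_cases h : bitI (.tau : Bit p.L) g = side lam
  · rw [p.hyb_side lam g h]
    cases p.srI lam 0 g <;> simp
  · left; revert h; cases bitI (.tau : Bit p.L) g <;> cases side lam <;> simp

theorem g_h2 (lam : Lam) (g : G3) : Bl p.valI (dirn lam) (.aux .tau) (!side lam) g ∨
    Bl p.valI (dirn lam) (.sr lam 0) true g ∨ Bl p.valI (dirn lam) (.hyb lam) false g := by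
  rw [bl_aux, bl_sr, bl_hyb]
  by_cases h : bitI (.tau : Bit p.L) g = side lam
  · rw [p.hyb_side lam g h]
    cases p.srI lam 0 g <;> simp
  · left; revert h; cases bitI (.tau : Bit p.L) g <;> cases side lam <;> simp

theorem srI_invC (lam : Lam) (μ : Fin (p.L + 1)) (v : G3) (hv : p.Inv0 (.sr lam μ) v) (g : G3) :
    p.srI lam μ (g - v) = p.srI lam μ g := p.bI_inv0 (.sr lam μ) v hv g

theorem yI_invC (n : Fin 22) (s : ZMod 11) (v : G3) (hv : p.Inv0 (.yy n s) v) (g : G3) :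
    yI n s (g - v) = yI n s g := p.bI_inv0 (.yy n s) v hv g

theorem g_h3 (lam : Lam) (g : G3) : Bl p.valI (dirn lam) (.aux .tau) (!side lam) g ∨
    Lt p.valI (.hyb lam) (1, 0, 0) g := by
  rw [bl_aux]
  by_cases h : bitI (.tau : Bit p.L) g = side lam
  · right
    refine p.lt_bool (by simp [IsB]) ?_ (by simp) (by simp)
    rw [p.hyb_side lam g h, p.hyb_side lam _ ((p.bitI_inv _ _ (by simp [Inv0]) _).trans h),
      p.srI_invC _ _ _ (by simp [Inv0])]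
  · left; revert h; cases bitI (.tau : Bit p.L) g <;> cases side lam <;> simp

theorem g_h4 (n : Fin 22) (s : ZMod 11) (g : G3) : Bl p.valI ((n : ℕ) : ℤ) (.yy n s) false g ∨
    Lt p.valI (.hyb (some (n, s))) (-(((n : ℕ) : ℤ) * (2 * p.E .two)), 2 * p.E .two, 0) g := by
  rw [bl_yy]
  cases h : yI n s g
  · left; rfl
  · right
    refine p.lt_bool (by simp [IsB]) ?_ ((p.mm_dvd_E (by simp)).mul_left _) (by simp)
    simp only [bI]
    rw [p.yI_invC n s _ (by simp [Inv0]), h,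
      p.srI_invC _ _ _ (by simp [Inv0, Dvd.dvd.mul_left, p.r2_dvd_E])]
    simp

theorem g_y3 (n : Fin 22) (c c' : ZMod 11) (hc : c + ((n : ℕ) : ZMod 11) * c' ≠ 0) (g : G3) :
    Bl p.valI ((n : ℕ) : ℤ) (.sq false c) false g ∨ Bl p.valI ((n : ℕ) : ℤ) (.sq true c') false g ∨
    Bl p.valI ((n : ℕ) : ℤ) (.yy n (c + ((n : ℕ) : ZMod 11) * c')) true g := by
  rw [bl_sq, bl_sq, bl_yy]
  by_cases h1 : ((g.1 : ℤ) : ZMod 11) = c
  · by_cases h2 : ((g.2.1 : ℤ) : ZMod 11) = c'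
    · right; right
      have e : ((g.1 + ((n : ℕ) : ℤ) * g.2.1 : ℤ) : ZMod 11) = c + ((n : ℕ) : ZMod 11) * c' := by
        push_cast; rw [h1, h2]
      simp only [yI, decide_eq_true_eq]
      rw [lastDigit_of_ne _ (e ▸ hc), e]
    · right; left; simp [bI, h2]
  · left; simp [bI, h1]

theorem g_sud (a : Fin 22 → ZMod 11) (ha : ¬ Good a) (g : G3) :
    Lt p.valI (.hyb none) (0, 0, p.E (.idx none)) g ∨
    ∃ n, Lt p.valI (.hyb (some (n, a n))) (0, 0, p.E (.idx (some (n, a n)))) g := by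
  have hτ : ∀ c : ℤ, bitI (.tau : Bit p.L) (g - (0, 0, c)) = bitI (.tau : Bit p.L) g :=
    fun c => p.bitI_inv _ _ (by simp [Inv0]) g
  cases h : bitI (.tau : Bit p.L) g
  · left
    refine p.lt_bool (by simp [IsB]) ?_ (by simp) (p.mm_dvd_E (by simp))
    simp [bI, hτ, h]
  · right
    have : ∃ n : Fin 22, lastDigit (g.1 + ((n : ℕ) : ℤ) * g.2.1) ≠ a n := by
      by_contra hcon
      push Not at hcon
      exact ha ((funext hcon : (fun n : Fin 22 => lastDigit (g.1 + ((n : ℕ) : ℤ) * g.2.1)) = a) ▸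
        good_lastDigit g.1 g.2.1)
    obtain ⟨n, hn⟩ := this
    refine ⟨n, p.lt_bool (by simp [IsB]) ?_ (by simp) (p.mm_dvd_E (by simp))⟩
    have hy : yI n (a n) g = false := by simp [yI, hn]
    simp only [bI]
    rw [p.yI_invC n _ _ (by simp [Inv0]), hτ, h, hy]
    simp

theorem valI_gates (p : Params) : Gates p.valI where
  q1 := p.g_q1
  q2 := p.g_q2
  q3 := p.g_q3
  q4 := p.g_q4
  q5 := p.g_q5
  q6 := p.g_q6
  r1 := p.g_r1
  r2 := p.g_r2
  r3 := p.g_r3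
  r4 := p.g_r4
  r5 := p.g_r5
  h1 := p.g_h1
  h2 := p.g_h2
  h3 := p.g_h3
  h4 := p.g_h4
  y1 := fun n g => ⟨_, (p.bl_yy n _ _ _).2 (by simp only [yI, decide_eq_true_eq]; rfl)⟩
  y2 := fun n s s' hs g => by
    rw [bl_yy, bl_yy]
    simp only [yI, decide_eq_false_iff_not]
    by_contra hcon
    push Not at hcon
    exact hs (hcon.1.symm.trans hcon.2)
  y3 := p.g_y3
  sud := p.g_sud

end Params
end Vale.Agent.P043
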