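import Mathlib
import Vale.Agent.P043.EncodeS

/-!
Soundness, part A: bits, markers and the two clocks.
-/

namespace Vale.Agent.P043
namespace Params

/-- all rules hold -/
structure Model {p : Params} (val : G3 → p.V) : Prop where
  he : Equivar p.P p.emb val
  hp : Periods val
  hs : Special val
  hg : Gates val

variable {p : Params} {val : G3 → p.V}

/-- value of a bit -/
def B (val : G3 → p.V) (β : Bit p.L) (ε : Bool) (g : G3) : Prop := Bl val 0 (.aux β) ε g

theorem Model.excl (M : Model val) {ι : Ix p.L} (h : ∀ lam, ι ≠ .idx lam) (h2 : ι ≠ .two)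
    {n : ℤ} {g : G3} {ε : Bool} (h3 : Bl val n ι ε g) (h4 : Bl val n ι (!ε) g) : False := by
  cases ε
  · exact bl_excl M.he h h2 n g h3 h4
  · exact bl_excl M.he h h2 n g h4 h3

theorem Model.bit_excl (M : Model val) {β : Bit p.L} {g : G3} {ε : Bool} (h3 : B val β ε g)
    (h4 : B val β (!ε) g) : False :=
  M.excl (by simp) (by simp) h3 h4

theorem Model.bit_tot (M : Model val) (β : Bit p.L) (g : G3) (ε : Bool) :
    B val β ε g ∨ B val β (!ε) g := by
  rcases flip M.he M.hp M.hs β g with h | h <;> cases ε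
  · exact Or.inl h.1
  · exact Or.inr h.1
  · exact Or.inr h.1
  · exact Or.inl h.1

theorem Model.bit_flip (M : Model val) {β : Bit p.L} {g : G3} {ε : Bool} (h : B val β ε g) :
    B val β (!ε) (g - (2 : ℤ) • p.T β) := by
  rcases flip M.he M.hp M.hs β g with h' | h' <;> cases ε
  · exact h'.2
  · exact (M.bit_excl h h'.1).elim
  · exact (M.bit_excl h h'.1).elim
  · exact h'.2

theorem Model.bit_add (M : Model val) {β : Bit p.L} {v : G3} (hv : p.Inv (.aux β) v) (ε : Bool)
    (g : G3) : B val β ε (g + v) ↔ B val β ε g :=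
  M.hp.bl_add hv _ _ _

theorem Model.bit_sub (M : Model val) {β : Bit p.L} {v : G3} (hv : p.Inv (.aux β) v) (ε : Bool)
    (g : G3) : B val β ε (g - v) ↔ B val β ε g :=
  M.hp.bl_sub hv _ _ _

theorem two_T_tau : (2 : ℤ) • p.T .tau = (0, 2 * p.E .two, 0) := by simp [T]

theorem two_T_rho : (2 : ℤ) • p.T .rho = p.tt := by
  ext <;> simp [T, tt]; ring

theorem Model.markers (M : Model val) (g : G3) (pat : Fin (p.L + 1) → Bool) :
    ∃ a : ℤ, ∀ l, B val (.mk l) (pat l) (g - (a * p.E .two, 0, 0)) := by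
  have key : ∀ k : ℕ, ∃ a : ℤ, ∀ l : Fin (p.L + 1), (l : ℕ) < k →
      B val (.mk l) (pat l) (g - (a * p.E .two, 0, 0)) := by
    intro k
    induction k with
    | zero => exact ⟨0, fun l hl => absurd hl (by omega)⟩
    | succ k ih =>
      obtain ⟨a, ha⟩ := ih
      by_cases hk : k < p.L + 1
      · rcases M.bit_tot (.mk ⟨k, hk⟩) (g - (a * p.E .two, 0, 0)) (pat ⟨k, hk⟩) with h | h
        · refine ⟨a, fun l hl => ?_⟩
          by_cases hl' : (l : ℕ) < k
          · exact ha l hl'
          · have : l = ⟨k, hk⟩ := Fin.ext (by simp; omega)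
            rw [this]; exact h
        · refine ⟨a + 2 * 4 ^ k, fun l hl => ?_⟩
          have e : g - ((a + 2 * 4 ^ k) * p.E .two, 0, 0)
              = g - (a * p.E .two, 0, 0) - (2 : ℤ) • p.T (.mk ⟨k, hk⟩) := by
            ext <;> simp [T]; ring
          rw [e]
          by_cases hl' : (l : ℕ) < k
          · rw [M.bit_sub]
            · exact ha l hl'
            · refine ⟨?_, by simp [T], by simp [T]⟩
              simp only [Inv0, T, Prod.smul_mk, smul_eq_mul]
              exact ((pow_dvd_pow 4 (by omega : (l : ℕ) + 1 ≤ k)).mul_right _).mul_left _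
          · have : l = ⟨k, hk⟩ := Fin.ext (by simp; omega)
            rw [this]
            simpa using M.bit_flip h
      · exact ⟨a, fun l _ => ha l (by omega)⟩
  obtain ⟨a, ha⟩ := key (p.L + 1)
  exact ⟨a, fun l => ha l l.2⟩

/-- a site with a prescribed value of `tau` -/
theorem Model.tau_site (M : Model val) (g : G3) (γ : Bool) :
    ∃ b : ℤ, B val .tau γ (g - (0, b * p.E .two, 0)) := by
  rcases M.bit_tot .tau g γ with h | h
  · refine ⟨0, ?_⟩
    have e : g - (0, 0 * p.E .two, 0) = g := by ext <;> simp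
    rw [e]; exact h
  · have := M.bit_flip h
    rw [two_T_tau] at this
    exact ⟨2, by simpa using this⟩

/-- the clock direction -/
def cd (p : Params) (γ : Bool) : G3 := if γ then (0, p.E .qq, 0) else (p.E .qq, 0, 0)

theorem inv_cd (p : Params) (γ : Bool) (β : Bit p.L) (i : ℤ) : p.Inv (.aux β) (i • p.cd γ) := by
  cases γ <;> cases β <;>
    simp [Inv, Inv0, cd, Dvd.dvd.mul_left, p.four_dvd_E, p.K_dvd_E, p.mk_dvd_E, p.NN_dvd_E]

theorem Model.qq_rho0 (M : Model val) (γ : Bool) (x : G3) (hx : B val .rho false x) (i : ℤ) :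
    val (x + i • p.cd γ) .qq = val x .qq := by
  cases γ
  · have h := (step_zsmul (fun g => val g .qq) ((1, 0, 0) : G3) 0 (B val .rho false)
      (fun g => (M.bit_add (by simp [Inv, Inv0]) _ _).symm) (fun g hg => ?_) x hx
      (i * p.E .qq)).2
    · have e : i • p.cd false = (i * p.E .qq) • ((1, 0, 0) : G3) := by simp [cd]
      rw [e]; simpa using h
    · have hg' : B val .rho false (g + (1, 0, 0)) := (M.bit_add (by simp [Inv, Inv0]) _ _).2 hg
      rcases M.hg.q1 (g + (1, 0, 0)) with h | h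
      · exact (M.bit_excl hg' h).elim
      · simpa [Lt] using h.symm
  · have hi : p.Inv (.aux .rho) (p.cd true) := by simpa using p.inv_cd true .rho 1
    have h := (step_zsmul (fun g => val g .qq) (p.cd true) 0 (B val .rho false)
      (fun g => (M.bit_add hi _ _).symm) (fun g hg => ?_) x hx i).2
    · simpa using h
    · have hg' : B val .rho false (g + p.cd true) := (M.bit_add hi _ _).2 hg
      rcases M.hg.q2 (g + p.cd true) with h | h
      · exact (M.bit_excl hg' h).elim
      · simpa [Lt, cd] using h.symm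

theorem Model.qq_rho1 (M : Model val) (γ : Bool) (x : G3) (hx : B val .rho true x)
    (hx' : B val .tau γ x) (i : ℤ) : val (x + i • p.cd γ) .qq = val x .qq - i := by
  have hi : ∀ β, p.Inv (.aux β) (p.cd γ) := fun β => by simpa using p.inv_cd γ β 1
  have hz : ∀ β, p.Inv (.aux β) (0, 0, p.E .qq) := fun β => by
    cases β <;> simp [Inv, Inv0, p.NN_dvd_E]
  have h := (step_zsmul (fun g => val g .qq) (p.cd γ) (-1)
    (fun g => B val .rho true g ∧ B val .tau γ g)
    (fun g => by rw [M.bit_add (hi _), M.bit_add (hi _)]) (fun g hg => ?_) x ⟨hx, hx'⟩ i).2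
  · rw [h]; simp [sub_eq_add_neg]
  · have h1 : B val .rho true (g + p.cd γ + (0, 0, p.E .qq)) := by
      rw [M.bit_add (hz _), M.bit_add (hi _)]; exact hg.1
    have h2 : B val .tau γ (g + p.cd γ + (0, 0, p.E .qq)) := by
      rw [M.bit_add (hz _), M.bit_add (hi _)]; exact hg.2
    have h3 := stepE M.he (ι := .qq) (by simp) (g + p.cd γ) 1
    rw [one_mul] at h3
    have h4 : val g .qq = val (g + p.cd γ + (0, 0, p.E .qq)) .qq := by
      cases γ
      · rcases M.hg.q3 (g + p.cd false + (0, 0, p.E .qq)) with h | h | h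
        · exact (M.bit_excl h1 h).elim
        · exact (M.bit_excl h2 h).elim
        · have e : g + p.cd false + (0, 0, p.E .qq) - (p.E .qq, 0, p.E .qq) = g := by
            ext <;> simp [cd]
          simpa only [Lt, e] using h
      · rcases M.hg.q4 (g + p.cd true + (0, 0, p.E .qq)) with h | h | h
        · exact (M.bit_excl h1 h).elim
        · exact (M.bit_excl h2 h).elim
        · have e : g + p.cd true + (0, 0, p.E .qq) - (0, p.E .qq, p.E .qq) = g := by
            ext <;> simp [cd]
          simpa only [Lt, e] using h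
    rw [h4, h3]; simp

theorem Model.clock_inj (M : Model val) (γ : Bool) (μ : ZMod 11) (g : G3) (i i' : ℤ)
    (h1 : Bl val 0 (.sq γ μ) true (g + i • p.cd γ))
    (h2 : Bl val 0 (.sq γ μ) true (g + i' • p.cd γ)) : (i : ZMod 11) = (i' : ZMod 11) := by
  obtain ⟨a, ha⟩ := M.markers g (code μ.val)
  obtain ⟨b, hb⟩ := M.tau_site (g - (a * p.E .two, 0, 0)) γ
  set x := g - (a * p.E .two, 0, 0) - (0, b * p.E .two, 0) with hx
  have hmk : ∀ l, B val (.mk l) (code μ.val l) x := fun l => by
    rw [hx, M.bit_sub]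
    · exact ha l
    · simp [Inv, Inv0, Dvd.dvd.mul_left, p.NN_dvd_E]
  have key : ∀ j : ℤ, Bl val 0 (.sq γ μ) true (g + j • p.cd γ) →
      val (x - p.tt + j • p.cd γ) .qq = val (x + j • p.cd γ) .qq := by
    intro j hj
    have hj' : Bl val 0 (.sq γ μ) true (x + j • p.cd γ) := by
      have e : x + j • p.cd γ = g + j • p.cd γ - (a * p.E .two, b * p.E .two, 0) := by
        rw [hx]; ext <;> simp <;> ring
      rw [e, M.hp.bl_sub]
      · exact hj
      · cases γ <;> simp [Inv, Inv0, Dvd.dvd.mul_left, p.NN_dvd_E, p.q_dvd_E]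
    rcases M.hg.q5 γ μ (x + j • p.cd γ) with h | ⟨l, h⟩ | h | h
    · exact (M.bit_excl ((M.bit_add (p.inv_cd γ _ j) _ _).2 hb) h).elim
    · exact (M.bit_excl ((M.bit_add (p.inv_cd γ _ j) _ _).2 (hmk l)) h).elim
    · exact (M.excl (by simp) (by simp) h hj').elim
    · have e : x - p.tt + j • p.cd γ = x + j • p.cd γ - p.tt := by abel
      rw [e]; exact h
  have hb' : B val .tau γ (x - p.tt) := by
    rw [M.bit_sub]
    · exact hb
    · refine ⟨?_, ?_, ?_⟩
      · simp only [Inv0, tt]; exact Dvd.dvd.mul_right (by norm_num) _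
      · simp [tt, Dvd.dvd.mul_left, p.NN_dvd_E]
      · simp [tt]
  have k1 := key i h1
  have k2 := key i' h2
  have fin : ((i : ℤ) : ZMod (mm p.pr .qq)) = ((i' : ℤ) : ZMod (mm p.pr .qq)) := by
    rcases M.bit_tot .rho x false with h | h
    · have h' := M.bit_flip h
      rw [two_T_rho] at h'
      rw [M.qq_rho0 γ x h, M.qq_rho1 γ _ h' hb'] at k1 k2
      exact sub_right_injective (k1.trans k2.symm)
    · have h' := M.bit_flip h
      rw [two_T_rho] at h'
      rw [M.qq_rho0 γ _ h', M.qq_rho1 γ _ h hb] at k1 k2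
      exact sub_right_injective (k1.symm.trans k2)
  exact fin

theorem Model.clock (M : Model val) (γ : Bool) (g : G3) : ∃ φ : ZMod 11 → ZMod 11,
    Function.Injective φ ∧
      ∀ i : ℤ, Bl val 0 (.sq γ (φ (i : ZMod 11))) true (g + i • p.cd γ) := by
  choose φ hφ using fun c : ZMod 11 => M.hg.q6 γ (g + ((c.val : ℕ) : ℤ) • p.cd γ)
  refine ⟨φ, fun c c' h => ?_, fun i => ?_⟩
  · have := M.clock_inj γ (φ c) g _ _ (hφ c) (h ▸ hφ c')
    simpa using this
  · obtain ⟨k, hk⟩ : (11 : ℤ) ∣ i - (((i : ZMod 11).val : ℕ) : ℤ) := by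
      have := (ZMod.intCast_eq_intCast_iff_dvd_sub (((i : ZMod 11).val : ℕ) : ℤ) i 11).1
        (by simp)
      simpa using this
    have e : g + i • p.cd γ = g + (((i : ZMod 11).val : ℕ) : ℤ) • p.cd γ + (11 * k) • p.cd γ := by
      rw [add_assoc, ← add_smul, ← hk]; simp
    rw [e, M.hp.bl_add]
    · exact hφ _
    · refine ⟨?_, ?_, ?_⟩
      · cases γ <;> simp [Inv0, cd, mul_assoc]
      · cases γ <;> simp [cd, Dvd.dvd.mul_left, p.NN_dvd_E]
      · cases γ <;> simp [cd]

end Params
end Vale.Agent.P043
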