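import Mathlib
import Vale.Agent.P043.SoundA

/-!
Soundness, part B: the index clocks and the activity of the hybrid coordinates.
-/

namespace Vale.Agent.P043
namespace Params

variable {p : Params} {val : G3 → p.V}

theorem inv_aux_idx (p : Params) (lam : Lam) (β : Bit p.L) (b c : ℤ) :
    p.Inv (.aux β) (0, b * p.E (.idx lam), c * p.E (.idx lam)) := by
  cases β <;>
    simp [Inv, Inv0, Dvd.dvd.mul_left, p.four_dvd_E, p.K_dvd_E, p.NN_dvd_E]

theorem Model.idx_rho0 (M : Model val) (lam : Lam) (x : G3) (hx : B val .rho false x) (a b : ℤ) :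
    val (x + (a, b * p.E (.idx lam), 0)) (.idx lam) = val x (.idx lam) := by
  have h := (step_zsmul (fun g => val g (.idx lam)) ((1, 0, 0) : G3) 0 (B val .rho false)
    (fun g => (M.bit_add (by simp [Inv, Inv0]) _ _).symm) (fun g hg => by
      have hg' : B val .rho false (g + (1, 0, 0)) := (M.bit_add (by simp [Inv, Inv0]) _ _).2 hg
      rcases M.hg.r1 lam (g + (1, 0, 0)) with h | h
      · exact (M.bit_excl hg' h).elim
      · simpa [Lt] using h.symm) x hx a)
  have hi : p.Inv (.aux .rho) (0, p.E (.idx lam), 0) := by simpa using p.inv_aux_idx lam .rho 1 0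
  have h' := (step_zsmul (fun g => val g (.idx lam)) ((0, p.E (.idx lam), 0) : G3) 0
    (B val .rho false) (fun g => (M.bit_add hi _ _).symm) (fun g hg => by
      have hg' : B val .rho false (g + (0, p.E (.idx lam), 0)) := (M.bit_add hi _ _).2 hg
      rcases M.hg.r2 lam (g + (0, p.E (.idx lam), 0)) with h | h
      · exact (M.bit_excl hg' h).elim
      · simpa [Lt] using h.symm) _ h.1 b).2
  have e : x + (a, b * p.E (.idx lam), 0)
      = x + a • ((1, 0, 0) : G3) + b • ((0, p.E (.idx lam), 0) : G3) := by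
    ext <;> simp
  rw [e, h', h.2]; simp

theorem Model.idx_rho1 (M : Model val) (lam : Lam) (x : G3) (hx : B val .rho true x) (b : ℤ) :
    val (x + (0, b * p.E (.idx lam), b * p.E (.idx lam))) (.idx lam) = val x (.idx lam) := by
  have hi : p.Inv (.aux .rho) (0, p.E (.idx lam), p.E (.idx lam)) := by
    simpa using p.inv_aux_idx lam .rho 1 1
  have h' := (step_zsmul (fun g => val g (.idx lam))
    ((0, p.E (.idx lam), p.E (.idx lam)) : G3) 0
    (B val .rho true) (fun g => (M.bit_add hi _ _).symm) (fun g hg => by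
      have hg' : B val .rho true (g + (0, p.E (.idx lam), p.E (.idx lam))) :=
        (M.bit_add hi _ _).2 hg
      rcases M.hg.r3 lam (g + (0, p.E (.idx lam), p.E (.idx lam))) with h | h
      · exact (M.bit_excl hg' h).elim
      · simpa [Lt] using h.symm) _ hx b).2
  have e : x + (0, b * p.E (.idx lam), b * p.E (.idx lam))
      = x + b • ((0, p.E (.idx lam), p.E (.idx lam)) : G3) := by
    ext <;> simp
  rw [e, h']; simp

theorem Model.rho_pair (M : Model val) (ι : Ix p.L) (g : G3) : ∃ u w : G3,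
    B val .rho false u ∧ B val .rho true w ∧
      ∀ v, Lt val ι p.tt (g + v) → val (u + v) ι = val (w + v) ι := by
  have e : ∀ v, g + v - p.tt = g - p.tt + v := fun v => by abel
  rcases M.bit_tot .rho g false with h | h
  · have h' := M.bit_flip h
    rw [two_T_rho] at h'
    exact ⟨g, g - p.tt, h, h', fun v hv => by rw [Lt, e] at hv; exact hv.symm⟩
  · have h' := M.bit_flip h
    rw [two_T_rho] at h'
    exact ⟨g - p.tt, g, h', h, fun v hv => by rw [Lt, e] at hv; exact hv⟩

theorem Model.link (M : Model val) (lam : Lam) (g : G3) :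
    ∃ (ν0 : ℤ → ZMod (mm p.pr (.idx lam))) (ν : Fin (p.L + 1) → ℤ → ZMod (mm p.pr (.idx lam))),
      (∀ μ d c, ν μ (d + c * p.r lam) = ν μ d + c) ∧
      ∀ μ a d, ¬ Bl val 0 (.sr lam μ) false (g + (0, a * p.E (.idx lam), d * p.E (.idx lam))) →
        ν0 d = ν μ (d - a) := by
  obtain ⟨u, w, hu, hw, huw⟩ := M.rho_pair (.idx lam) g
  choose s hs using fun μ : Fin (p.L + 1) => M.markers g (code (μ : ℕ))
  refine ⟨fun d => val (u + (0, 0, d * p.E (.idx lam))) (.idx lam),
    fun μ d => val (w + (-(s μ * p.E .two), 0, d * p.E (.idx lam))) (.idx lam), ?_, ?_⟩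
  · intro μ d c
    have := stepR M.he lam (w + (-(s μ * p.E .two), 0, d * p.E (.idx lam))) c
    have e : w + (-(s μ * p.E .two), 0, d * p.E (.idx lam))
        + (0, 0, c * (p.r lam * p.E (.idx lam)))
        = w + (-(s μ * p.E .two), 0, (d + c * p.r lam) * p.E (.idx lam)) := by
      ext <;> simp; ring
    rw [e] at this
    exact this
  · intro μ a d h
    have h1 : Lt val (.idx lam) p.tt
        (g + (-(s μ * p.E .two), a * p.E (.idx lam), d * p.E (.idx lam))) := by
      rcases M.hg.r4 lam μ (g + (-(s μ * p.E .two), a * p.E (.idx lam), d * p.E (.idx lam)))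
        with ⟨l, h'⟩ | h' | h'
      · refine (M.bit_excl (β := .mk l) ?_ h').elim
        have e : g + (-(s μ * p.E .two), a * p.E (.idx lam), d * p.E (.idx lam))
            = g - (s μ * p.E .two, 0, 0) + (0, a * p.E (.idx lam), d * p.E (.idx lam)) := by
          ext <;> simp; ring
        rw [e, M.bit_add (p.inv_aux_idx lam _ _ _)]
        exact hs μ l
      · refine (h ?_).elim
        have e : g + (-(s μ * p.E .two), a * p.E (.idx lam), d * p.E (.idx lam))
            = g + (0, a * p.E (.idx lam), d * p.E (.idx lam)) + (-(s μ * p.E .two), 0, 0) := by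
          ext <;> simp
        rw [e, M.hp.bl_add (by simp [Inv, Inv0])] at h'
        exact h'
      · exact h'
    have h2 := huw _ h1
    have hu' : B val .rho false (u + (0, 0, d * p.E (.idx lam))) := by
      have := p.inv_aux_idx lam .rho 0 d
      rw [zero_mul] at this
      rw [M.bit_add this]; exact hu
    have h3 := M.idx_rho0 lam _ hu' (-(s μ * p.E .two)) a
    have hw' : B val .rho true (w + (-(s μ * p.E .two), 0, (d - a) * p.E (.idx lam))) := by
      rw [M.bit_add]
      · exact hw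
      · simp [Inv, Inv0, Dvd.dvd.mul_left, p.NN_dvd_E]
    have h4 := M.idx_rho1 lam _ hw' a
    have e3 : u + (0, 0, d * p.E (.idx lam)) + (-(s μ * p.E .two), a * p.E (.idx lam), 0)
        = u + (-(s μ * p.E .two), a * p.E (.idx lam), d * p.E (.idx lam)) := by
      ext <;> simp
    have e4 : w + (-(s μ * p.E .two), 0, (d - a) * p.E (.idx lam))
        + (0, a * p.E (.idx lam), a * p.E (.idx lam))
        = w + (-(s μ * p.E .two), a * p.E (.idx lam), d * p.E (.idx lam)) := by
      ext <;> simp; ring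
    rw [e3] at h3
    rw [e4] at h4
    show val (u + (0, 0, d * p.E (.idx lam))) (.idx lam)
      = val (w + (-(s μ * p.E .two), 0, (d - a) * p.E (.idx lam))) (.idx lam)
    rw [← h3, ← h4, h2]

theorem Model.sr_het (M : Model val) (lam : Lam) (g : G3) : ∃ a d : ℤ,
    Bl val 0 (.sr lam 0) true (g + (0, a * p.E (.idx lam), 0 * p.E (.idx lam))) ∧
    Bl val 0 (.sr lam 0) false (g + (0, a * p.E (.idx lam), d * p.E (.idx lam))) := by
  obtain ⟨ν0, ν, hν, hl⟩ := M.link lam g
  have hex : ∀ c : ℤ, ∃ s : ℤ, Bl val 0 (.sr lam 0) true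
      (g + (0, (c + s * p.r lam) * p.E (.idx lam), 0 * p.E (.idx lam))) := by
    intro c
    choose μ hμ hb using fun s : Fin (p.pr (.idx lam)) => M.hg.r5 lam
      (g + (0, (c + ((s : ℕ) : ℤ) * p.r lam) * p.E (.idx lam), 0 * p.E (.idx lam)))
    have hinj : Function.Injective
        (fun s : Fin (p.pr (.idx lam)) => (⟨μ s, hμ s⟩ : Fin (p.pr (.idx lam)))) := by
      intro s s' hss
      have e : μ s = μ s' := Fin.ext (by simpa using hss)
      have h1 := hl (μ s) _ 0 (fun h => M.excl (by simp) (by simp) h (hb s))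
      have h2 := hl (μ s') _ 0 (fun h => M.excl (by simp) (by simp) h (hb s'))
      rw [← e, h1] at h2
      have e1 : ∀ t : ℤ, (0 : ℤ) - (c + t * p.r lam) = -c + (-t) * p.r lam := fun t => by ring
      rw [e1, e1, hν, hν] at h2
      have h3 : (((s : ℕ) : ℤ) : ZMod (mm p.pr (.idx lam))) = (((s' : ℕ) : ℤ) : ZMod _) := by
        simpa using h2
      have h4 : ((s : ℕ) : ZMod (mm p.pr (.idx lam))) = ((s' : ℕ) : ZMod (mm p.pr (.idx lam))) := by
        exact_mod_cast h3
      have hm : mm p.pr (.idx lam) = p.pr (.idx lam) := rfl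
      rw [ZMod.natCast_eq_natCast_iff', hm, Nat.mod_eq_of_lt s.2, Nat.mod_eq_of_lt s'.2] at h4
      exact Fin.ext h4
    obtain ⟨s, hs⟩ := Finite.surjective_of_injective hinj ⟨0, (p.prime _).pos⟩
    have e : μ s = 0 := Fin.ext (by simpa using hs)
    exact ⟨_, e ▸ hb s⟩
  obtain ⟨s0, h0⟩ := hex 0
  obtain ⟨s1, h1⟩ := hex 1
  by_contra hcon
  push Not at hcon
  have k0 := fun d => hl 0 _ d (hcon _ d h0)
  have k1 := fun d => hl 0 _ d (hcon _ d h1)
  have step : ∀ d : ℤ, ν 0 (d + 1) = ν 0 d + ((s0 - s1 : ℤ) : ZMod _) := by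
    intro d
    have a0 := k0 (d + 1)
    have a1 := k1 (d + 1)
    have e0 : d + 1 - (0 + s0 * p.r lam) = d + 1 + (-s0) * p.r lam := by ring
    have e1 : d + 1 - (1 + s1 * p.r lam) = d + (-s1) * p.r lam := by ring
    rw [e0, hν] at a0
    rw [e1, hν, a0] at a1
    push_cast at a1 ⊢
    linear_combination a1
  have h := (step_zsmul (ν 0) 1 _ (fun _ => True) (by simp) (fun d _ => step d) 0 trivial
    (p.r lam)).2
  have h' := hν 0 0 1
  have hr : ((p.r lam : ℤ) : ZMod (mm p.pr (.idx lam))) = 0 := by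
    rw [← p.mm_idx]; simp
  simp only [smul_eq_mul, mul_one, one_mul, zsmul_eq_mul, hr, zero_mul, add_zero] at h h'
  rw [h] at h'
  have : Fact (1 < mm p.pr (.idx lam)) := ⟨p.one_lt_mm _⟩
  simp at h'

/-- activity of a hybrid coordinate -/
def Act (val : G3 → p.V) (lam : Lam) (g : G3) : Prop :=
  ¬ Lt val (.hyb lam) (0, 0, p.E (.idx lam)) g

theorem Model.tau_dir (M : Model val) (n : ℤ) (ε : Bool) (g : G3) :
    Bl val n (.aux .tau) ε g ↔ B val .tau ε g :=
  M.hp.bl_dir (by simp [Inv, Inv0]) _ _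

theorem Model.sr_dir (M : Model val) (n : ℤ) (lam : Lam) (μ : Fin (p.L + 1)) (ε : Bool) (g : G3) :
    Bl val n (.sr lam μ) ε g ↔ Bl val 0 (.sr lam μ) ε g :=
  M.hp.bl_dir (by simp [Inv, Inv0]) _ _

theorem Model.hyb_x (M : Model val) (lam : Lam) (g : G3) (hg : B val .tau (side lam) g) (a : ℤ) :
    val (g + (a, 0, 0)) (.hyb lam) = val g (.hyb lam) := by
  have h := (step_zsmul (fun g => val g (.hyb lam)) ((1, 0, 0) : G3) 0 (B val .tau (side lam))
    (fun g => (M.bit_add (by simp [Inv, Inv0]) _ _).symm) (fun g hg => by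
      have hg' : B val .tau (side lam) (g + (1, 0, 0)) :=
        (M.bit_add (by simp [Inv, Inv0]) _ _).2 hg
      rcases M.hg.h3 lam (g + (1, 0, 0)) with h | h
      · exact (M.bit_excl hg' ((M.tau_dir _ _ _).1 h)).elim
      · simpa [Lt] using h.symm) g hg a).2
  have e : a • ((1, 0, 0) : G3) = (a, 0, 0) := by simp
  rw [e] at h; simpa using h

/-- shifts that a hybrid coordinate does not see on its own side -/
def HInv (p : Params) (lam : Lam) (v : G3) : Prop :=
  p.K ∣ v.2.1 ∧ p.r lam ^ 2 ∣ v.2.1 ∧ p.r lam ∣ v.2.2 ∧ (NN p.pr (.hyb lam) : ℤ) ∣ v.2.1 ∧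
    (NN p.pr (.hyb lam) : ℤ) ∣ v.2.2

theorem Model.hyb_inv (M : Model val) (lam : Lam) (g : G3) (hg : B val .tau (side lam) g)
    (v : G3) (hv : p.HInv lam v) : val (g + v) (.hyb lam) = val g (.hyb lam) := by
  have e : g + v = g + (v.1 + dirn lam * v.2.1, 0, 0) + (-(dirn lam * v.2.1), v.2.1, v.2.2) := by
    ext <;> simp; ring
  rw [e, M.hp.add, M.hyb_x lam g hg]
  exact ⟨⟨by simp, hv.1, hv.2.1, hv.2.2.1⟩, hv.2.2.2.1, hv.2.2.2.2⟩

theorem Model.act_inv (M : Model val) (lam : Lam) (g : G3) (hg : B val .tau (side lam) g)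
    (v : G3) (hv : p.HInv lam v) : Act val lam (g + v) ↔ Act val lam g := by
  have hg' : B val .tau (side lam) (g - (0, 0, p.E (.idx lam))) := by
    rw [M.bit_sub]
    · exact hg
    · simpa using p.inv_aux_idx lam .tau 0 1
  have e : g + v - (0, 0, p.E (.idx lam)) = g - (0, 0, p.E (.idx lam)) + v := by abel
  simp only [Act, Lt]
  rw [e, M.hyb_inv lam _ hg v hv, M.hyb_inv lam _ hg' v hv]

theorem Model.act_ex (M : Model val) (lam : Lam) (g : G3) (hg : B val .tau (side lam) g) :
    ∃ a b d : ℤ, Act val lam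
      (g + (0, a * p.E (.idx lam) + b * p.E (.hyb lam), d * p.E (.idx lam))) := by
  obtain ⟨a, d, h1, h0⟩ := M.sr_het lam g
  by_contra hcon
  push Not at hcon
  simp only [Act, not_not] at hcon
  have const : ∀ b c : ℤ,
      val (g + (0, a * p.E (.idx lam) + b * p.E (.hyb lam), c * p.E (.idx lam))) (.hyb lam)
      = val (g + (0, a * p.E (.idx lam) + b * p.E (.hyb lam), 0 * p.E (.idx lam))) (.hyb lam) := by
    intro b c
    have := (step_zsmul (fun c : ℤ =>
      val (g + (0, a * p.E (.idx lam) + b * p.E (.hyb lam), c * p.E (.idx lam))) (.hyb lam))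
      1 0 (fun _ => True) (by simp) (fun c _ => by
        have h := hcon a b (c + 1)
        have e : g + (0, a * p.E (.idx lam) + b * p.E (.hyb lam), (c + 1) * p.E (.idx lam))
            - (0, 0, p.E (.idx lam))
            = g + (0, a * p.E (.idx lam) + b * p.E (.hyb lam), c * p.E (.idx lam)) := by
          ext <;> simp; ring
        rw [Lt, e] at h
        simpa using h.symm) 0 trivial c).2
    simpa using this
  have htau : ∀ b c : ℤ, B val .tau (side lam)
      (g + (0, a * p.E (.idx lam) + b * p.E (.hyb lam), c * p.E (.idx lam))) := by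
    intro b c
    rw [M.bit_add]
    · exact hg
    · refine ⟨?_, ?_, ?_⟩
      · exact dvd_add ((p.four_dvd_E (by simp)).mul_left _) ((p.four_dvd_E (by simp)).mul_left _)
      · exact dvd_add ((p.NN_dvd_E (by simp)).mul_left _) ((p.NN_dvd_E (by simp)).mul_left _)
      · exact (p.NN_dvd_E (by simp)).mul_left _
  have e0 : ∀ c : ℤ, g + (0, a * p.E (.idx lam), c * p.E (.idx lam))
      = g + (0, a * p.E (.idx lam) + 0 * p.E (.hyb lam), c * p.E (.idx lam)) := fun c => by simp
  have down : ∀ c : ℤ,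
      val (g + (0, a * p.E (.idx lam) + 0 * p.E (.hyb lam), c * p.E (.idx lam))
        - p.bsh (dirn lam) (.hyb lam) false) (.hyb lam)
      = val (g + (0, a * p.E (.idx lam) + (-2) * p.E (.hyb lam), c * p.E (.idx lam)))
        (.hyb lam) := by
    intro c
    have e : g + (0, a * p.E (.idx lam) + 0 * p.E (.hyb lam), c * p.E (.idx lam))
        - p.bsh (dirn lam) (.hyb lam) false
        = g + (0, a * p.E (.idx lam) + (-2) * p.E (.hyb lam), c * p.E (.idx lam))
          + (dirn lam * (2 * p.E (.hyb lam)), 0, 0) := by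
      ext <;> simp [bsh]; ring
    rw [e, M.hyb_x lam _ (htau _ _)]
  rw [e0] at h1 h0
  have t1 : Bl val (dirn lam) (.hyb lam) true
      (g + (0, a * p.E (.idx lam) + 0 * p.E (.hyb lam), 0 * p.E (.idx lam))) := by
    rcases M.hg.h1 lam (g + (0, a * p.E (.idx lam) + 0 * p.E (.hyb lam), 0 * p.E (.idx lam)))
      with h | h | h
    · exact (M.bit_excl (htau _ _) ((M.tau_dir _ _ _).1 h)).elim
    · exact (M.excl (by simp) (by simp) ((M.sr_dir _ _ _ _ _).1 h) h1).elim
    · exact h
  have t0 : Bl val (dirn lam) (.hyb lam) false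
      (g + (0, a * p.E (.idx lam) + 0 * p.E (.hyb lam), d * p.E (.idx lam))) := by
    rcases M.hg.h2 lam (g + (0, a * p.E (.idx lam) + 0 * p.E (.hyb lam), d * p.E (.idx lam)))
      with h | h | h
    · exact (M.bit_excl (htau _ _) ((M.tau_dir _ _ _).1 h)).elim
    · exact (M.excl (by simp) (by simp) h0 ((M.sr_dir _ _ _ _ _).1 h)).elim
    · exact h
  rw [bl_true_iff M.he (by simp), down] at t1
  rw [Bl, Lt, down, const, const 0 d, t1] at t0
  exact two_ne_zero' (p := p) (ι := .hyb lam) (by simp) (by simpa using t0)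

end Params
end Vale.Agent.P043
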