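import Mathlib
import Vale.Agent.P043.SoundB

/-!
Soundness: every colouring obeying the rules writes a Sudoku solution, so it is not periodic.
-/

namespace Vale.Agent.P043
namespace Params

variable {p : Params} {val : G3 → p.V}

/-- offset to the side of a label -/
def off (p : Params) : Lam → G3
  | none => 0
  | some _ => (0, 2 * p.E .two, 0)

theorem Model.side_off (M : Model val) (lam : Lam) (g : G3) (hg : B val .tau true g) :
    B val .tau (side lam) (g - p.off lam) := by
  cases lam with
  | none => simpa [off, side] using hg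
  | some x =>
    have := M.bit_flip hg
    rw [two_T_tau] at this
    exact this

theorem Model.base (M : Model val) : ∃ g : G3, B val .tau true g ∧
    ∀ lam, Act val lam (g - p.off lam) := by
  classical
  have key : ∀ S : Finset Lam, ∃ g : G3, B val .tau true g ∧
      ∀ lam ∈ S, Act val lam (g - p.off lam) := by
    intro S
    induction S using Finset.induction_on with
    | empty =>
      obtain ⟨b, hb⟩ := M.tau_site 0 true
      exact ⟨_, hb, by simp⟩
    | insert lam S hl ih =>
      obtain ⟨g, hg, hS⟩ := ih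
      obtain ⟨a, b, d, h⟩ := M.act_ex lam _ (M.side_off lam g hg)
      refine ⟨g + (0, a * p.E (.idx lam) + b * p.E (.hyb lam), d * p.E (.idx lam)), ?_, ?_⟩
      · rw [M.bit_add]
        · exact hg
        · refine ⟨?_, ?_, ?_⟩
          · exact dvd_add ((p.four_dvd_E (by simp)).mul_left _)
              ((p.four_dvd_E (by simp)).mul_left _)
          · exact dvd_add ((p.NN_dvd_E (by simp)).mul_left _) ((p.NN_dvd_E (by simp)).mul_left _)
          · exact (p.NN_dvd_E (by simp)).mul_left _
      · intro lam' hl'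
        rw [add_sub_right_comm]
        rcases Finset.mem_insert.1 hl' with rfl | hl'
        · exact h
        · have hne : lam ≠ lam' := fun e => hl (e ▸ hl')
          rw [M.act_inv lam' _ (M.side_off lam' g hg)]
          · exact hS lam' hl'
          · refine ⟨?_, ?_, ?_, ?_, ?_⟩
            · exact dvd_add ((p.K_dvd_E (by simp)).mul_left _) ((p.K_dvd_E (by simp)).mul_left _)
            · exact dvd_add ((p.r2_dvd_E (by simpa using hne)).mul_left _)
                ((p.r2_dvd_E (by simp)).mul_left _)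
            · exact (p.r_dvd_E (by simpa using hne)).mul_left _
            · exact dvd_add ((p.NN_dvd_E (by simp)).mul_left _)
                ((p.NN_dvd_E (by simpa using hne)).mul_left _)
            · exact (p.NN_dvd_E (by simp)).mul_left _
  obtain ⟨g, hg, h⟩ := key Finset.univ
  exact ⟨g, hg, fun lam => h lam (Finset.mem_univ _)⟩

theorem Model.y_unique (M : Model val) (n : Fin 22) (g : G3) {s s' : ZMod 11}
    (h : Bl val ((n : ℕ) : ℤ) (.yy n s) true g) (h' : Bl val ((n : ℕ) : ℤ) (.yy n s') true g) :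
    s = s' := by
  by_contra hne
  rcases M.hg.y2 n s s' hne g with k | k
  · exact M.excl (by simp) (by simp) k h
  · exact M.excl (by simp) (by simp) k h'

theorem Model.y_site (M : Model val) (n : Fin 22) (s : ZMod 11) (g : G3) (i k : ℤ) :
    Bl val ((n : ℕ) : ℤ) (.yy n s) true (g + (i * p.E .qq, k * p.E .qq, 0)) ↔
      Bl val ((n : ℕ) : ℤ) (.yy n s) true (g + ((i + ((n : ℕ) : ℤ) * k) * p.E .qq, 0, 0)) := by
  have e : g + (i * p.E .qq, k * p.E .qq, 0) = g + ((i + ((n : ℕ) : ℤ) * k) * p.E .qq, 0, 0)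
      + (-(((n : ℕ) : ℤ) * (k * p.E .qq)), k * p.E .qq, 0) := by
    ext <;> simp; ring
  rw [e, M.hp.bl_add]
  simp [Inv, Inv0, Dvd.dvd.mul_left, p.NN_dvd_E]

theorem Model.act_of_y (M : Model val) (n : Fin 22) (s : ZMod 11) (x : G3)
    (hy : Bl val ((n : ℕ) : ℤ) (.yy n s) true x)
    (ha : Act val (some (n, s)) (x - (-(((n : ℕ) : ℤ) * (2 * p.E .two)), 2 * p.E .two, 0))) :
    Act val (some (n, s)) x := by
  have hy' : Bl val ((n : ℕ) : ℤ) (.yy n s) true (x - (0, 0, p.E (.idx (some (n, s))))) := by
    rw [M.hp.bl_sub]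
    · exact hy
    · simp [Inv, Inv0, p.NN_dvd_E]
  have k1 : Lt val (.hyb (some (n, s))) _ x :=
    (M.hg.h4 n s x).resolve_left fun h => M.excl (by simp) (by simp) h hy
  have k2 : Lt val (.hyb (some (n, s))) _ (x - (0, 0, p.E (.idx (some (n, s))))) :=
    (M.hg.h4 n s _).resolve_left fun h => M.excl (by simp) (by simp) h hy'
  simp only [Act, Lt] at k1 k2 ha ⊢
  rw [sub_right_comm, k2, k1] at ha
  exact ha

theorem sound {p : Params} {val : G3 → p.V} (he : Equivar p.P p.emb val) (hp : Periods val)
    (hs : Special val) (hg : Gates val) (D : ℕ) (hD : 0 < D) :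
    ¬ ∀ g u : G3, val (g + D • u) = val g := by
  intro hper
  have M : Model val := ⟨he, hp, hs, hg⟩
  obtain ⟨g, hτ, hact⟩ := M.base
  choose F hF using fun (n : Fin 22) (m : ℤ) => hg.y1 n (g + (m * p.E .qq, 0, 0))
  obtain ⟨φ, hφ, hφ'⟩ := M.clock false g
  obtain ⟨ψ, hψ, hψ'⟩ := M.clock true g
  have hinv : ∀ lam (x k : ℤ), p.HInv lam (x, k * p.E .qq, 0) := fun lam x k =>
    ⟨(p.K_dvd_E (by simp)).mul_left _, (p.r2_dvd_E (by simp)).mul_left _, by simp,
      (p.NN_dvd_E (by simp)).mul_left _, by simp⟩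
  refine sudoku_aperiodic F (fun i k => ?_) φ ψ hφ hψ (fun n i k hne => ?_) D hD (fun n m => ?_)
  · by_contra hbad
    rcases hg.sud _ hbad (g + (i * p.E .qq, k * p.E .qq, 0)) with h | ⟨n, h⟩
    · have h1 := hact none
      have h2 := M.side_off none g hτ
      simp only [off, sub_zero] at h1 h2
      exact (M.act_inv none g h2 _ (hinv none _ _)).2 h1 h
    · refine M.act_of_y n _ _ ((M.y_site n _ g i k).2 (hF n _)) ?_ h
      have e : g + (i * p.E .qq, k * p.E .qq, 0)
          - (-(((n : ℕ) : ℤ) * (2 * p.E .two)), 2 * p.E .two, 0)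
          = g - p.off (some (n, F n (i + ((n : ℕ) : ℤ) * k)))
            + (i * p.E .qq + ((n : ℕ) : ℤ) * (2 * p.E .two), k * p.E .qq, 0) := by
        ext <;> simp [off] <;> ring
      rw [e, M.act_inv _ _ (M.side_off _ g hτ) _ (hinv _ _ _)]
      exact hact _
  · have hA : Bl val ((n : ℕ) : ℤ) (.sq false (φ (i : ZMod 11))) true
        (g + (i * p.E .qq, k * p.E .qq, 0)) := by
      have e : g + (i * p.E .qq, k * p.E .qq, 0) = g + i • p.cd false + (0, k * p.E .qq, 0) := by
        ext <;> simp [cd]
      rw [hp.bl_dir, e, hp.bl_add]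
      · exact hφ' i
      · simp [Inv, Inv0, Dvd.dvd.mul_left, p.NN_dvd_E]
      · refine ⟨?_, by simp, by simp⟩
        simp only [Inv0, dvd_neg]
        exact ((p.q_dvd_E (by simp)).mul_left _).mul_left _
    have hB : Bl val ((n : ℕ) : ℤ) (.sq true (ψ (k : ZMod 11))) true
        (g + (i * p.E .qq, k * p.E .qq, 0)) := by
      have e : g + (i * p.E .qq, k * p.E .qq, 0) = g + k • p.cd true + (i * p.E .qq, 0, 0) := by
        ext <;> simp [cd]
      rw [hp.bl_dir, e, hp.bl_add]
      · exact hψ' k
      · simp [Inv, Inv0]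
      · simp [Inv, Inv0]
    rcases hg.y3 n _ _ hne (g + (i * p.E .qq, k * p.E .qq, 0)) with h | h | h
    · exact (M.excl (by simp) (by simp) h hA).elim
    · exact (M.excl (by simp) (by simp) h hB).elim
    · exact M.y_unique n _ (hF n _) ((M.y_site n _ g i k).1 h)
  · have h1 := hF n (m + D)
    have e : g + ((m + D) * p.E .qq, 0, 0)
        = g + (m * p.E .qq, 0, 0) + D • ((p.E .qq, 0, 0) : G3) := by
      ext <;> simp; ring
    have h2 : Bl val ((n : ℕ) : ℤ) (.yy n (F n (m + D))) true (g + (m * p.E .qq, 0, 0)) := by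
      rw [e] at h1
      simp only [Bl, Lt] at h1 ⊢
      rw [add_sub_right_comm, hper, hper] at h1
      exact h1
    exact M.y_unique n _ h2 (hF n m)

end Params
end Vale.Agent.P043
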