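import Mathlib
import Vale.Agent.P043.Crt
import Vale.Agent.P043.Encode
import Vale.Agent.P043.IntB
import Vale.Agent.P043.IntC
import Vale.Agent.P043.Sound

namespace Vale.Agent.P043

open Params

theorem aperSystem_G3 : AperSystem G3 := by
  obtain ⟨p⟩ := params_nonempty
  obtain ⟨J1, f1, τ1, h1⟩ := p.expr_periods
  obtain ⟨J2, f2, τ2, h2⟩ := p.expr_special
  obtain ⟨J3, f3, τ3, h3⟩ := p.expr_gates
  refine aperSystem_of_cons p.P p.emb p.emb_hom (J := J1 ⊕ J2 ⊕ J3)
    (Sum.elim τ1 (Sum.elim τ2 τ3)) ⟨p.valI, p.valI_equivar, ?_⟩ ?_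
  · rintro (j | j | j)
    · exact (h1 _ p.valI_equivar).1 p.valI_periods j
    · exact (h2 _ p.valI_equivar p.valI_periods).1 p.valI_special j
    · exact (h3 _ p.valI_equivar p.valI_periods).1 p.valI_gates j
  · intro val he hc D hD
    have hp : Periods val := (h1 _ he).2 fun j => hc (Sum.inl j)
    exact sound he hp ((h2 _ he hp).2 fun j => hc (Sum.inr (Sum.inl j)))
      ((h3 _ he hp).2 fun j => hc (Sum.inr (Sum.inr j))) D hD

end Vale.Agent.P043
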